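import Mathlib

/-!
Broadcasting of a Potts spin on rooted ordered trees cut at height `n`.
-/

namespace Vale.Agent.Lib.P154

open scoped BigOperators

/-- The `q`-state Potts channel: probability that a parent with spin `i` gives its child spin `j`. -/
noncomputable def potts (q : ℕ) (lam : ℝ) (i j : Fin q) : ℝ :=
  (if i = j then lam else 0) + (1 - lam) / q

/-- Rooted trees with ordered children, seen up to distance `n` from the root. -/
def Tr : ℕ → Type
  | 0 => Unit
  | n + 1 => Σ k : ℕ, (Fin k → Tr n)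

/-- The set of vertices at distance exactly `n` from the root. -/
def Lvl : (n : ℕ) → Tr n → Type
  | 0, _ => Unit
  | n + 1, T => Σ c : Fin T.1, Lvl n (T.2 c)

instance Lvl.fintype : (n : ℕ) → (T : Tr n) → Fintype (Lvl n T)
  | 0, _ => inferInstanceAs (Fintype Unit)
  | n + 1, T =>
    letI := fun c : Fin T.1 => Lvl.fintype n (T.2 c)
    inferInstanceAs (Fintype (Σ c : Fin T.1, Lvl n (T.2 c)))

instance Lvl.decEq : (n : ℕ) → (T : Tr n) → DecidableEq (Lvl n T)
  | 0, _ => inferInstanceAs (DecidableEq Unit)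
  | n + 1, T =>
    letI := fun c : Fin T.1 => Lvl.decEq n (T.2 c)
    inferInstanceAs (DecidableEq (Σ c : Fin T.1, Lvl n (T.2 c)))

/-- Probability of the level-`n` spins `s`, given that the root of `T` has spin `i`. -/
noncomputable def lik (q : ℕ) (lam : ℝ) :
    (n : ℕ) → (T : Tr n) → Fin q → (Lvl n T → Fin q) → ℝ
  | 0, _, i, s => if s () = i then 1 else 0
  | n + 1, T, i, s =>
    ∏ c : Fin T.1, ∑ j : Fin q, potts q lam i j * lik q lam n (T.2 c) j (fun v => s ⟨c, v⟩)

/-- Probability of the level-`n` spins `s` when the root spin is uniform. -/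
noncomputable def prob (q : ℕ) (lam : ℝ) (n : ℕ) (T : Tr n) (s : Lvl n T → Fin q) : ℝ :=
  ∑ i : Fin q, (1 / (q : ℝ)) * lik q lam n T i s

/-- Posterior probability that the root has spin `i`, given the tree `T` and the level-`n` spins. -/
noncomputable def post (q : ℕ) (lam : ℝ) (n : ℕ) (T : Tr n) (i : Fin q)
    (s : Lvl n T → Fin q) : ℝ :=
  (1 / (q : ℝ)) * lik q lam n T i s / prob q lam n T s

/-- Expected total variation distance between the posterior law of the root spin and the uniform
law, for a fixed tree `T`. -/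
noncomputable def tvTree (q : ℕ) (lam : ℝ) (n : ℕ) (T : Tr n) : ℝ :=
  ∑ s : Lvl n T → Fin q, prob q lam n T s *
    ((1 / 2) * ∑ i : Fin q, |post q lam n T i s - 1 / (q : ℝ)|)

/-- The rooted `d`-ary tree up to level `n`. -/
def regTree (d : ℕ) : (n : ℕ) → Tr n
  | 0 => ()
  | n + 1 => ⟨d, fun _ => regTree d n⟩

/-- Probability that the Galton-Watson tree with Poisson(`d`) offspring, cut at level `n`, is `T`. -/
noncomputable def gwProb (d : ℝ) : (n : ℕ) → Tr n → ℝ
  | 0, _ => 1
  | n + 1, T => (Real.exp (-d) * d ^ T.1 / (T.1.factorial : ℝ)) * ∏ c : Fin T.1, gwProb d n (T.2 c)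

/-- `a_n` for the `d`-ary tree. -/
noncomputable def aReg (q : ℕ) (lam : ℝ) (d : ℕ) (n : ℕ) : ℝ := tvTree q lam n (regTree d n)

/-- `a_n` for the Galton-Watson tree with Poisson(`d`) offspring. -/
noncomputable def aGW (q : ℕ) (lam : ℝ) (d : ℝ) (n : ℕ) : ℝ :=
  ∑' T : Tr n, gwProb d n T * tvTree q lam n T

end Vale.Agent.Lib.P154
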