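import Vale.Agent.Lib.P154.Pot

/-!
Finite symmetric ensembles of likelihood vectors, and how a potential behaves under merging.
-/

namespace Vale.Agent.Lib.P154

open scoped BigOperators
open Filter Topology

variable {q : ℕ}

/-- A finite symmetric normalised ensemble of likelihood vectors. -/
structure Ens {S : Type*} [Fintype S] (L : S → Fin q → ℝ) : Prop where
  nonneg : ∀ s i, 0 ≤ L s i
  symm : ∀ (G : (Fin q → ℝ) → ℝ) (g : Equiv.Perm (Fin q)),
    ∑ s, G (L s) = ∑ s, G (fun i => L s (g i))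
  one : ∀ i, ∑ s, L s i = 1

/-- product of two ensembles -/
def mergeL {S S' : Type*} (L : S → Fin q → ℝ) (L' : S' → Fin q → ℝ) :
    S × S' → Fin q → ℝ := fun p i => L p.1 i * L' p.2 i

theorem mergeL_eq {S S' : Type*} (L : S → Fin q → ℝ) (L' : S' → Fin q → ℝ) (p : S × S') :
    mergeL L L' p = fun i => L p.1 i * L' p.2 i := rfl

theorem Ens.merge {S S' : Type*} [Fintype S] [Fintype S'] {L : S → Fin q → ℝ}
    {L' : S' → Fin q → ℝ} (h : Ens L) (h' : Ens L') : Ens (mergeL L L') := by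
  refine ⟨fun p i => mul_nonneg (h.nonneg _ _) (h'.nonneg _ _), ?_, ?_⟩
  · intro G g
    simp only [mergeL_eq]
    rw [Fintype.sum_prod_type, Fintype.sum_prod_type]
    have h1 : ∀ s, ∑ s', G (fun i => L s i * L' s' i) = ∑ s', G (fun i => L s i * L' s' (g i)) :=
      fun s => h'.symm (fun W => G (fun i => L s i * W i)) g
    simp only [h1]
    rw [Finset.sum_comm]
    conv_rhs => rw [Finset.sum_comm]
    refine Finset.sum_congr rfl fun s' _ => ?_
    exact h.symm (fun W => G (fun i => W i * L' s' (g i))) g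
  · intro i
    simp only [mergeL_eq]
    rw [Fintype.sum_prod_type]
    simp only [← Finset.mul_sum, h'.one, mul_one, h.one]

theorem Ens.sum_star {S S' : Type*} [Fintype S] [Fintype S'] {L : S → Fin q → ℝ}
    {L' : S' → Fin q → ℝ} (h' : Ens L') (F : (Fin q → ℝ) → ℝ) :
    ∑ p, F (mergeL L L' p) = ∑ s, ∑ s', starAvg q F (L s) (L' s') := by
  rw [Fintype.sum_prod_type]
  refine Finset.sum_congr rfl fun s _ => ?_
  simp only [mergeL_eq, starAvg]
  rw [← Finset.mul_sum, Finset.sum_comm]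
  have h1 : ∀ g : Equiv.Perm (Fin q), ∑ s', F (fun i => L s i * L' s' (g i))
      = ∑ s', F (fun i => L s i * L' s' i) :=
    fun g => (h'.symm (fun W => F (fun i => L s i * W i)) g).symm
  simp only [h1]
  rw [Finset.sum_const, Finset.card_univ, Fintype.card_perm, Fintype.card_fin, nsmul_eq_mul]
  have : (q.factorial : ℝ) ≠ 0 := by positivity
  field_simp

theorem Ens.sum_mean (hq : q ≠ 0) {S : Type*} [Fintype S] {L : S → Fin q → ℝ} (h : Ens L) :
    ∑ s, mean q (L s) = 1 := by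
  unfold mean
  rw [← Finset.sum_div, Finset.sum_comm]
  simp only [h.one]
  rw [Finset.sum_const, Finset.card_univ, Fintype.card_fin, nsmul_eq_mul, mul_one]
  exact div_self (by exact_mod_cast hq)

theorem mean_nonneg (q : ℕ) {W : Fin q → ℝ} (h : ∀ i, 0 ≤ W i) : 0 ≤ mean q W :=
  div_nonneg (Finset.sum_nonneg fun i _ => h i) (Nat.cast_nonneg _)

/-- ensembles with nonnegative side functional -/
structure GoodEns {lam : ℝ} (pot : Pot q lam) {S : Type*} [Fintype S] (L : S → Fin q → ℝ) :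
    Prop where
  ens : Ens L
  Z_nonneg : 0 ≤ ∑ s, pot.Z (L s)

variable {lam : ℝ} {pot : Pot q lam}

theorem GoodEns.P_nonneg {S : Type*} [Fintype S] {L : S → Fin q → ℝ} (h : GoodEns pot L) :
    0 ≤ ∑ s, pot.P (L s) := Finset.sum_nonneg fun s _ => pot.P_nonneg _ (h.ens.nonneg s)

theorem GoodEns.P_le (hq : q ≠ 0) {S : Type*} [Fintype S] {L : S → Fin q → ℝ}
    (h : GoodEns pot L) : ∑ s, pot.P (L s) ≤ 1 := by
  rw [← h.ens.sum_mean hq]
  exact Finset.sum_le_sum fun s _ => pot.P_le _ (h.ens.nonneg s)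

theorem GoodEns.one_sub_nonneg (hq : q ≠ 0) {S : Type*} [Fintype S] {L : S → Fin q → ℝ}
    (h : GoodEns pot L) : 0 ≤ 1 - pot.c * ∑ s, pot.P (L s) := by
  have h1 := h.P_le hq
  have h2 := pot.c_pos
  have h3 := pot.c_le
  nlinarith [h.P_nonneg]

theorem GoodEns.merge (hq : q ≠ 0) {S S' : Type*} [Fintype S] [Fintype S'] {L : S → Fin q → ℝ}
    {L' : S' → Fin q → ℝ} (h : GoodEns pot L) (h' : GoodEns pot L') :
    GoodEns pot (mergeL L L') ∧
    (1 - pot.c * ∑ s, pot.P (L s)) * (1 - pot.c * ∑ s, pot.P (L' s))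
      ≤ 1 - pot.c * ∑ p, pot.P (mergeL L L' p) := by
  have hK : 0 ≤ ∑ s, pot.K (L s) := Finset.sum_nonneg fun s _ => pot.K_nonneg _ (h.ens.nonneg s)
  have hK' : 0 ≤ ∑ s, pot.K (L' s) :=
    Finset.sum_nonneg fun s _ => pot.K_nonneg _ (h'.ens.nonneg s)
  have hH : 0 ≤ ∑ s, pot.H (L s) := Finset.sum_nonneg fun s _ => pot.H_nonneg _ (h.ens.nonneg s)
  have hH' : 0 ≤ ∑ s, pot.H (L' s) :=
    Finset.sum_nonneg fun s _ => pot.H_nonneg _ (h'.ens.nonneg s)
  constructor
  · refine ⟨h.ens.merge h'.ens, ?_⟩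
    rw [h'.ens.sum_star]
    have h1 : ∑ s, ∑ s', (pot.K (L' s') * pot.Z (L s) + pot.K (L s) * pot.Z (L' s'))
        ≤ ∑ s, ∑ s', starAvg q pot.Z (L s) (L' s') :=
      Finset.sum_le_sum fun s _ => Finset.sum_le_sum fun s' _ =>
        pot.starZ _ _ (h.ens.nonneg s) (h'.ens.nonneg s')
    refine le_trans ?_ h1
    have h2 : ∑ s, ∑ s', (pot.K (L' s') * pot.Z (L s) + pot.K (L s) * pot.Z (L' s'))
        = (∑ s', pot.K (L' s')) * (∑ s, pot.Z (L s))
          + (∑ s, pot.K (L s)) * ∑ s', pot.Z (L' s') := by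
      simp only [Finset.sum_add_distrib]
      congr 1
      · rw [Finset.sum_comm, Finset.sum_mul_sum]
      · rw [Finset.sum_mul_sum]
    rw [h2]
    exact add_nonneg (mul_nonneg hK' h.Z_nonneg) (mul_nonneg hK h'.Z_nonneg)
  · rw [h'.ens.sum_star]
    have h1 : ∑ s, ∑ s', starAvg q pot.P (L s) (L' s')
        ≤ ∑ s, ∑ s', (pot.P (L s) * mean q (L' s') + mean q (L s) * pot.P (L' s')
          - pot.H (L' s') * pot.Z (L s) - pot.H (L s) * pot.Z (L' s')
          - pot.c * pot.P (L s) * pot.P (L' s')) :=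
      Finset.sum_le_sum fun s _ => Finset.sum_le_sum fun s' _ =>
        pot.starP _ _ (h.ens.nonneg s) (h'.ens.nonneg s')
    have h2 : ∑ s, ∑ s', (pot.P (L s) * mean q (L' s') + mean q (L s) * pot.P (L' s')
          - pot.H (L' s') * pot.Z (L s) - pot.H (L s) * pot.Z (L' s')
          - pot.c * pot.P (L s) * pot.P (L' s'))
        = (∑ s, pot.P (L s)) + (∑ s', pot.P (L' s'))
          - (∑ s', pot.H (L' s')) * (∑ s, pot.Z (L s))
          - (∑ s, pot.H (L s)) * (∑ s', pot.Z (L' s'))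
          - pot.c * (∑ s, pot.P (L s)) * ∑ s', pot.P (L' s') := by
      simp only [Finset.sum_add_distrib, Finset.sum_sub_distrib]
      have e1 : ∑ s, ∑ s', pot.P (L s) * mean q (L' s') = ∑ s, pot.P (L s) := by
        rw [← Finset.sum_mul_sum, h'.ens.sum_mean hq, mul_one]
      have e2 : ∑ s, ∑ s', mean q (L s) * pot.P (L' s') = ∑ s', pot.P (L' s') := by
        rw [← Finset.sum_mul_sum, h.ens.sum_mean hq, one_mul]
      have e3 : ∑ s, ∑ s', pot.H (L' s') * pot.Z (L s)
          = (∑ s', pot.H (L' s')) * (∑ s, pot.Z (L s)) := by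
        rw [Finset.sum_comm, Finset.sum_mul_sum]
      have e4 : ∑ s, ∑ s', pot.H (L s) * pot.Z (L' s')
          = (∑ s, pot.H (L s)) * (∑ s', pot.Z (L' s')) := by
        rw [Finset.sum_mul_sum]
      have e5 : ∑ s, ∑ s', pot.c * pot.P (L s) * pot.P (L' s')
          = pot.c * (∑ s, pot.P (L s)) * ∑ s', pot.P (L' s') := by
        rw [← Finset.sum_mul_sum, ← Finset.mul_sum]
      rw [e1, e2, e3, e4, e5]
    rw [h2] at h1
    have h3 := mul_nonneg hH' h.Z_nonneg
    have h4 := mul_nonneg hH h'.Z_nonneg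
    have h5 := pot.c_pos
    have h6 : ∑ s, ∑ s', starAvg q pot.P (L s) (L' s') ≤ (∑ s, pot.P (L s))
        + (∑ s', pot.P (L' s')) - pot.c * (∑ s, pot.P (L s)) * ∑ s', pot.P (L' s') := by
      linarith
    have h7 := mul_le_mul_of_nonneg_left h6 h5.le
    nlinarith [h7]

theorem chan_nonneg (h0 : 0 ≤ lam) (h1 : lam ≤ 1) {W : Fin q → ℝ} (h : ∀ i, 0 ≤ W i) (i : Fin q) :
    0 ≤ chan q lam W i := by
  unfold chan potts
  refine Finset.sum_nonneg fun j _ => mul_nonneg ?_ (h j)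
  have : 0 ≤ (1 - lam) / q := div_nonneg (by linarith) (Nat.cast_nonneg _)
  split_ifs <;> linarith

theorem potts_perm (g : Equiv.Perm (Fin q)) (i j : Fin q) :
    potts q lam (g i) (g j) = potts q lam i j := by
  unfold potts
  simp [g.injective.eq_iff]

theorem chan_perm (g : Equiv.Perm (Fin q)) (W : Fin q → ℝ) :
    chan q lam (fun i => W (g i)) = fun i => chan q lam W (g i) := by
  funext i
  unfold chan
  rw [← Equiv.sum_comp g (fun j => potts q lam (g i) j * W j)]
  refine Finset.sum_congr rfl fun j _ => ?_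
  rw [potts_perm]

theorem potts_sum (hq : q ≠ 0) (i : Fin q) : ∑ j, potts q lam i j = 1 := by
  unfold potts
  rw [Finset.sum_add_distrib, Finset.sum_ite_eq, if_pos (Finset.mem_univ i), Finset.sum_const,
    Finset.card_univ, Fintype.card_fin, nsmul_eq_mul]
  have : (q : ℝ) ≠ 0 := by exact_mod_cast hq
  field_simp
  ring

theorem GoodEns.chan (hq : q ≠ 0) (h0 : 0 ≤ lam) (h1 : lam ≤ 1) {S : Type*} [Fintype S]
    {L : S → Fin q → ℝ} (h : GoodEns pot L) :
    GoodEns pot (fun s => chan q lam (L s)) ∧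
    ∑ s, pot.P (Vale.Agent.Lib.P154.chan q lam (L s)) ≤ lam ^ 2 * ∑ s, pot.P (L s) := by
  refine ⟨⟨⟨fun s i => chan_nonneg h0 h1 (h.ens.nonneg s) i, ?_, ?_⟩, ?_⟩, ?_⟩
  · intro G g
    have h2 := h.ens.symm (fun W => G (Vale.Agent.Lib.P154.chan q lam W)) g
    rw [h2]
    refine Finset.sum_congr rfl fun s _ => ?_
    rw [chan_perm]
  · intro i
    unfold Vale.Agent.Lib.P154.chan
    rw [Finset.sum_comm]
    simp only [← Finset.mul_sum, h.ens.one, mul_one]
    exact potts_sum hq i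
  · have h2 : lam ^ 3 * ∑ s, pot.Z (L s)
        ≤ ∑ s, pot.Z (Vale.Agent.Lib.P154.chan q lam (L s)) := by
      rw [Finset.mul_sum]
      exact Finset.sum_le_sum fun s _ => pot.chanZ _ (h.ens.nonneg s)
    exact le_trans (mul_nonneg (by positivity) h.Z_nonneg) h2
  · rw [Finset.mul_sum]
    exact Finset.sum_le_sum fun s _ => pot.chanP _ (h.ens.nonneg s)

theorem GoodEns.of_equiv {S S' : Type*} [Fintype S] [Fintype S'] (e : S ≃ S')
    {L : S → Fin q → ℝ} {L' : S' → Fin q → ℝ} (hL : ∀ s, L s = L' (e s)) (h : GoodEns pot L) :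
    GoodEns pot L' := by
  have key : ∀ G : (Fin q → ℝ) → ℝ, ∑ s, G (L s) = ∑ s', G (L' s') := fun G =>
    Fintype.sum_equiv e _ _ fun s => by rw [hL]
  refine ⟨⟨?_, ?_, ?_⟩, ?_⟩
  · intro s' i
    have := h.ens.nonneg (e.symm s') i
    rwa [hL, Equiv.apply_symm_apply] at this
  · intro G g
    rw [← key, ← key (fun W => G (fun i => W (g i)))]
    exact h.ens.symm G g
  · intro i
    rw [← key (fun W => W i)]
    exact h.ens.one i
  · rw [← key]
    exact h.Z_nonneg

/-- merging finitely many ensembles -/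
theorem good_pi (hq : q ≠ 0) : ∀ (k : ℕ) (S : Fin k → Type) (inst : ∀ c, Fintype (S c))
    (L : ∀ c, S c → Fin q → ℝ), (∀ c, @GoodEns q lam pot (S c) (inst c) (L c)) →
    GoodEns pot (fun (s : ∀ c, S c) (i : Fin q) => ∏ c, L c (s c) i) ∧
    ∏ c, (1 - pot.c * ∑ s, pot.P (L c s))
      ≤ 1 - pot.c * ∑ s : (∀ c, S c), pot.P (fun i => ∏ c, L c (s c) i)
  | 0, S, inst, L, h => by
    simp only [Finset.univ_eq_empty, Finset.prod_empty, Finset.univ_unique, Finset.sum_const,
      Finset.card_singleton, one_smul, pot.P_one, mul_zero, sub_zero, le_refl, and_true]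
    refine ⟨⟨fun _ _ => zero_le_one, fun G g => by simp, fun i => by simp⟩, ?_⟩
    simp [pot.Z_one]
  | k + 1, S, inst, L, h => by
    obtain ⟨ih1, ih2⟩ := good_pi hq k (fun c => S c.succ) (fun c => inst c.succ)
      (fun c => L c.succ) (fun c => h c.succ)
    obtain ⟨m1, m2⟩ := (h 0).merge hq ih1
    have hL : ∀ p : S 0 × (∀ c : Fin k, S c.succ),
        mergeL (L 0) (fun (s : ∀ c : Fin k, S c.succ) (i : Fin q) => ∏ c, L c.succ (s c) i) p
        = (fun i => ∏ c, L c ((Fin.consEquiv S) p c) i) := by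
      intro p
      funext i
      rw [Fin.prod_univ_succ]
      rfl
    refine ⟨GoodEns.of_equiv (Fin.consEquiv S) hL m1, ?_⟩
    rw [Fin.prod_univ_succ]
    have e1 : ∑ s : (∀ c, S c), pot.P (fun i => ∏ c, L c (s c) i)
        = ∑ p, pot.P (mergeL (L 0)
          (fun (s : ∀ c : Fin k, S c.succ) (i : Fin q) => ∏ c, L c.succ (s c) i) p) :=
      (Fintype.sum_equiv (Fin.consEquiv S) _ _ fun p => by rw [hL p]).symm
    rw [e1]
    exact le_trans (mul_le_mul_of_nonneg_left ih2 ((h 0).one_sub_nonneg hq)) m2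

end Vale.Agent.Lib.P154
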