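import Vale.Agent.Lib.P154.Defs

namespace Vale.Agent.Lib.P154

open scoped BigOperators
open Filter Topology

noncomputable def mean (q : ℕ) (W : Fin q → ℝ) : ℝ := (∑ i, W i) / q

/-- average over permutations -/
noncomputable def starAvg (q : ℕ) (F : (Fin q → ℝ) → ℝ) (W W' : Fin q → ℝ) : ℝ :=
  (1 / (q.factorial : ℝ)) * ∑ g : Equiv.Perm (Fin q), F (fun i => W i * W' (g i))

/-- action of the channel on likelihood vectors -/
noncomputable def chan (q : ℕ) (lam : ℝ) (W : Fin q → ℝ) : Fin q → ℝ :=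
  fun i => ∑ j : Fin q, potts q lam i j * W j

/-- value of a functional of the likelihood vector on the tree `T` -/
noncomputable def val (q : ℕ) (lam : ℝ) (n : ℕ) (T : Tr n) (F : (Fin q → ℝ) → ℝ) : ℝ :=
  ∑ s : Lvl n T → Fin q, F (fun i => lik q lam n T i s)

/-- A potential for the channel `potts q lam`. -/
structure Pot (q : ℕ) (lam : ℝ) where
  P : (Fin q → ℝ) → ℝ
  Z : (Fin q → ℝ) → ℝ
  K : (Fin q → ℝ) → ℝ
  H : (Fin q → ℝ) → ℝ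
  c : ℝ
  C : ℝ
  c_pos : 0 < c
  c_le : c ≤ 1
  P_nonneg : ∀ W, (∀ i, 0 ≤ W i) → 0 ≤ P W
  P_le : ∀ W, (∀ i, 0 ≤ W i) → P W ≤ mean q W
  K_nonneg : ∀ W, (∀ i, 0 ≤ W i) → 0 ≤ K W
  H_nonneg : ∀ W, (∀ i, 0 ≤ W i) → 0 ≤ H W
  /-- side functional is preserved by merging -/
  starZ : ∀ W W' : Fin q → ℝ, (∀ i, 0 ≤ W i) → (∀ i, 0 ≤ W' i) →
    K W' * Z W + K W * Z W' ≤ starAvg q Z W W'
  /-- main functional is subadditive under merging -/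
  starP : ∀ W W' : Fin q → ℝ, (∀ i, 0 ≤ W i) → (∀ i, 0 ≤ W' i) →
    starAvg q P W W' ≤ P W * mean q W' + mean q W * P W' - H W' * Z W - H W * Z W' - c * P W * P W'
  chanP : ∀ W, (∀ i, 0 ≤ W i) → P (chan q lam W) ≤ lam ^ 2 * P W
  chanZ : ∀ W, (∀ i, 0 ≤ W i) → lam ^ 3 * Z W ≤ Z (chan q lam W)
  leafZ : ∀ j : Fin q, 0 ≤ Z (fun i => if j = i then 1 else 0)
  P_one : P (fun _ => 1) = 0
  Z_one : Z (fun _ => 1) = 0
  tv : ∀ W, (∀ i, 0 ≤ W i) → (∑ i, |W i - mean q W|) ^ 2 ≤ C * mean q W * P W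

-- GOALS (to be proved in Frame.lean), for `2 ≤ q`, `0 ≤ lam ≤ 1`:

theorem Pot.reg (q : ℕ) (hq : 2 ≤ q) (lam : ℝ) (h0 : 0 ≤ lam) (h1 : lam ≤ 1) (pot : Pot q lam)
    (d : ℕ) (hd : 2 ≤ d) (hdl : (d : ℝ) * lam ^ 2 ≤ 1) :
    Tendsto (aReg q lam d) atTop (𝓝 0) := by
  sorry

theorem Pot.gw (q : ℕ) (hq : 2 ≤ q) (lam : ℝ) (h0 : 0 ≤ lam) (h1 : lam ≤ 1) (pot : Pot q lam)
    (d : ℝ) (hd : 0 < d) (hdl : d * lam ^ 2 ≤ 1) :
    Tendsto (aGW q lam d) atTop (𝓝 0) := by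
  sorry

/- Proof plan.
1. `lik_nonneg`, `∑ s, lik i s = 1` (so `val (mean) = 1`), S_q-symmetry:
   `lik q lam n T (g i) (g ∘ s) = lik q lam n T i s`, hence
   `∑ s, G (fun i => lik i s) = ∑ s, G (fun i => lik (g i) s)` for every function `G`, `g : Perm`.
2. For a node with children T_c: lik_i(s) = ∏_c (chan (lik_c))_i, so merge the children one at a time
   (induct on k with Fin.consEquiv / Fin.prod_univ_succ; value on `Σ c, Lvl n (T.2 c) → Fin q` = value on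
   `∀ c, (Lvl n (T.2 c) → Fin q)` by `Equiv.piCurry`). Zero children: likelihood vector = 1 for all i
   (P = Z = 0).
3. With `x_c := val T_c P`: `val T Z ≥ 0` (induct) and
   `1 - c * val T P ≥ ∏_c (1 - c * lam^2 * x_c)` (induct; uses 0 ≤ 1 - c*val).
4. d-ary: x_{n+1} ≤ (1-(1-c lam^2 x_n)^d)/c, x_n ∈ [0,1] antitone, limit x must satisfy
   x ≤ (1-(1-c lam^2 x)^d)/c < d lam^2 x if x > 0 (d ≥ 2) -> x = 0.
   GW: x_n := ∑' T, gwProb d n T * val T P;  x_{n+1} ≤ (1 - exp(-d c lam^2 x_n))/c.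
5. tvTree = ∑ s (1/2)(1/q)∑_i |W_i - mean W| ≤ (1/(2q)) sqrt(C * ∑ mean * ∑ P) = (1/(2q)) sqrt(C x_n).
   GW: Jensen / Cauchy-Schwarz again over trees.
-/

end Vale.Agent.Lib.P154
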