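import Vale.Agent.Lib.P154.FrameEns

/-!
Likelihood ensembles of trees; the one-step inequality for the potential.
-/

namespace Vale.Agent.Lib.P154

open scoped BigOperators
open Filter Topology

variable {q : ℕ} {lam : ℝ} {pot : Pot q lam}

/-- the likelihood vectors of a tree -/
noncomputable def likL (q : ℕ) (lam : ℝ) (n : ℕ) (T : Tr n) (s : Lvl n T → Fin q) : Fin q → ℝ :=
  fun i => lik q lam n T i s

/-- currying of level spins -/
def spinEquiv (q n : ℕ) (T : Tr (n + 1)) :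
    (Lvl (n + 1) T → Fin q) ≃ (∀ c : Fin T.1, (Lvl n (T.2 c) → Fin q)) :=
  Equiv.piCurry (fun (_ : Fin T.1) (_ : _) => Fin q)

theorem likL_succ (n : ℕ) (T : Tr (n + 1)) (s : Lvl (n + 1) T → Fin q) :
    likL q lam (n + 1) T s
      = fun i => ∏ c : Fin T.1, chan q lam (likL q lam n (T.2 c) (spinEquiv q n T s c)) i := by
  funext i
  rfl

theorem good_zero (q : ℕ) (lam : ℝ) (pot : Pot q lam) (T : Tr 0) :
    GoodEns pot (likL q lam 0 T) := by
  let e : Fin q ≃ (Lvl 0 T → Fin q) :=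
    { toFun := fun j _ => j
      invFun := fun s => s ()
      left_inv := fun _ => rfl
      right_inv := fun s => by funext u; cases u; rfl }
  refine GoodEns.of_equiv (L := fun j : Fin q => fun i => if j = i then (1:ℝ) else 0) e
    (fun j => ?_) ⟨⟨?_, ?_, ?_⟩, ?_⟩
  · funext i
    rfl
  · intro j i
    show (0:ℝ) ≤ if j = i then (1:ℝ) else 0
    split_ifs <;> norm_num
  · intro G g
    rw [← Equiv.sum_comp g (fun j : Fin q => G (fun i => if j = g i then (1:ℝ) else 0))]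
    refine Finset.sum_congr rfl fun j _ => ?_
    congr 1
    funext i
    simp [g.injective.eq_iff]
  · intro i
    simp
  · exact Finset.sum_nonneg fun j _ => pot.leafZ j

theorem good_succ (hq : q ≠ 0) (h0 : 0 ≤ lam) (h1 : lam ≤ 1) (n : ℕ)
    (ih : ∀ T : Tr n, GoodEns pot (likL q lam n T)) (T : Tr (n + 1)) :
    GoodEns pot (likL q lam (n + 1) T) ∧
    ∏ c : Fin T.1, (1 - pot.c * (lam ^ 2 * ∑ s, pot.P (likL q lam n (T.2 c) s)))
      ≤ 1 - pot.c * ∑ s, pot.P (likL q lam (n + 1) T s) := by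
  have hc := fun c : Fin T.1 => (ih (T.2 c)).chan hq h0 h1
  obtain ⟨g1, g2⟩ := good_pi (pot := pot) hq T.1 (fun c => Lvl n (T.2 c) → Fin q)
    (fun c => inferInstance) (fun c s => chan q lam (likL q lam n (T.2 c) s))
    (fun c => (hc c).1)
  have hL : ∀ s : (∀ c : Fin T.1, (Lvl n (T.2 c) → Fin q)),
      (fun i => ∏ c : Fin T.1, chan q lam (likL q lam n (T.2 c) (s c)) i)
        = likL q lam (n + 1) T ((spinEquiv q n T).symm s) := by
    intro s
    rw [likL_succ]
    simp only [Equiv.apply_symm_apply]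
  refine ⟨GoodEns.of_equiv (spinEquiv q n T).symm hL g1, ?_⟩
  have e1 : ∑ s, pot.P (likL q lam (n + 1) T s)
      = ∑ s : (∀ c : Fin T.1, (Lvl n (T.2 c) → Fin q)),
        pot.P (fun i => ∏ c : Fin T.1, chan q lam (likL q lam n (T.2 c) (s c)) i) :=
    (Fintype.sum_equiv (spinEquiv q n T).symm _ _ fun s => by rw [hL s]).symm
  rw [e1]
  refine le_trans ?_ g2
  refine Finset.prod_le_prod (fun c _ => ?_) (fun c _ => ?_)
  · have hP := (ih (T.2 c)).P_le hq
    have hP0 := (ih (T.2 c)).P_nonneg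
    have hl : lam ^ 2 ≤ 1 := by nlinarith
    have hc1 := pot.c_pos
    have hc2 := pot.c_le
    have h3 : lam ^ 2 * ∑ s, pot.P (likL q lam n (T.2 c) s) ≤ 1 * 1 :=
      mul_le_mul hl hP hP0 (by norm_num)
    have h4 : 0 ≤ lam ^ 2 * ∑ s, pot.P (likL q lam n (T.2 c) s) :=
      mul_nonneg (by positivity) hP0
    nlinarith
  · have h5 := mul_le_mul_of_nonneg_left (hc c).2 pot.c_pos.le
    linarith

theorem good_likL (hq : q ≠ 0) (h0 : 0 ≤ lam) (h1 : lam ≤ 1) (pot : Pot q lam) :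
    ∀ (n : ℕ) (T : Tr n), GoodEns pot (likL q lam n T)
  | 0, T => good_zero q lam pot T
  | n + 1, T => (good_succ hq h0 h1 n (good_likL hq h0 h1 pot n) T).1

theorem val_eq (n : ℕ) (T : Tr n) (F : (Fin q → ℝ) → ℝ) :
    val q lam n T F = ∑ s, F (likL q lam n T s) := rfl

theorem val_nonneg (hq : q ≠ 0) (h0 : 0 ≤ lam) (h1 : lam ≤ 1) (pot : Pot q lam) (n : ℕ)
    (T : Tr n) : 0 ≤ val q lam n T pot.P := (good_likL hq h0 h1 pot n T).P_nonneg

theorem val_le_one (hq : q ≠ 0) (h0 : 0 ≤ lam) (h1 : lam ≤ 1) (pot : Pot q lam) (n : ℕ)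
    (T : Tr n) : val q lam n T pot.P ≤ 1 := (good_likL hq h0 h1 pot n T).P_le hq

theorem val_step (hq : q ≠ 0) (h0 : 0 ≤ lam) (h1 : lam ≤ 1) (pot : Pot q lam) (n : ℕ)
    (T : Tr (n + 1)) :
    ∏ c : Fin T.1, (1 - pot.c * (lam ^ 2 * val q lam n (T.2 c) pot.P))
      ≤ 1 - pot.c * val q lam (n + 1) T pot.P :=
  (good_succ hq h0 h1 n (good_likL hq h0 h1 pot n) T).2

/-- the total variation quantity in terms of likelihoods -/
theorem tvTree_eq (hq : q ≠ 0) (h0 : 0 ≤ lam) (h1 : lam ≤ 1) (pot : Pot q lam) (n : ℕ)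
    (T : Tr n) :
    tvTree q lam n T = (1 / (2 * q)) *
      ∑ s, ∑ i, |likL q lam n T s i - mean q (likL q lam n T s)| := by
  have hq' : (q : ℝ) ≠ 0 := by exact_mod_cast hq
  have hqp : (0 : ℝ) < q := lt_of_le_of_ne (Nat.cast_nonneg q) (Ne.symm hq')
  unfold tvTree
  rw [Finset.mul_sum]
  refine Finset.sum_congr rfl fun s _ => ?_
  have hprob : prob q lam n T s = mean q (likL q lam n T s) := by
    unfold prob mean likL
    rw [← Finset.mul_sum]
    field_simp
  have hnn := (good_likL hq h0 h1 pot n T).ens.nonneg s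
  rw [hprob]
  have hterm : ∀ i, mean q (likL q lam n T s) * |post q lam n T i s - 1 / (q : ℝ)|
      = (1 / q) * |likL q lam n T s i - mean q (likL q lam n T s)| := by
    intro i
    unfold post
    rw [hprob]
    change mean q (likL q lam n T s) * |1 / (q : ℝ) * likL q lam n T s i
      / mean q (likL q lam n T s) - 1 / (q : ℝ)| = _
    obtain ⟨W, hW⟩ : ∃ W, W = likL q lam n T s := ⟨_, rfl⟩
    rw [← hW] at hnn ⊢
    have hm := mean_nonneg q hnn
    rcases hm.eq_or_lt with hm0 | hm0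
    · have hz : W i = 0 := by
        have h2 : ∑ j, W j = 0 := by
          have h3 : (∑ j, W j) / (q : ℝ) = 0 := hm0.symm
          rcases div_eq_zero_iff.1 h3 with h4 | h4
          · exact h4
          · exact absurd h4 hq'
        exact (Finset.sum_eq_zero_iff_of_nonneg fun j _ => hnn j).1 h2 i (Finset.mem_univ i)
      rw [← hm0, hz]
      simp
    · have e1 : 1 / (q : ℝ) * W i / mean q W - 1 / (q : ℝ)
          = (1 / (q : ℝ)) / mean q W * (W i - mean q W) := by
        field_simp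
      rw [e1, abs_mul, abs_of_pos (by positivity : (0:ℝ) < 1 / (q : ℝ) / mean q W)]
      field_simp
  calc mean q (likL q lam n T s) * (1 / 2 * ∑ i, |post q lam n T i s - 1 / (q : ℝ)|)
      = 1 / 2 * ∑ i, mean q (likL q lam n T s) * |post q lam n T i s - 1 / (q : ℝ)| := by
        rw [← Finset.mul_sum]; ring
    _ = 1 / 2 * ∑ i, (1 / q) * |likL q lam n T s i - mean q (likL q lam n T s)| := by
        simp only [hterm]
    _ = _ := by
        rw [← Finset.mul_sum]
        field_simp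

theorem tvTree_nonneg_pot (hq : q ≠ 0) (h0 : 0 ≤ lam) (h1 : lam ≤ 1) (pot : Pot q lam) (n : ℕ)
    (T : Tr n) : 0 ≤ tvTree q lam n T := by
  rw [tvTree_eq hq h0 h1 pot]
  positivity

theorem tvTree_sq_le (hq : q ≠ 0) (h0 : 0 ≤ lam) (h1 : lam ≤ 1) (pot : Pot q lam) (n : ℕ)
    (T : Tr n) : tvTree q lam n T ^ 2 ≤ |pot.C| * val q lam n T pot.P := by
  have hgood := good_likL hq h0 h1 pot n T
  have hq1 : (1 : ℝ) ≤ q := by exact_mod_cast Nat.one_le_iff_ne_zero.2 hq
  have h2 : (∑ s, ∑ i, |likL q lam n T s i - mean q (likL q lam n T s)|) ^ 2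
      ≤ (∑ s, mean q (likL q lam n T s)) * ∑ s, |pot.C| * pot.P (likL q lam n T s) := by
    refine Finset.sum_sq_le_sum_mul_sum_of_sq_le_mul _ (fun s _ => mean_nonneg q (hgood.ens.nonneg s))
      (fun s _ => mul_nonneg (abs_nonneg _) (pot.P_nonneg _ (hgood.ens.nonneg s))) fun s _ => ?_
    refine (pot.tv _ (hgood.ens.nonneg s)).trans ?_
    have h3 : 0 ≤ mean q (likL q lam n T s) * pot.P (likL q lam n T s) :=
      mul_nonneg (mean_nonneg q (hgood.ens.nonneg s)) (pot.P_nonneg _ (hgood.ens.nonneg s))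
    have h4 := mul_le_mul_of_nonneg_right (le_abs_self pot.C) h3
    linarith
  rw [hgood.ens.sum_mean hq, one_mul, ← Finset.mul_sum] at h2
  rw [tvTree_eq hq h0 h1 pot, mul_pow]
  have h5 : (1 / (2 * (q : ℝ))) ^ 2 ≤ 1 := by
    have h6 : 1 / (2 * (q : ℝ)) ≤ 1 := by
      rw [div_le_one (by positivity)]
      linarith
    have h7 : 0 ≤ 1 / (2 * (q : ℝ)) := by positivity
    nlinarith
  have h8 : 0 ≤ (∑ s, ∑ i, |likL q lam n T s i - mean q (likL q lam n T s)|) ^ 2 := sq_nonneg _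
  calc (1 / (2 * (q : ℝ))) ^ 2 * (∑ s, ∑ i, |likL q lam n T s i
        - mean q (likL q lam n T s)|) ^ 2
      ≤ 1 * (∑ s, ∑ i, |likL q lam n T s i - mean q (likL q lam n T s)|) ^ 2 :=
        mul_le_mul_of_nonneg_right h5 h8
    _ ≤ _ := by rw [one_mul]; exact h2

/-- a nonnegative sequence with quadratic decrease tends to zero -/
theorem tendsto_zero_of_quad {x : ℕ → ℝ} {κ : ℝ} (hκ : 0 < κ) (hx : ∀ n, 0 ≤ x n)
    (hstep : ∀ n, x (n + 1) ≤ x n - κ * x n ^ 2) : Tendsto x atTop (𝓝 0) := by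
  have hanti : Antitone x := antitone_nat_of_succ_le fun n => by
    have := hstep n
    have h2 : 0 ≤ κ * x n ^ 2 := by positivity
    linarith
  have hbdd : BddBelow (Set.range x) := ⟨0, by rintro _ ⟨n, rfl⟩; exact hx n⟩
  have hlim := tendsto_atTop_ciInf hanti hbdd
  obtain ⟨l, hl⟩ : ∃ l, l = ⨅ n, x n := ⟨_, rfl⟩
  rw [← hl] at hlim
  have hl0 : 0 ≤ l := ge_of_tendsto' hlim hx
  have h1 : Tendsto (fun n => x (n + 1)) atTop (𝓝 l) := hlim.comp (tendsto_add_atTop_nat 1)
  have h2 : Tendsto (fun n => x n - κ * x n ^ 2) atTop (𝓝 (l - κ * l ^ 2)) :=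
    hlim.sub ((hlim.pow 2).const_mul κ)
  have h3 : l ≤ l - κ * l ^ 2 := le_of_tendsto_of_tendsto' h1 h2 hstep
  have h4 : l = 0 := by
    by_contra hne
    have : 0 < l := lt_of_le_of_ne hl0 (Ne.symm hne)
    have : 0 < κ * l ^ 2 := by positivity
    linarith
  rwa [h4] at hlim

theorem tendsto_zero_of_sq_le {a x : ℕ → ℝ} {C : ℝ} (ha : ∀ n, 0 ≤ a n)
    (hx : Tendsto x atTop (𝓝 0)) (h : ∀ n, a n ^ 2 ≤ C * x n) : Tendsto a atTop (𝓝 0) := by
  have h1 : Tendsto (fun n => Real.sqrt (C * x n)) atTop (𝓝 0) := by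
    have := (hx.const_mul C).sqrt
    simpa using this
  refine squeeze_zero ha (fun n => ?_) h1
  exact Real.le_sqrt_of_sq_le (h n)

theorem pow_lower {u : ℝ} (h0 : 0 ≤ u) (h1 : u ≤ 1) : ∀ d : ℕ, 2 ≤ d →
    1 - d * u + u ^ 2 ≤ (1 - u) ^ d := by
  intro d hd
  induction d, hd using Nat.le_induction with
  | base => push_cast; nlinarith
  | succ d hd ih =>
    rw [pow_succ]
    have hd' : (2 : ℝ) ≤ d := by exact_mod_cast hd
    have h2 := mul_le_mul_of_nonneg_right ih (sub_nonneg.2 h1)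
    refine le_trans ?_ h2
    push_cast
    have h3 : 0 ≤ u ^ 2 * (1 - u) := mul_nonneg (by positivity) (by linarith)
    have h4 : 0 ≤ u ^ 2 * (d - 1) := mul_nonneg (by positivity) (by linarith)
    nlinarith

/-- Nonreconstruction on the `d`-ary tree from a potential. -/
theorem Pot.reg (q : ℕ) (hq : 2 ≤ q) (lam : ℝ) (h0 : 0 ≤ lam) (h1 : lam ≤ 1) (pot : Pot q lam)
    (d : ℕ) (hd : 2 ≤ d) (hdl : (d : ℝ) * lam ^ 2 ≤ 1) :
    Tendsto (aReg q lam d) atTop (𝓝 0) := by
  have hq0 : q ≠ 0 := by omega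
  obtain ⟨x, hx⟩ : ∃ x : ℕ → ℝ, ∀ n, x n = val q lam n (regTree d n) pot.P :=
    ⟨fun n => val q lam n (regTree d n) pot.P, fun _ => rfl⟩
  have hx0 : ∀ n, 0 ≤ x n := fun n => by rw [hx]; exact val_nonneg hq0 h0 h1 pot n _
  have hx1 : ∀ n, x n ≤ 1 := fun n => by rw [hx]; exact val_le_one hq0 h0 h1 pot n _
  have hc := pot.c_pos
  have hc1 := pot.c_le
  have hd' : (2 : ℝ) ≤ d := by exact_mod_cast hd
  have hl2 : lam ^ 2 ≤ 1 := by nlinarith
  have hstep : ∀ n, pot.c * x (n + 1) ≤ 1 - (1 - pot.c * (lam ^ 2 * x n)) ^ d := by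
    intro n
    have h2 := val_step hq0 h0 h1 pot n (regTree d (n + 1))
    have h3 : ∏ c : Fin (regTree d (n + 1)).1,
        (1 - pot.c * (lam ^ 2 * val q lam n ((regTree d (n + 1)).2 c) pot.P))
        = (1 - pot.c * (lam ^ 2 * x n)) ^ d := by
      rw [hx]
      change ∏ _c : Fin d, (1 - pot.c * (lam ^ 2 * val q lam n (regTree d n) pot.P)) = _
      rw [Finset.prod_const, Finset.card_univ, Fintype.card_fin]
    rw [h3, ← hx] at h2
    linarith
  have hxlim : Tendsto x atTop (𝓝 0) := by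
    rcases h0.eq_or_lt with hl | hl
    · have hz : ∀ n, x (n + 1) = 0 := by
        intro n
        have h2 := hstep n
        have hl0 : lam ^ 2 = 0 := by rw [← hl]; norm_num
        rw [hl0] at h2
        have h3 : pot.c * x (n + 1) ≤ 0 := by simpa using h2
        have h4 := hx0 (n + 1)
        nlinarith
      rw [← tendsto_add_atTop_iff_nat 1]
      simp only [hz]
      exact tendsto_const_nhds
    · have hκ : 0 < pot.c * lam ^ 4 := by positivity
      refine tendsto_zero_of_quad hκ hx0 fun n => ?_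
      obtain ⟨u, hu⟩ : ∃ u, u = pot.c * (lam ^ 2 * x n) := ⟨_, rfl⟩
      have hlx : lam ^ 2 * x n ≤ 1 * 1 := mul_le_mul hl2 (hx1 n) (hx0 n) (by norm_num)
      have hlx0 : 0 ≤ lam ^ 2 * x n := mul_nonneg (by positivity) (hx0 n)
      have hu0 : 0 ≤ u := by rw [hu]; positivity
      have hu1 : u ≤ 1 := by rw [hu]; nlinarith
      have h2 := pow_lower hu0 hu1 d hd
      have h3 := hstep n
      rw [← hu] at h3
      have h4 : pot.c * x (n + 1) ≤ d * u - u ^ 2 := by linarith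
      have h5 : d * u ≤ pot.c * x n := by
        rw [hu]
        have : (d : ℝ) * (pot.c * (lam ^ 2 * x n)) = (d * lam ^ 2) * (pot.c * x n) := by ring
        rw [this]
        have h6 : 0 ≤ pot.c * x n := mul_nonneg hc.le (hx0 n)
        nlinarith
      have h6 : u ^ 2 = pot.c * (pot.c * lam ^ 4 * x n ^ 2) := by rw [hu]; ring
      have h7 : pot.c * x (n + 1) ≤ pot.c * (x n - pot.c * lam ^ 4 * x n ^ 2) := by
        have : pot.c * (x n - pot.c * lam ^ 4 * x n ^ 2)
            = pot.c * x n - pot.c * (pot.c * lam ^ 4 * x n ^ 2) := by ring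
        rw [this, ← h6]
        linarith
      exact le_of_mul_le_mul_left h7 hc
  refine tendsto_zero_of_sq_le (C := |pot.C|) (fun n => ?_) hxlim fun n => ?_
  · exact tvTree_nonneg_pot hq0 h0 h1 pot n _
  · rw [hx]
    exact tvTree_sq_le hq0 h0 h1 pot n _

end Vale.Agent.Lib.P154
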