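import Vale.Agent.Lib.P154.Pot

/-! Averages over the Poisson Galton-Watson tree. -/

namespace Vale.Agent.Lib.P154

open scoped BigOperators ENNReal
open Filter Topology

theorem gwProb_nonneg {d : ℝ} (hd : 0 ≤ d) : ∀ (n : ℕ) (T : Tr n), 0 ≤ gwProb d n T
  | 0, _ => zero_le_one
  | n + 1, T => by
    unfold gwProb
    apply mul_nonneg (by positivity)
    exact Finset.prod_nonneg fun c _ => gwProb_nonneg hd n (T.2 c)

namespace GWAux

/-- Poisson weights -/
noncomputable def pois (d : ℝ) (k : ℕ) : ℝ := Real.exp (-d) * d ^ k / (k.factorial : ℝ)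

theorem pois_nonneg {d : ℝ} (hd : 0 ≤ d) (k : ℕ) : 0 ≤ pois d k := by
  unfold pois; positivity

theorem hasSum_pois_pow (d s : ℝ) :
    HasSum (fun k => pois d k * s ^ k) (Real.exp (-(d * (1 - s)))) := by
  have h : HasSum (fun k : ℕ => (d * s) ^ k / (k.factorial : ℝ)) (Real.exp (d * s)) := by
    rw [Real.exp_eq_exp_ℝ]
    exact NormedSpace.expSeries_div_hasSum_exp (d * s)
  have h2 := h.mul_left (Real.exp (-d))
  have e : Real.exp (-d) * Real.exp (d * s) = Real.exp (-(d * (1 - s))) := by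
    rw [← Real.exp_add]; congr 1; ring
  rw [e] at h2
  have e2 : (fun k => pois d k * s ^ k)
      = fun k : ℕ => Real.exp (-d) * ((d * s) ^ k / (k.factorial : ℝ)) := by
    funext k
    unfold pois
    rw [mul_pow]; ring
  rw [e2]
  exact h2

/-- product formula for sums over finite sequences -/
theorem tsum_pi {α : Type} (g : α → ℝ≥0∞) : ∀ k : ℕ,
    ∑' f : Fin k → α, ∏ i, g (f i) = (∑' a, g a) ^ k
  | 0 => by
    rw [tsum_fintype, pow_zero]
    simp
  | k + 1 => by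
    rw [← (Fin.consEquiv (fun _ : Fin (k + 1) => α)).tsum_eq]
    have e : ∀ c : α × (Fin k → α), ∏ i, g ((Fin.consEquiv fun _ : Fin (k + 1) => α) c i)
        = g c.1 * ∏ i, g (c.2 i) := by
      intro c
      rw [Fin.prod_univ_succ]
      simp [Fin.consEquiv]
    rw [tsum_congr e, ENNReal.tsum_prod (f := fun a (f : Fin k → α) => g a * ∏ i, g (f i))]
    simp only [ENNReal.tsum_mul_left, tsum_pi g k, ENNReal.tsum_mul_right, pow_succ']

/-- weights in `ℝ≥0∞` -/
noncomputable def w (d : ℝ) (n : ℕ) (T : Tr n) : ℝ≥0∞ := ENNReal.ofReal (gwProb d n T)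

theorem w_succ {d : ℝ} (hd : 0 ≤ d) (n : ℕ) (T : Tr (n + 1)) :
    w d (n + 1) T = ENNReal.ofReal (pois d T.1) * ∏ i, w d n (T.2 i) := by
  unfold w
  rw [← ENNReal.ofReal_prod_of_nonneg (fun i _ => gwProb_nonneg hd n _),
    ← ENNReal.ofReal_mul (pois_nonneg hd _)]
  rfl

theorem tsum_w_prod {d : ℝ} (hd : 0 ≤ d) (n : ℕ) (g : Tr n → ℝ≥0∞) :
    ∑' T : Tr (n + 1), w d (n + 1) T * ∏ i, g (T.2 i)
      = ∑' k, ENNReal.ofReal (pois d k) * (∑' t, w d n t * g t) ^ k := by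
  have h1 : ∑' T : Tr (n + 1), w d (n + 1) T * ∏ i, g (T.2 i)
      = ∑' T : (Σ k : ℕ, (Fin k → Tr n)), ENNReal.ofReal (pois d T.1)
          * ∏ i, (w d n (T.2 i) * g (T.2 i)) := by
    apply tsum_congr
    intro T
    rw [w_succ hd, Finset.prod_mul_distrib, mul_assoc]
  rw [h1, ENNReal.tsum_sigma']
  apply tsum_congr
  intro k
  show ∑' b : Fin k → Tr n, ENNReal.ofReal (pois d k) * ∏ i, (w d n (b i) * g (b i)) = _
  rw [ENNReal.tsum_mul_left, tsum_pi (fun t => w d n t * g t) k]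

theorem tsum_pois {d : ℝ} (hd : 0 ≤ d) {s : ℝ} (hs : 0 ≤ s) :
    ∑' k, ENNReal.ofReal (pois d k) * (ENNReal.ofReal s) ^ k
      = ENNReal.ofReal (Real.exp (-(d * (1 - s)))) := by
  have h := hasSum_pois_pow d s
  rw [← h.tsum_eq, ENNReal.ofReal_tsum_of_nonneg
    (fun k => mul_nonneg (pois_nonneg hd k) (pow_nonneg hs k)) h.summable]
  apply tsum_congr
  intro k
  rw [ENNReal.ofReal_mul (pois_nonneg hd k), ENNReal.ofReal_pow hs]

theorem tsum_w {d : ℝ} (hd : 0 ≤ d) : ∀ n : ℕ, ∑' T : Tr n, w d n T = 1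
  | 0 => by
    have : ∑' T : Tr 0, w d 0 T = ∑' T : Unit, (1 : ℝ≥0∞) := by
      apply tsum_congr
      intro T
      simp [w, gwProb]
    rw [this]; simp
  | n + 1 => by
    have h := tsum_w_prod hd n (fun _ => 1)
    simp only [Finset.prod_const_one, mul_one] at h
    rw [h, tsum_w hd n]
    have := tsum_pois hd (s := 1) zero_le_one
    simpa using this

theorem summable_gw {d : ℝ} (hd : 0 ≤ d) (n : ℕ) : Summable (fun T : Tr n => gwProb d n T) := by
  have h := ENNReal.summable_toReal (f := fun T : Tr n => w d n T) (by rw [tsum_w hd n]; simp)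
  refine h.congr fun T => ?_
  exact ENNReal.toReal_ofReal (gwProb_nonneg hd n T)

theorem tsum_gw {d : ℝ} (hd : 0 ≤ d) (n : ℕ) : ∑' T : Tr n, gwProb d n T = 1 := by
  have h := tsum_w hd n
  unfold w at h
  rw [← ENNReal.ofReal_tsum_of_nonneg (gwProb_nonneg hd n) (summable_gw hd n)] at h
  have h1 : ENNReal.ofReal (∑' T : Tr n, gwProb d n T) = ENNReal.ofReal 1 := by rw [h]; simp
  have h0 : 0 ≤ ∑' T : Tr n, gwProb d n T := tsum_nonneg (gwProb_nonneg hd n)
  exact (ENNReal.ofReal_eq_ofReal_iff h0 zero_le_one).mp h1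

theorem summable_mul {d : ℝ} (hd : 0 ≤ d) (n : ℕ) {F : Tr n → ℝ} {M : ℝ}
    (h0 : ∀ T, 0 ≤ F T) (h1 : ∀ T, F T ≤ M) : Summable (fun T => gwProb d n T * F T) := by
  refine Summable.of_nonneg_of_le (fun T => mul_nonneg (gwProb_nonneg hd n T) (h0 T))
    (fun T => mul_le_mul_of_nonneg_left (h1 T) (gwProb_nonneg hd n T)) ?_
  exact (summable_gw hd n).mul_right M

/-- expectation over the Galton-Watson tree -/
noncomputable def Ex (d : ℝ) (n : ℕ) (F : Tr n → ℝ) : ℝ := ∑' T : Tr n, gwProb d n T * F T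

theorem Ex_nonneg {d : ℝ} (hd : 0 ≤ d) {n : ℕ} {F : Tr n → ℝ} (h0 : ∀ T, 0 ≤ F T) :
    0 ≤ Ex d n F := tsum_nonneg fun T => mul_nonneg (gwProb_nonneg hd n T) (h0 T)

theorem ofReal_Ex {d : ℝ} (hd : 0 ≤ d) {n : ℕ} {F : Tr n → ℝ} {M : ℝ}
    (h0 : ∀ T, 0 ≤ F T) (h1 : ∀ T, F T ≤ M) :
    ENNReal.ofReal (Ex d n F) = ∑' T, w d n T * ENNReal.ofReal (F T) := by
  unfold Ex
  rw [ENNReal.ofReal_tsum_of_nonneg
    (fun T => mul_nonneg (gwProb_nonneg hd n T) (h0 T)) (summable_mul hd n h0 h1)]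
  apply tsum_congr
  intro T
  rw [ENNReal.ofReal_mul (gwProb_nonneg hd n T)]
  rfl

theorem Ex_mono {d : ℝ} (hd : 0 ≤ d) {n : ℕ} {F F' : Tr n → ℝ} {M : ℝ}
    (h0 : ∀ T, 0 ≤ F T) (hle : ∀ T, F T ≤ F' T) (h1 : ∀ T, F' T ≤ M) :
    Ex d n F ≤ Ex d n F' := by
  unfold Ex
  refine Summable.tsum_le_tsum (fun T => mul_le_mul_of_nonneg_left (hle T) (gwProb_nonneg hd n T))
    (summable_mul hd n h0 (fun T => (hle T).trans (h1 T)))
    (summable_mul hd n (fun T => (h0 T).trans (hle T)) h1)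

theorem Ex_prod {d : ℝ} (hd : 0 ≤ d) {n : ℕ} {g : Tr n → ℝ}
    (h0 : ∀ T, 0 ≤ g T) (h1 : ∀ T, g T ≤ 1) :
    Ex d (n + 1) (fun T => ∏ i, g (T.2 i)) = Real.exp (-(d * (1 - Ex d n g))) := by
  have hp0 : ∀ T : Tr (n + 1), 0 ≤ ∏ i, g (T.2 i) := fun T => Finset.prod_nonneg fun i _ => h0 _
  have hp1 : ∀ T : Tr (n + 1), ∏ i, g (T.2 i) ≤ 1 := fun T =>
    Finset.prod_le_one (fun i _ => h0 _) (fun i _ => h1 _)
  have h := ofReal_Ex hd hp0 hp1
  have h2 : ∑' T : Tr (n + 1), w d (n + 1) T * ENNReal.ofReal (∏ i, g (T.2 i))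
      = ∑' T : Tr (n + 1), w d (n + 1) T * ∏ i, ENNReal.ofReal (g (T.2 i)) := by
    apply tsum_congr
    intro T
    rw [ENNReal.ofReal_prod_of_nonneg (fun i _ => h0 _)]
  rw [h2, tsum_w_prod hd n (fun t => ENNReal.ofReal (g t)), ← ofReal_Ex hd h0 h1,
    tsum_pois hd (Ex_nonneg hd h0)] at h
  exact (ENNReal.ofReal_eq_ofReal_iff (Ex_nonneg hd hp0) (Real.exp_pos _).le).mp h

theorem Ex_one_sub {d : ℝ} (hd : 0 ≤ d) {n : ℕ} {X : Tr n → ℝ} {a M : ℝ}
    (h0 : ∀ T, 0 ≤ X T) (h1 : ∀ T, X T ≤ M) :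
    Ex d n (fun T => 1 - a * X T) = 1 - a * Ex d n X := by
  unfold Ex
  have e : (fun T => gwProb d n T * (1 - a * X T))
      = fun T => gwProb d n T - a * (gwProb d n T * X T) := by funext T; ring
  rw [e, Summable.tsum_sub (summable_gw hd n) ((summable_mul hd n h0 h1).mul_left a), tsum_gw hd n,
    tsum_mul_left]

theorem Ex_const_mul {d : ℝ} {n : ℕ} {X : Tr n → ℝ} {a : ℝ} :
    Ex d n (fun T => a * X T) = a * Ex d n X := by
  unfold Ex
  rw [← tsum_mul_left]
  apply tsum_congr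
  intro T
  ring

/-- scalar recursion forces convergence to zero -/
theorem tendsto_zero_of_rec {x : ℕ → ℝ} {c a : ℝ} (hc : 0 < c) (_ha0 : 0 ≤ a) (ha : a ≤ 1)
    (h0 : ∀ n, 0 ≤ x n) (hrec : ∀ n, c * x (n + 1) ≤ 1 - Real.exp (-(a * c * x n))) :
    Tendsto x atTop (𝓝 0) := by
  have hexp : ∀ t : ℝ, 1 - Real.exp (-t) ≤ t := fun t => by
    have := Real.add_one_le_exp (-t); linarith
  have hanti : Antitone x := by
    apply antitone_nat_of_succ_le
    intro n
    have h1 := hrec n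
    have h2 := hexp (a * c * x n)
    have h3 : a * c * x n ≤ 1 * (c * x n) := by
      rw [mul_assoc]
      exact mul_le_mul_of_nonneg_right ha (mul_nonneg hc.le (h0 n))
    have h4 : c * x (n + 1) ≤ c * x n := by linarith
    exact le_of_mul_le_mul_left h4 hc
  have hbdd : BddBelow (Set.range x) := ⟨0, by rintro _ ⟨n, rfl⟩; exact h0 n⟩
  have hlim := tendsto_atTop_ciInf hanti hbdd
  set L := ⨅ n, x n with hL
  have hL0 : 0 ≤ L := le_ciInf h0
  have h1 : Tendsto (fun n => c * x (n + 1)) atTop (𝓝 (c * L)) :=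
    ((tendsto_add_atTop_iff_nat 1).mpr hlim).const_mul c
  have h2 : Tendsto (fun n => 1 - Real.exp (-(a * c * x n))) atTop
      (𝓝 (1 - Real.exp (-(a * c * L)))) := by
    apply Tendsto.const_sub
    exact (Real.continuous_exp.tendsto _).comp ((hlim.const_mul (a * c)).neg)
  have h3 := le_of_tendsto_of_tendsto' h1 h2 hrec
  rcases hL0.eq_or_lt with h | h
  · rw [← h] at hlim; exact hlim
  · exfalso
    have h4 : a * c * L ≤ c * L := by
      have : a * (c * L) ≤ 1 * (c * L) := mul_le_mul_of_nonneg_right ha (by positivity)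
      linarith
    have h5 : Real.exp (-(c * L)) ≤ Real.exp (-(a * c * L)) := Real.exp_le_exp.mpr (by linarith)
    have h6 : -(c * L) + 1 < Real.exp (-(c * L)) :=
      Real.add_one_lt_exp (by have := mul_pos hc h; linarith)
    linarith

end GWAux

open GWAux

theorem GWAux.tvTree_nonneg (q : ℕ) {lam : ℝ} (h0 : 0 ≤ lam) (h1 : lam ≤ 1) (n : ℕ) (T : Tr n) :
    0 ≤ tvTree q lam n T := by
  have hl : ∀ (n : ℕ) (T : Tr n) (i : Fin q) (s : Lvl n T → Fin q), 0 ≤ lik q lam n T i s := by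
    intro n
    induction n with
    | zero => intro T i s; unfold lik; split <;> norm_num
    | succ n ih =>
      intro T i s
      unfold lik
      apply Finset.prod_nonneg
      intro c _
      apply Finset.sum_nonneg
      intro j _
      apply mul_nonneg
      · unfold potts
        apply add_nonneg
        · split <;> linarith
        · exact div_nonneg (by linarith) (by positivity)
      · exact ih _ _ _
  unfold tvTree
  apply Finset.sum_nonneg
  intro s _
  apply mul_nonneg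
  · unfold prob
    apply Finset.sum_nonneg
    intro i _
    exact mul_nonneg (by positivity) (hl _ _ _ _)
  · positivity

/-- Abstract Galton-Watson step: a functional `X` with the per-tree product inequality controls
the averaged total variation distance. -/
theorem aGW_tendsto_zero (q : ℕ) (lam d c B : ℝ) (h0 : 0 ≤ lam) (h1 : lam ≤ 1) (hd : 0 < d)
    (hdl : d * lam ^ 2 ≤ 1) (hc : 0 < c) (hc1 : c ≤ 1) (hB : 0 ≤ B)
    (X : ∀ n : ℕ, Tr n → ℝ) (hX0 : ∀ n T, 0 ≤ X n T) (hX1 : ∀ n T, X n T ≤ 1)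
    (hstep : ∀ (n : ℕ) (T : Tr (n + 1)),
      ∏ i, (1 - c * lam ^ 2 * X n (T.2 i)) ≤ 1 - c * X (n + 1) T)
    (htv : ∀ n T, tvTree q lam n T ≤ B * Real.sqrt (X n T)) :
    Tendsto (aGW q lam d) atTop (𝓝 0) := by
  have hl2 : lam ^ 2 ≤ 1 := pow_le_one₀ h0 h1
  have hcl : c * lam ^ 2 ≤ 1 := by
    have := mul_le_mul hc1 hl2 (by positivity) zero_le_one
    linarith
  have hrec : ∀ n, c * Ex d (n + 1) (X (n + 1))
      ≤ 1 - Real.exp (-((d * lam ^ 2) * c * Ex d n (X n))) := by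
    intro n
    have hg0 : ∀ T, 0 ≤ 1 - c * lam ^ 2 * X n T := fun T => by
      have : c * lam ^ 2 * X n T ≤ 1 * 1 :=
        mul_le_mul hcl (hX1 n T) (hX0 n T) zero_le_one
      linarith
    have hg1 : ∀ T, 1 - c * lam ^ 2 * X n T ≤ 1 := fun T => by
      have : 0 ≤ c * lam ^ 2 * X n T := mul_nonneg (by positivity) (hX0 n T)
      linarith
    have e1 := Ex_prod hd.le hg0 hg1
    have e2 := Ex_one_sub (a := c * lam ^ 2) hd.le (hX0 n) (hX1 n)
    have e3 := Ex_one_sub (a := c) hd.le (hX0 (n + 1)) (hX1 (n + 1))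
    have e4 : Ex d (n + 1) (fun T => ∏ i, (1 - c * lam ^ 2 * X n (T.2 i)))
        ≤ Ex d (n + 1) (fun T => 1 - c * X (n + 1) T) := by
      refine Ex_mono hd.le (M := 1) (fun T => Finset.prod_nonneg fun i _ => hg0 _)
        (hstep n) (fun T => ?_)
      have : 0 ≤ c * X (n + 1) T := mul_nonneg hc.le (hX0 _ T)
      linarith
    rw [e1, e2, e3] at e4
    have e5 : d * (1 - (1 - c * lam ^ 2 * Ex d n (X n))) = d * lam ^ 2 * c * Ex d n (X n) := by
      ring
    rw [e5] at e4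
    linarith
  have hlim : Tendsto (fun n => Ex d n (X n)) atTop (𝓝 0) :=
    tendsto_zero_of_rec hc (by positivity) hdl (fun n => Ex_nonneg hd.le (hX0 n)) hrec
  have hnn : ∀ n, 0 ≤ aGW q lam d n := fun n =>
    tsum_nonneg fun T => mul_nonneg (gwProb_nonneg hd.le n T) (GWAux.tvTree_nonneg q h0 h1 n T)
  have hbd : ∀ (t : ℝ), 0 < t → ∀ n, aGW q lam d n ≤ B * (t / 2 + Ex d n (X n) / (2 * t)) := by
    intro t ht n
    have hs : ∀ T, tvTree q lam n T ≤ B * (t / 2 + X n T / (2 * t)) := by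
      intro T
      refine (htv n T).trans (mul_le_mul_of_nonneg_left ?_ hB)
      have hsq := Real.sq_sqrt (hX0 n T)
      have h2 : 0 ≤ (Real.sqrt (X n T) - t) ^ 2 := sq_nonneg _
      have e : t / 2 + X n T / (2 * t) = (t ^ 2 + X n T) / (2 * t) := by field_simp
      rw [e, le_div_iff₀ (by positivity)]
      nlinarith
    have e1 : aGW q lam d n ≤ Ex d n (fun T => B * (t / 2 + X n T / (2 * t))) := by
      refine Ex_mono hd.le (M := B * (t / 2 + 1 / (2 * t))) (GWAux.tvTree_nonneg q h0 h1 n) hs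
        (fun T => ?_)
      apply mul_le_mul_of_nonneg_left _ hB
      have := div_le_div_of_nonneg_right (hX1 n T) (by positivity : 0 ≤ 2 * t)
      linarith
    refine e1.trans (le_of_eq ?_)
    have e2 := Ex_one_sub (a := -1 / t ^ 2) hd.le (hX0 n) (hX1 n)
    have e3 : (fun T => B * (t / 2 + X n T / (2 * t)))
        = fun T => (B * (t / 2)) * (1 - -1 / t ^ 2 * X n T) := by
      funext T; field_simp; ring
    rw [e3, Ex_const_mul, e2]
    field_simp
    ring
  rw [Metric.tendsto_atTop]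
  intro ε hε
  set t : ℝ := ε / (B + 1) with ht
  have htpos : 0 < t := by positivity
  have hev : ∀ᶠ n in atTop, Ex d n (X n) < t ^ 2 :=
    hlim.eventually (gt_mem_nhds (by positivity))
  obtain ⟨N, hN⟩ := eventually_atTop.mp hev
  refine ⟨N, fun n hn => ?_⟩
  rw [Real.dist_eq, sub_zero, abs_of_nonneg (hnn n)]
  refine (hbd t htpos n).trans_lt ?_
  have h3 : Ex d n (X n) / (2 * t) ≤ t / 2 := by
    rw [div_le_iff₀ (by positivity)]
    have := (hN n hn).le
    nlinarith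
  have h4 : B * (t / 2 + Ex d n (X n) / (2 * t)) ≤ B * t :=
    mul_le_mul_of_nonneg_left (by linarith) hB
  have h5 : B * t < ε := by
    rw [ht, mul_div_assoc', div_lt_iff₀ (by positivity)]
    nlinarith
  linarith

end Vale.Agent.Lib.P154
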