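import Vale.Agent.Lib.P154.FrameTree
import Vale.Agent.Lib.P154.GW

/-!
Second order potentials: here the main functional is only subadditive under merging, and the
strict decrease comes from the side functional, which is created from two children.
-/

namespace Vale.Agent.Lib.P154

open scoped BigOperators
open Filter Topology

/-- A second order potential for the channel `potts q lam`. -/
structure Pot2 (q : ℕ) (lam : ℝ) where
  P : (Fin q → ℝ) → ℝ
  Z : (Fin q → ℝ) → ℝ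
  K : (Fin q → ℝ) → ℝ
  H : (Fin q → ℝ) → ℝ
  c : ℝ
  h0 : ℝ
  C : ℝ
  c_pos : 0 < c
  h0_pos : 0 < h0
  P_nonneg : ∀ W, (∀ i, 0 ≤ W i) → 0 ≤ P W
  P_le : ∀ W, (∀ i, 0 ≤ W i) → P W ≤ mean q W
  K_nonneg : ∀ W, (∀ i, 0 ≤ W i) → 0 ≤ K W
  H_nonneg : ∀ W, (∀ i, 0 ≤ W i) → 0 ≤ H W
  starZ : ∀ W W' : Fin q → ℝ, (∀ i, 0 ≤ W i) → (∀ i, 0 ≤ W' i) →
    K W' * Z W + K W * Z W' + c * P W * P W' ≤ starAvg q Z W W'
  starP : ∀ W W' : Fin q → ℝ, (∀ i, 0 ≤ W i) → (∀ i, 0 ≤ W' i) →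
    starAvg q P W W' ≤ P W * mean q W' + mean q W * P W' - H W' * Z W - H W * Z W'
  chanP : ∀ W, (∀ i, 0 ≤ W i) → P (chan q lam W) = lam ^ 2 * P W
  chanZ : ∀ W, (∀ i, 0 ≤ W i) → lam ^ 3 * Z W ≤ Z (chan q lam W)
  H_chan : ∀ W, (∀ i, 0 ≤ W i) → h0 * P (chan q lam W) ≤ H (chan q lam W)
  K_chan : ∀ W, (∀ i, 0 ≤ W i) → h0 * mean q W ≤ K (chan q lam W)
  leafZ : ∀ j : Fin q, 0 ≤ Z (fun i => if j = i then 1 else 0)
  P_one : P (fun _ => 1) = 0
  Z_one : Z (fun _ => 1) = 0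
  tv : ∀ W, (∀ i, 0 ≤ W i) → (∑ i, |W i - mean q W|) ^ 2 ≤ C * mean q W * P W

variable {q : ℕ} {lam : ℝ}

/-! ### Ensembles without a potential -/

theorem Ens.chan (hq : q ≠ 0) (h0 : 0 ≤ lam) (h1 : lam ≤ 1) {S : Type*} [Fintype S]
    {L : S → Fin q → ℝ} (h : Ens L) : Ens (fun s => chan q lam (L s)) := by
  refine ⟨fun s i => chan_nonneg h0 h1 (h.nonneg s) i, ?_, ?_⟩
  · intro G g
    have h2 := h.symm (fun W => G (Vale.Agent.Lib.P154.chan q lam W)) g
    rw [h2]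
    refine Finset.sum_congr rfl fun s _ => ?_
    rw [chan_perm]
  · intro i
    unfold Vale.Agent.Lib.P154.chan
    rw [Finset.sum_comm]
    simp only [← Finset.mul_sum, h.one, mul_one]
    exact potts_sum hq i

theorem Ens.of_equiv {S S' : Type*} [Fintype S] [Fintype S'] (e : S ≃ S')
    {L : S → Fin q → ℝ} {L' : S' → Fin q → ℝ} (hL : ∀ s, L s = L' (e s)) (h : Ens L) :
    Ens L' := by
  have key : ∀ G : (Fin q → ℝ) → ℝ, ∑ s, G (L s) = ∑ s', G (L' s') := fun G =>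
    Fintype.sum_equiv e _ _ fun s => by rw [hL]
  refine ⟨?_, ?_, ?_⟩
  · intro s' i
    have := h.nonneg (e.symm s') i
    rwa [hL, Equiv.apply_symm_apply] at this
  · intro G g
    rw [← key, ← key (fun W => G (fun i => W (g i)))]
    exact h.symm G g
  · intro i
    rw [← key (fun W => W i)]
    exact h.one i

/-- an ensemble with nonnegative side functional -/
structure GoodEns2 {lam : ℝ} (pot : Pot2 q lam) {S : Type*} [Fintype S] (L : S → Fin q → ℝ) :
    Prop where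
  ens : Ens L
  Z_nonneg : 0 ≤ ∑ s, pot.Z (L s)

/-- an ensemble that has gone through the channel -/
structure ChEns2 {lam : ℝ} (pot : Pot2 q lam) {S : Type*} [Fintype S] (L : S → Fin q → ℝ) :
    Prop where
  good : GoodEns2 pot L
  K_low : pot.h0 ≤ ∑ s, pot.K (L s)
  H_low : pot.h0 * ∑ s, pot.P (L s) ≤ ∑ s, pot.H (L s)

variable {pot : Pot2 q lam}

theorem GoodEns2.P_nonneg {S : Type*} [Fintype S] {L : S → Fin q → ℝ} (h : GoodEns2 pot L) :
    0 ≤ ∑ s, pot.P (L s) := Finset.sum_nonneg fun s _ => pot.P_nonneg _ (h.ens.nonneg s)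

theorem GoodEns2.P_le (hq : q ≠ 0) {S : Type*} [Fintype S] {L : S → Fin q → ℝ}
    (h : GoodEns2 pot L) : ∑ s, pot.P (L s) ≤ 1 := by
  rw [← h.ens.sum_mean hq]
  exact Finset.sum_le_sum fun s _ => pot.P_le _ (h.ens.nonneg s)

theorem GoodEns2.K_nonneg {S : Type*} [Fintype S] {L : S → Fin q → ℝ} (h : GoodEns2 pot L) :
    0 ≤ ∑ s, pot.K (L s) := Finset.sum_nonneg fun s _ => pot.K_nonneg _ (h.ens.nonneg s)

theorem GoodEns2.H_nonneg {S : Type*} [Fintype S] {L : S → Fin q → ℝ} (h : GoodEns2 pot L) :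
    0 ≤ ∑ s, pot.H (L s) := Finset.sum_nonneg fun s _ => pot.H_nonneg _ (h.ens.nonneg s)

/-- lower bound for the side functional of a merge -/
theorem GoodEns2.mergeZ {S S' : Type*} [Fintype S] [Fintype S'] {L : S → Fin q → ℝ}
    {L' : S' → Fin q → ℝ} (h : GoodEns2 pot L) (h' : GoodEns2 pot L') :
    (∑ s', pot.K (L' s')) * (∑ s, pot.Z (L s)) + (∑ s, pot.K (L s)) * (∑ s', pot.Z (L' s'))
      + pot.c * (∑ s, pot.P (L s)) * (∑ s', pot.P (L' s')) ≤ ∑ p, pot.Z (mergeL L L' p) := by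
  rw [h'.ens.sum_star]
  have h1 : ∑ s, ∑ s', (pot.K (L' s') * pot.Z (L s) + pot.K (L s) * pot.Z (L' s')
        + pot.c * pot.P (L s) * pot.P (L' s'))
      ≤ ∑ s, ∑ s', starAvg q pot.Z (L s) (L' s') :=
    Finset.sum_le_sum fun s _ => Finset.sum_le_sum fun s' _ =>
      pot.starZ _ _ (h.ens.nonneg s) (h'.ens.nonneg s')
  refine le_trans (le_of_eq ?_) h1
  simp only [Finset.sum_add_distrib]
  have e3 : ∑ s, ∑ s', pot.K (L' s') * pot.Z (L s)
      = (∑ s', pot.K (L' s')) * (∑ s, pot.Z (L s)) := by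
    rw [Finset.sum_comm, Finset.sum_mul_sum]
  have e4 : ∑ s, ∑ s', pot.K (L s) * pot.Z (L' s')
      = (∑ s, pot.K (L s)) * (∑ s', pot.Z (L' s')) := by
    rw [Finset.sum_mul_sum]
  have e5 : ∑ s, ∑ s', pot.c * pot.P (L s) * pot.P (L' s')
      = pot.c * (∑ s, pot.P (L s)) * ∑ s', pot.P (L' s') := by
    rw [← Finset.sum_mul_sum, ← Finset.mul_sum]
  rw [e3, e4, e5]

/-- upper bound for the main functional of a merge -/
theorem GoodEns2.mergeP (hq : q ≠ 0) {S S' : Type*} [Fintype S] [Fintype S'] {L : S → Fin q → ℝ}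
    {L' : S' → Fin q → ℝ} (h : GoodEns2 pot L) (h' : GoodEns2 pot L') :
    ∑ p, pot.P (mergeL L L' p) ≤ (∑ s, pot.P (L s)) + (∑ s', pot.P (L' s'))
      - (∑ s', pot.H (L' s')) * (∑ s, pot.Z (L s))
      - (∑ s, pot.H (L s)) * (∑ s', pot.Z (L' s')) := by
  rw [h'.ens.sum_star]
  have h1 : ∑ s, ∑ s', starAvg q pot.P (L s) (L' s')
      ≤ ∑ s, ∑ s', (pot.P (L s) * mean q (L' s') + mean q (L s) * pot.P (L' s')
        - pot.H (L' s') * pot.Z (L s) - pot.H (L s) * pot.Z (L' s')) :=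
    Finset.sum_le_sum fun s _ => Finset.sum_le_sum fun s' _ =>
      pot.starP _ _ (h.ens.nonneg s) (h'.ens.nonneg s')
  refine le_trans h1 (le_of_eq ?_)
  simp only [Finset.sum_add_distrib, Finset.sum_sub_distrib]
  have e1 : ∑ s, ∑ s', pot.P (L s) * mean q (L' s') = ∑ s, pot.P (L s) := by
    rw [← Finset.sum_mul_sum, h'.ens.sum_mean hq, mul_one]
  have e2 : ∑ s, ∑ s', mean q (L s) * pot.P (L' s') = ∑ s', pot.P (L' s') := by
    rw [← Finset.sum_mul_sum, h.ens.sum_mean hq, one_mul]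
  have e3 : ∑ s, ∑ s', pot.H (L' s') * pot.Z (L s)
      = (∑ s', pot.H (L' s')) * (∑ s, pot.Z (L s)) := by
    rw [Finset.sum_comm, Finset.sum_mul_sum]
  have e4 : ∑ s, ∑ s', pot.H (L s) * pot.Z (L' s')
      = (∑ s, pot.H (L s)) * (∑ s', pot.Z (L' s')) := by
    rw [Finset.sum_mul_sum]
  rw [e1, e2, e3, e4]

theorem GoodEns2.merge (hq : q ≠ 0) {S S' : Type*} [Fintype S] [Fintype S'] {L : S → Fin q → ℝ}
    {L' : S' → Fin q → ℝ} (h : GoodEns2 pot L) (h' : GoodEns2 pot L') :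
    GoodEns2 pot (mergeL L L') ∧
    ∑ p, pot.P (mergeL L L' p) ≤ (∑ s, pot.P (L s)) + (∑ s', pot.P (L' s')) := by
  have hz := h.mergeZ h'
  have hp := h.mergeP hq h'
  have a1 := mul_nonneg h'.K_nonneg h.Z_nonneg
  have a2 := mul_nonneg h.K_nonneg h'.Z_nonneg
  have a3 := mul_nonneg (mul_nonneg pot.c_pos.le h.P_nonneg) h'.P_nonneg
  have a4 := mul_nonneg h'.H_nonneg h.Z_nonneg
  have a5 := mul_nonneg h.H_nonneg h'.Z_nonneg
  exact ⟨⟨h.ens.merge h'.ens, by linarith⟩, by linarith⟩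

theorem GoodEns2.chan (hq : q ≠ 0) (h0 : 0 ≤ lam) (h1 : lam ≤ 1) {S : Type*} [Fintype S]
    {L : S → Fin q → ℝ} (h : GoodEns2 pot L) :
    ChEns2 pot (fun s => chan q lam (L s)) ∧
    ∑ s, pot.P (Vale.Agent.Lib.P154.chan q lam (L s)) = lam ^ 2 * ∑ s, pot.P (L s) ∧
    lam ^ 3 * ∑ s, pot.Z (L s) ≤ ∑ s, pot.Z (Vale.Agent.Lib.P154.chan q lam (L s)) := by
  have h2 : lam ^ 3 * ∑ s, pot.Z (L s)
      ≤ ∑ s, pot.Z (Vale.Agent.Lib.P154.chan q lam (L s)) := by
    rw [Finset.mul_sum]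
    exact Finset.sum_le_sum fun s _ => pot.chanZ _ (h.ens.nonneg s)
  refine ⟨⟨⟨h.ens.chan hq h0 h1, ?_⟩, ?_, ?_⟩, ?_, h2⟩
  · exact le_trans (mul_nonneg (by positivity) h.Z_nonneg) h2
  · have h3 : ∑ s, pot.h0 * mean q (L s)
        ≤ ∑ s, pot.K (Vale.Agent.Lib.P154.chan q lam (L s)) :=
      Finset.sum_le_sum fun s _ => pot.K_chan _ (h.ens.nonneg s)
    rwa [← Finset.mul_sum, h.ens.sum_mean hq, mul_one] at h3
  · rw [Finset.mul_sum]
    exact Finset.sum_le_sum fun s _ => pot.H_chan _ (h.ens.nonneg s)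
  · rw [Finset.mul_sum]
    exact Finset.sum_congr rfl fun s _ => pot.chanP _ (h.ens.nonneg s)

theorem GoodEns2.of_equiv {S S' : Type*} [Fintype S] [Fintype S'] (e : S ≃ S')
    {L : S → Fin q → ℝ} {L' : S' → Fin q → ℝ} (hL : ∀ s, L s = L' (e s)) (h : GoodEns2 pot L) :
    GoodEns2 pot L' := by
  refine ⟨h.ens.of_equiv e hL, ?_⟩
  have : ∑ s, pot.Z (L s) = ∑ s', pot.Z (L' s') :=
    Fintype.sum_equiv e _ _ fun s => by rw [hL]
  rw [← this]
  exact h.Z_nonneg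

/-- merging finitely many ensembles -/
theorem good2_pi (hq : q ≠ 0) : ∀ (k : ℕ) (S : Fin k → Type) (inst : ∀ c, Fintype (S c))
    (L : ∀ c, S c → Fin q → ℝ), (∀ c, @GoodEns2 q lam pot (S c) (inst c) (L c)) →
    GoodEns2 pot (fun (s : ∀ c, S c) (i : Fin q) => ∏ c, L c (s c) i) ∧
    ∑ s : (∀ c, S c), pot.P (fun i => ∏ c, L c (s c) i) ≤ ∑ c, ∑ s, pot.P (L c s)
  | 0, S, inst, L, h => by
    simp only [Finset.univ_eq_empty, Finset.prod_empty, Finset.univ_unique, Finset.sum_const,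
      Finset.card_singleton, one_smul, pot.P_one, Finset.sum_empty, le_refl, and_true]
    refine ⟨⟨fun _ _ => zero_le_one, fun G g => by simp, fun i => by simp⟩, ?_⟩
    simp [pot.Z_one]
  | k + 1, S, inst, L, h => by
    obtain ⟨ih1, ih2⟩ := good2_pi hq k (fun c => S c.succ) (fun c => inst c.succ)
      (fun c => L c.succ) (fun c => h c.succ)
    obtain ⟨m1, m2⟩ := (h 0).merge hq ih1
    have hL : ∀ p : S 0 × (∀ c : Fin k, S c.succ),
        mergeL (L 0) (fun (s : ∀ c : Fin k, S c.succ) (i : Fin q) => ∏ c, L c.succ (s c) i) p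
        = (fun i => ∏ c, L c ((Fin.consEquiv S) p c) i) := by
      intro p
      funext i
      rw [Fin.prod_univ_succ]
      rfl
    refine ⟨GoodEns2.of_equiv (Fin.consEquiv S) hL m1, ?_⟩
    rw [Fin.sum_univ_succ]
    have e1 : ∑ s : (∀ c, S c), pot.P (fun i => ∏ c, L c (s c) i)
        = ∑ p, pot.P (mergeL (L 0)
          (fun (s : ∀ c : Fin k, S c.succ) (i : Fin q) => ∏ c, L c.succ (s c) i) p) :=
      (Fintype.sum_equiv (Fin.consEquiv S) _ _ fun p => by rw [hL p]).symm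
    rw [e1]
    linarith

/-- the gain from the last two of at least two ensembles -/
theorem good2_pi_gain (hq : q ≠ 0) : ∀ (m : ℕ) (S : Fin (m + 2) → Type)
    (inst : ∀ c, Fintype (S c))
    (L : ∀ c, S c → Fin q → ℝ), (∀ c, @ChEns2 q lam pot (S c) (inst c) (L c)) →
    (∑ s : (∀ c, S c), pot.P (fun i => ∏ c, L c (s c) i) ≤ (∑ c, ∑ s, pot.P (L c s))
      - pot.h0 * ((∑ s, pot.P (L (Fin.last (m + 1)) s)) *
          (∑ s, pot.Z (L (Fin.last m).castSucc s))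
        + (∑ s, pot.P (L (Fin.last m).castSucc s)) *
          (∑ s, pot.Z (L (Fin.last (m + 1)) s)))) ∧
    pot.h0 ^ m * (pot.c * (∑ s, pot.P (L (Fin.last m).castSucc s)) *
        (∑ s, pot.P (L (Fin.last (m + 1)) s)))
      ≤ ∑ s : (∀ c, S c), pot.Z (fun i => ∏ c, L c (s c) i)
  | 0, S, inst, L, h => by
    have hL : ∀ s : (∀ c : Fin 2, S c),
        (fun i => ∏ c, L c (s c) i) = mergeL (L 0) (L 1) (piFinTwoEquiv S s) := by
      intro s
      funext i
      rw [Fin.prod_univ_two]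
      rfl
    have eP : ∑ s : (∀ c : Fin 2, S c), pot.P (fun i => ∏ c, L c (s c) i)
        = ∑ p, pot.P (mergeL (L 0) (L 1) p) :=
      Fintype.sum_equiv (piFinTwoEquiv S) _ _ fun p => by rw [hL p]
    have eZ : ∑ s : (∀ c : Fin 2, S c), pot.Z (fun i => ∏ c, L c (s c) i)
        = ∑ p, pot.Z (mergeL (L 0) (L 1) p) :=
      Fintype.sum_equiv (piFinTwoEquiv S) _ _ fun p => by rw [hL p]
    have hz := (h 0).good.mergeZ (h 1).good
    have hp := (h 0).good.mergeP hq (h 1).good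
    have l0 : (Fin.last 0).castSucc = (0 : Fin 2) := rfl
    have l1 : Fin.last (0 + 1) = (1 : Fin 2) := rfl
    rw [l0, l1, Fin.sum_univ_two]
    have a1 := mul_nonneg (h 1).good.K_nonneg (h 0).good.Z_nonneg
    have a2 := mul_nonneg (h 0).good.K_nonneg (h 1).good.Z_nonneg
    have a3 := mul_le_mul_of_nonneg_right (h 1).H_low (h 0).good.Z_nonneg
    have a4 := mul_le_mul_of_nonneg_right (h 0).H_low (h 1).good.Z_nonneg
    constructor
    · refine le_trans (le_of_eq eP) (hp.trans ?_)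
      linarith
    · refine le_trans ?_ (le_of_eq eZ.symm)
      refine le_trans ?_ hz
      rw [pow_zero, one_mul]
      linarith
  | m + 1, S, inst, L, h => by
    obtain ⟨ih1, ih2⟩ := good2_pi_gain hq m (fun c => S c.succ) (fun c => inst c.succ)
      (fun c => L c.succ) (fun c => h c.succ)
    have hgood := (good2_pi (pot := pot) hq (m + 2) (fun c => S c.succ) (fun c => inst c.succ)
      (fun c => L c.succ) (fun c => (h c.succ).good)).1
    obtain ⟨m1, m2⟩ := (h 0).good.merge hq hgood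
    have m3 := (h 0).good.mergeZ hgood
    have hL : ∀ p : S 0 × (∀ c : Fin (m + 2), S c.succ),
        mergeL (L 0) (fun (s : ∀ c : Fin (m + 2), S c.succ) (i : Fin q) =>
          ∏ c, L c.succ (s c) i) p
        = (fun i => ∏ c, L c ((Fin.consEquiv S) p c) i) := by
      intro p
      funext i
      rw [Fin.prod_univ_succ]
      rfl
    have eP : ∑ s : (∀ c, S c), pot.P (fun i => ∏ c, L c (s c) i)
        = ∑ p, pot.P (mergeL (L 0)
          (fun (s : ∀ c : Fin (m + 2), S c.succ) (i : Fin q) => ∏ c, L c.succ (s c) i) p) :=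
      (Fintype.sum_equiv (Fin.consEquiv S) _ _ fun p => by rw [hL p]).symm
    have eZ : ∑ s : (∀ c, S c), pot.Z (fun i => ∏ c, L c (s c) i)
        = ∑ p, pot.Z (mergeL (L 0)
          (fun (s : ∀ c : Fin (m + 2), S c.succ) (i : Fin q) => ∏ c, L c.succ (s c) i) p) :=
      (Fintype.sum_equiv (Fin.consEquiv S) _ _ fun p => by rw [hL p]).symm
    rw [eP, eZ, Fin.sum_univ_succ]
    have l0 : (Fin.last m).castSucc.succ = (Fin.last (m + 1)).castSucc := rfl
    have l1 : (Fin.last (m + 1)).succ = Fin.last (m + 1 + 1) := rfl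
    rw [l0, l1] at ih1 ih2
    constructor
    · linarith
    · have a1 := mul_nonneg hgood.K_nonneg (h 0).good.Z_nonneg
      have a3 := mul_nonneg (mul_nonneg pot.c_pos.le (h 0).good.P_nonneg) hgood.P_nonneg
      have a4 := mul_le_mul_of_nonneg_right (h 0).K_low hgood.Z_nonneg
      have a5 := mul_le_mul_of_nonneg_left ih2 pot.h0_pos.le
      rw [pow_succ]
      linarith

end Vale.Agent.Lib.P154
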