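import Vale.Agent.Lib.P154.Subcrit
import Vale.Agent.Lib.P154.FrameTree

/-!
The Kesten-Stigum direction: `d * lam ^ 2 > 1` implies reconstruction.  Second moment method.
-/

namespace Vale.Agent.Lib.P154.KS

open scoped BigOperators
open Filter Topology

/-- number of vertices at level `n` -/
noncomputable def cnt : (n : ℕ) → Tr n → ℝ
  | 0, _ => 1
  | n + 1, T => ∑ c : Fin T.1, cnt n (T.2 c)

/-- census vector, centred -/
noncomputable def S (q n : ℕ) (T : Tr n) (s : Lvl n T → Fin q) (k : Fin q) : ℝ :=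
  ∑ v : Lvl n T, ((if s v = k then (1 : ℝ) else 0) - 1 / q)

/-- second moment of the census -/
noncomputable def A (q : ℕ) (lam : ℝ) : (n : ℕ) → Tr n → ℝ
  | 0, _ => 1 - 1 / q
  | n + 1, T => ∑ c : Fin T.1, A q lam n (T.2 c) + lam ^ (2 * n + 2) * (1 - 1 / q) *
      ((∑ c : Fin T.1, cnt n (T.2 c)) ^ 2 - ∑ c : Fin T.1, cnt n (T.2 c) ^ 2)

section Product

variable {N : ℕ} {Ω : Fin N → Type} [∀ c, Fintype (Ω c)]

theorem prod_exp (w h : ∀ c, Ω c → ℝ) :
    ∑ ω : (∀ c, Ω c), (∏ c, w c (ω c)) * (∏ c, h c (ω c)) = ∏ c, ∑ x, w c x * h c x := by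
  have h2 := Finset.prod_univ_sum (fun c : Fin N => (Finset.univ : Finset (Ω c)))
      (fun (c : Fin N) (x : Ω c) => w c x * h c x)
  rw [Fintype.piFinset_univ] at h2
  rw [h2]
  exact Finset.sum_congr rfl fun ω _ => Finset.prod_mul_distrib.symm

theorem prod_one (w : ∀ c, Ω c → ℝ) (hw : ∀ c, ∑ x, w c x = 1) (f : ∀ c, Ω c → ℝ) (c0 : Fin N) :
    ∑ ω : (∀ c, Ω c), (∏ c, w c (ω c)) * f c0 (ω c0) = ∑ x, w c0 x * f c0 x := by
  have h1 := prod_exp w (fun c x => if c = c0 then f c x else 1)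
  have h2 : ∀ ω : (∀ c, Ω c), (∏ c, (if c = c0 then f c (ω c) else 1)) = f c0 (ω c0) := by
    intro ω
    rw [Finset.prod_ite_eq' Finset.univ c0 (fun c => f c (ω c)), if_pos (Finset.mem_univ c0)]
  simp only [h2] at h1
  rw [h1]
  have h3 : ∀ c, (∑ x, w c x * (if c = c0 then f c x else 1))
      = if c = c0 then ∑ x, w c x * f c x else 1 := by
    intro c
    split_ifs
    · rfl
    · simp only [mul_one]
      exact hw c
  simp only [h3]
  rw [Finset.prod_ite_eq' Finset.univ c0 (fun c => ∑ x, w c x * f c x),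
    if_pos (Finset.mem_univ c0)]

theorem prod_two (w : ∀ c, Ω c → ℝ) (hw : ∀ c, ∑ x, w c x = 1) (f : ∀ c, Ω c → ℝ)
    {c0 c1 : Fin N} (hne : c0 ≠ c1) :
    ∑ ω : (∀ c, Ω c), (∏ c, w c (ω c)) * (f c0 (ω c0) * f c1 (ω c1))
      = (∑ x, w c0 x * f c0 x) * ∑ x, w c1 x * f c1 x := by
  have h1 := prod_exp w (fun c x => if c = c0 ∨ c = c1 then f c x else 1)
  have hfil : Finset.univ.filter (fun c : Fin N => c = c0 ∨ c = c1) = {c0, c1} := by
    ext c
    simp
  have h2 : ∀ ω : (∀ c, Ω c), (∏ c, (if c = c0 ∨ c = c1 then f c (ω c) else 1))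
      = f c0 (ω c0) * f c1 (ω c1) := by
    intro ω
    rw [Finset.prod_ite, Finset.prod_const_one, mul_one, hfil, Finset.prod_pair hne]
  simp only [h2] at h1
  rw [h1]
  have h3 : ∀ c, (∑ x, w c x * (if c = c0 ∨ c = c1 then f c x else 1))
      = if c = c0 ∨ c = c1 then ∑ x, w c x * f c x else 1 := by
    intro c
    split_ifs
    · rfl
    · simp only [mul_one]
      exact hw c
  simp only [h3]
  rw [Finset.prod_ite, Finset.prod_const_one, mul_one, hfil, Finset.prod_pair hne]

theorem prod_sum_exp (w : ∀ c, Ω c → ℝ) (hw : ∀ c, ∑ x, w c x = 1) (f : ∀ c, Ω c → ℝ) :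
    ∑ ω : (∀ c, Ω c), (∏ c, w c (ω c)) * ∑ c, f c (ω c) = ∑ c, ∑ x, w c x * f c x := by
  simp only [Finset.mul_sum]
  rw [Finset.sum_comm]
  exact Finset.sum_congr rfl fun c _ => prod_one w hw f c

theorem prod_sq_exp (w : ∀ c, Ω c → ℝ) (hw : ∀ c, ∑ x, w c x = 1) (f : ∀ c, Ω c → ℝ) :
    ∑ ω : (∀ c, Ω c), (∏ c, w c (ω c)) * (∑ c, f c (ω c)) ^ 2
      = (∑ c, ∑ x, w c x * f c x ^ 2) + ((∑ c, ∑ x, w c x * f c x) ^ 2
        - ∑ c, (∑ x, w c x * f c x) ^ 2) := by
  have h1 : ∀ ω : (∀ c, Ω c), (∏ c, w c (ω c)) * (∑ c, f c (ω c)) ^ 2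
      = ∑ c, ∑ c', (∏ c, w c (ω c)) * (f c (ω c) * f c' (ω c')) := by
    intro ω
    rw [sq, Finset.sum_mul_sum, Finset.mul_sum]
    exact Finset.sum_congr rfl fun c _ => Finset.mul_sum _ _ _
  simp only [h1]
  rw [Finset.sum_comm]
  have h2 : ∀ c c' : Fin N, ∑ ω : (∀ c, Ω c), (∏ c, w c (ω c)) * (f c (ω c) * f c' (ω c'))
      = (∑ x, w c x * f c x) * (∑ x, w c' x * f c' x)
        + if c = c' then (∑ x, w c x * f c x ^ 2) - (∑ x, w c x * f c x) ^ 2 else 0 := by
    intro c c'
    by_cases h : c = c'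
    · subst h
      rw [if_pos rfl]
      have h3 := prod_one w hw (fun c x => f c x ^ 2) c
      have h4 : ∀ ω : (∀ c, Ω c), f c (ω c) * f c (ω c) = f c (ω c) ^ 2 := fun ω => by ring
      simp only [h4]
      rw [h3]
      ring
    · rw [if_neg h, add_zero]
      exact prod_two w hw f h
  have h5 : ∀ c : Fin N, ∑ ω : (∀ c, Ω c), ∑ c', (∏ c, w c (ω c)) * (f c (ω c) * f c' (ω c'))
      = (∑ x, w c x * f c x) * (∑ c', ∑ x, w c' x * f c' x)
        + ((∑ x, w c x * f c x ^ 2) - (∑ x, w c x * f c x) ^ 2) := by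
    intro c
    rw [Finset.sum_comm]
    simp only [h2]
    rw [Finset.sum_add_distrib, ← Finset.mul_sum, Finset.sum_ite_eq,
      if_pos (Finset.mem_univ c)]
  simp only [h5]
  rw [Finset.sum_add_distrib, ← Finset.sum_mul, Finset.sum_sub_distrib]
  ring

end Product

/-- law of the spins below a child, given the spin of the parent -/
noncomputable def wt (q : ℕ) (lam : ℝ) (n : ℕ) (T : Tr (n + 1)) (i : Fin q) (c : Fin T.1)
    (x : Lvl n (T.2 c) → Fin q) : ℝ :=
  ∑ j : Fin q, potts q lam i j * lik q lam n (T.2 c) j x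

theorem wt_sum {q : ℕ} (hq : q ≠ 0) (lam : ℝ) (n : ℕ) (T : Tr (n + 1)) (i : Fin q)
    (c : Fin T.1) : ∑ x, wt q lam n T i c x = 1 := by
  unfold wt
  rw [Finset.sum_comm]
  simp only [← Finset.mul_sum, Subcrit.lik_sum hq, mul_one]
  exact potts_sum hq i

theorem wt_exp (q : ℕ) (lam : ℝ) (n : ℕ) (T : Tr (n + 1)) (i : Fin q)
    (c : Fin T.1) (g : (Lvl n (T.2 c) → Fin q) → ℝ) :
    ∑ x, wt q lam n T i c x * g x
      = ∑ j, potts q lam i j * ∑ x, lik q lam n (T.2 c) j x * g x := by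
  unfold wt
  simp only [Finset.sum_mul, Finset.mul_sum]
  rw [Finset.sum_comm]
  exact Finset.sum_congr rfl fun j _ => Finset.sum_congr rfl fun x _ => by ring

theorem sum_succ (q : ℕ) (lam : ℝ) (n : ℕ) (T : Tr (n + 1)) (i : Fin q)
    (F : (Lvl (n + 1) T → Fin q) → ℝ) :
    ∑ s, lik q lam (n + 1) T i s * F s
      = ∑ ω : (∀ c : Fin T.1, (Lvl n (T.2 c) → Fin q)),
        (∏ c, wt q lam n T i c (ω c)) * F ((spinEquiv q n T).symm ω) :=
  (Fintype.sum_equiv (spinEquiv q n T).symm _ _ fun _ => rfl).symm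

theorem S_succ (q n : ℕ) (T : Tr (n + 1))
    (ω : ∀ c : Fin T.1, (Lvl n (T.2 c) → Fin q)) (k : Fin q) :
    S q (n + 1) T ((spinEquiv q n T).symm ω) k = ∑ c, S q n (T.2 c) (ω c) k := by
  unfold S
  exact Fintype.sum_sigma (fun v : Σ c : Fin T.1, Lvl n (T.2 c) =>
    ((if ω v.1 v.2 = k then (1 : ℝ) else 0) - 1 / q))

theorem potts_mean {q : ℕ} (hq : q ≠ 0) (lam : ℝ) (i k : Fin q) :
    ∑ j, potts q lam i j * ((if j = k then (1 : ℝ) else 0) - 1 / q)
      = lam * ((if i = k then (1 : ℝ) else 0) - 1 / q) := by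
  have hq' : (q : ℝ) ≠ 0 := by exact_mod_cast hq
  simp only [mul_sub]
  rw [Finset.sum_sub_distrib, ← Finset.sum_mul, potts_sum hq]
  simp only [mul_ite, mul_one, mul_zero]
  rw [Finset.sum_ite_eq' Finset.univ k (fun j => potts q lam i j), if_pos (Finset.mem_univ k)]
  unfold potts
  split_ifs <;> field_simp <;> ring

theorem sum_sq {q : ℕ} (hq : q ≠ 0) (i : Fin q) :
    ∑ k : Fin q, ((if i = k then (1 : ℝ) else 0) - 1 / (q : ℝ)) ^ 2 = 1 - 1 / (q : ℝ) := by
  have hq' : (q : ℝ) ≠ 0 := by exact_mod_cast hq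
  have h : ∀ k : Fin q, ((if i = k then (1 : ℝ) else 0) - 1 / (q : ℝ)) ^ 2
      = (if i = k then 1 - 2 / (q : ℝ) else 0) + 1 / (q : ℝ) ^ 2 := by
    intro k
    split_ifs
    · field_simp; ring
    · field_simp; ring
  simp only [h]
  rw [Finset.sum_add_distrib, Finset.sum_ite_eq, if_pos (Finset.mem_univ i), Finset.sum_const,
    Finset.card_univ, Fintype.card_fin, nsmul_eq_mul]
  field_simp
  ring

/-- sum over the spins of a leaf -/
theorem sum_zero_level (q : ℕ) (T : Tr 0) (F : (Lvl 0 T → Fin q) → ℝ) :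
    ∑ s, F s = ∑ j : Fin q, F (fun _ => j) := by
  let e : Fin q ≃ (Lvl 0 T → Fin q) :=
    { toFun := fun j _ => j
      invFun := fun s => s ()
      left_inv := fun _ => rfl
      right_inv := fun s => by funext u; cases u; rfl }
  exact (Fintype.sum_equiv e (fun j => F (fun _ => j)) F (fun j => rfl)).symm

theorem S_zero (q : ℕ) (T : Tr 0) (j k : Fin q) :
    S q 0 T (fun _ => j) k = (if j = k then (1 : ℝ) else 0) - 1 / q := by
  unfold S
  exact Fintype.sum_unique (fun _ : Unit => ((if j = k then (1 : ℝ) else 0) - 1 / (q : ℝ)))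

/-- first moment given the root spin (induction on `n`, `likL_succ`, product structure) -/
theorem S_mean (q : ℕ) (hq : 2 ≤ q) (lam : ℝ) (n : ℕ) (T : Tr n) (i k : Fin q) :
    ∑ s, lik q lam n T i s * S q n T s k
      = lam ^ n * cnt n T * ((if i = k then (1 : ℝ) else 0) - 1 / q) := by
  have hq0 : q ≠ 0 := by omega
  induction n generalizing i with
  | zero =>
    rw [sum_zero_level q T (fun s => lik q lam 0 T i s * S q 0 T s k)]
    simp only [S_zero]
    have h : ∀ j : Fin q, lik q lam 0 T i (fun _ => j) = if j = i then 1 else 0 := fun j => rfl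
    simp only [h, ite_mul, one_mul, zero_mul]
    rw [Finset.sum_ite_eq' Finset.univ i
      (fun j => ((if j = k then (1 : ℝ) else 0) - 1 / q)), if_pos (Finset.mem_univ i)]
    have hc : cnt 0 T = 1 := rfl
    rw [hc, pow_zero, one_mul, one_mul]
  | succ n ih =>
    rw [sum_succ]
    simp only [S_succ]
    rw [prod_sum_exp (fun c x => wt q lam n T i c x) (fun c => wt_sum hq0 lam n T i c)
      (fun c x => S q n (T.2 c) x k)]
    simp only [wt_exp, ih]
    have h : ∀ c : Fin T.1, ∑ j, potts q lam i j *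
        (lam ^ n * cnt n (T.2 c) * ((if j = k then (1 : ℝ) else 0) - 1 / q))
        = cnt n (T.2 c) * (lam ^ (n + 1) * ((if i = k then (1 : ℝ) else 0) - 1 / q)) := by
      intro c
      have h2 : ∀ j, potts q lam i j *
        (lam ^ n * cnt n (T.2 c) * ((if j = k then (1 : ℝ) else 0) - 1 / q))
        = lam ^ n * cnt n (T.2 c) *
          (potts q lam i j * ((if j = k then (1 : ℝ) else 0) - 1 / q)) := fun j => by ring
      simp only [h2]
      rw [← Finset.mul_sum, potts_mean hq0]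
      ring
    simp only [h]
    rw [← Finset.sum_mul]
    have hc : cnt (n + 1) T = ∑ c : Fin T.1, cnt n (T.2 c) := rfl
    rw [hc]
    ring

/-- second moment given the root spin; the induction hypothesis for all root spins `j` makes the
value independent of the spin of the child -/
theorem S_sq (q : ℕ) (hq : 2 ≤ q) (lam : ℝ) (n : ℕ) (T : Tr n) (i : Fin q) :
    ∑ s, lik q lam n T i s * ∑ k, S q n T s k ^ 2 = A q lam n T := by
  have hq0 : q ≠ 0 := by omega
  induction n generalizing i with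
  | zero =>
    rw [sum_zero_level q T (fun s => lik q lam 0 T i s * ∑ k, S q 0 T s k ^ 2)]
    simp only [S_zero, sum_sq hq0]
    rw [← Finset.sum_mul]
    have h : ∀ j : Fin q, lik q lam 0 T i (fun _ => j) = if j = i then 1 else 0 := fun j => rfl
    simp only [h]
    rw [Finset.sum_ite_eq' Finset.univ i (fun _ => (1 : ℝ)), if_pos (Finset.mem_univ i), one_mul]
    rfl
  | succ n ih =>
    have hm : ∀ (c : Fin T.1) (k : Fin q), ∑ x, wt q lam n T i c x * S q n (T.2 c) x k
        = lam ^ (n + 1) * cnt n (T.2 c) * ((if i = k then (1 : ℝ) else 0) - 1 / q) := by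
      intro c k
      rw [wt_exp]
      simp only [S_mean q hq]
      have h2 : ∀ j, potts q lam i j *
        (lam ^ n * cnt n (T.2 c) * ((if j = k then (1 : ℝ) else 0) - 1 / q))
        = lam ^ n * cnt n (T.2 c) *
          (potts q lam i j * ((if j = k then (1 : ℝ) else 0) - 1 / q)) := fun j => by ring
      simp only [h2]
      rw [← Finset.mul_sum, potts_mean hq0]
      ring
    have h1 : ∀ k : Fin q, ∑ s, lik q lam (n + 1) T i s * S q (n + 1) T s k ^ 2
        = (∑ c : Fin T.1, ∑ x, wt q lam n T i c x * S q n (T.2 c) x k ^ 2)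
          + lam ^ (2 * n + 2) * ((∑ c : Fin T.1, cnt n (T.2 c)) ^ 2
            - ∑ c : Fin T.1, cnt n (T.2 c) ^ 2)
            * ((if i = k then (1 : ℝ) else 0) - 1 / q) ^ 2 := by
      intro k
      rw [sum_succ q lam n T i (fun s => S q (n + 1) T s k ^ 2)]
      simp only [S_succ]
      rw [prod_sq_exp (fun c x => wt q lam n T i c x) (fun c => wt_sum hq0 lam n T i c)
        (fun c x => S q n (T.2 c) x k)]
      simp only [hm]
      congr 1
      rw [← Finset.sum_mul, ← Finset.mul_sum]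
      have h3 : ∀ c : Fin T.1, (lam ^ (n + 1) * cnt n (T.2 c)
          * ((if i = k then (1 : ℝ) else 0) - 1 / q)) ^ 2
          = cnt n (T.2 c) ^ 2 * (lam ^ (2 * n + 2)
            * ((if i = k then (1 : ℝ) else 0) - 1 / q) ^ 2) := fun c => by ring
      simp only [h3]
      rw [← Finset.sum_mul]
      ring
    simp only [Finset.mul_sum]
    rw [Finset.sum_comm]
    simp only [h1]
    rw [Finset.sum_add_distrib, ← Finset.mul_sum, sum_sq hq0, Finset.sum_comm]
    have h4 : ∀ c : Fin T.1, ∑ k, ∑ x, wt q lam n T i c x * S q n (T.2 c) x k ^ 2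
        = A q lam n (T.2 c) := by
      intro c
      rw [Finset.sum_comm]
      simp only [← Finset.mul_sum]
      rw [wt_exp q lam n T i c (fun x => ∑ k, S q n (T.2 c) x k ^ 2)]
      simp only [ih]
      rw [← Finset.sum_mul, potts_sum hq0, one_mul]
    simp only [h4]
    have hA : A q lam (n + 1) T = ∑ c : Fin T.1, A q lam n (T.2 c)
      + lam ^ (2 * n + 2) * (1 - 1 / q) *
      ((∑ c : Fin T.1, cnt n (T.2 c)) ^ 2 - ∑ c : Fin T.1, cnt n (T.2 c) ^ 2) := rfl
    rw [hA]
    ring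

theorem S_sum_zero {q : ℕ} (hq : q ≠ 0) (n : ℕ) (T : Tr n) (s : Lvl n T → Fin q) :
    ∑ k, S q n T s k = 0 := by
  have hq' : (q : ℝ) ≠ 0 := by exact_mod_cast hq
  unfold S
  rw [Finset.sum_comm]
  refine Finset.sum_eq_zero fun v _ => ?_
  rw [Finset.sum_sub_distrib, Finset.sum_ite_eq, if_pos (Finset.mem_univ _), Finset.sum_const,
    Finset.card_univ, Fintype.card_fin, nsmul_eq_mul]
  field_simp
  ring

/-- Cauchy-Schwarz: `E <S, e_root - 1/q> = E <S, post - 1/q>` and
`|post - 1/q|^2 ≤ 2 * (1/2) * sum |post - 1/q|` -/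
theorem tree_ineq (q : ℕ) (hq : 2 ≤ q) (lam : ℝ) (h0 : -(1 / ((q : ℝ) - 1)) ≤ lam) (h1 : lam ≤ 1)
    (n : ℕ) (T : Tr n) :
    (lam ^ n * cnt n T * (1 - 1 / q)) ^ 2 ≤ 2 * A q lam n T * tvTree q lam n T := by
  have hq0 : q ≠ 0 := by omega
  have hq' : (q : ℝ) ≠ 0 := by exact_mod_cast hq0
  have hqp : (0 : ℝ) < q := lt_of_le_of_ne (Nat.cast_nonneg q) (Ne.symm hq')
  have hp := Subcrit.potts_nonneg' hq h0 h1
  have hnn : ∀ s i, 0 ≤ likL q lam n T s i := fun s i => Subcrit.lik_nonneg hp n T i s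
  -- the scalar product
  have e1 : ∑ s, ∑ i, ((likL q lam n T s i - mean q (likL q lam n T s)) / q) * S q n T s i
      = lam ^ n * cnt n T * (1 - 1 / q) := by
    have h2 : ∀ s, ∑ i, ((likL q lam n T s i - mean q (likL q lam n T s)) / q) * S q n T s i
        = ∑ i, (1 / (q : ℝ)) * (lik q lam n T i s * S q n T s i) := by
      intro s
      have h3 : ∀ i, ((likL q lam n T s i - mean q (likL q lam n T s)) / q) * S q n T s i
          = (1 / (q : ℝ)) * (lik q lam n T i s * S q n T s i)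
            - (mean q (likL q lam n T s) / q) * S q n T s i := by
        intro i
        unfold likL
        ring
      simp only [h3]
      rw [Finset.sum_sub_distrib, ← Finset.mul_sum Finset.univ (fun i => S q n T s i),
        S_sum_zero hq0, mul_zero, sub_zero]
    simp only [h2]
    rw [Finset.sum_comm]
    simp only [← Finset.mul_sum, S_mean q hq]
    simp only [if_true]
    rw [Finset.sum_const, Finset.card_univ, Fintype.card_fin, nsmul_eq_mul]
    field_simp
  have e2 : ∑ s, ∑ i, |(likL q lam n T s i - mean q (likL q lam n T s)) / q|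
      = 2 * tvTree q lam n T := by
    rw [tvTree_eq' hq0 n T hnn]
    simp only [abs_div, abs_of_pos hqp]
    simp only [div_eq_mul_inv]
    simp only [← Finset.sum_mul]
    field_simp
  have e3 : ∑ s, ∑ i, mean q (likL q lam n T s) * S q n T s i ^ 2 = A q lam n T := by
    have h2 : ∀ s, ∑ i, mean q (likL q lam n T s) * S q n T s i ^ 2
        = ∑ j, (1 / (q : ℝ)) * (lik q lam n T j s * ∑ i, S q n T s i ^ 2) := by
      intro s
      rw [← Finset.mul_sum]
      unfold mean likL
      rw [← Finset.mul_sum, ← Finset.sum_mul]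
      ring
    simp only [h2]
    rw [Finset.sum_comm]
    simp only [← Finset.mul_sum Finset.univ]
    simp only [S_sq q hq]
    rw [Finset.sum_const, Finset.card_univ, Fintype.card_fin, nsmul_eq_mul]
    field_simp
  have hCS : (∑ p : (Lvl n T → Fin q) × Fin q,
      ((likL q lam n T p.1 p.2 - mean q (likL q lam n T p.1)) / q) * S q n T p.1 p.2) ^ 2
      ≤ (∑ p : (Lvl n T → Fin q) × Fin q,
        |(likL q lam n T p.1 p.2 - mean q (likL q lam n T p.1)) / q|)
        * ∑ p : (Lvl n T → Fin q) × Fin q, mean q (likL q lam n T p.1) * S q n T p.1 p.2 ^ 2 := by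
    refine Finset.sum_sq_le_sum_mul_sum_of_sq_le_mul _ (fun p _ => abs_nonneg _)
      (fun p _ => mul_nonneg (mean_nonneg q (hnn p.1)) (sq_nonneg _)) fun p _ => ?_
    obtain ⟨s, i⟩ := p
    simp only
    have hm0 := mean_nonneg q (hnn s)
    have hle : |(likL q lam n T s i - mean q (likL q lam n T s)) / q|
        ≤ mean q (likL q lam n T s) := by
      have hi : likL q lam n T s i ≤ q * mean q (likL q lam n T s) := by
        unfold mean
        rw [mul_div_cancel₀ _ hq']
        exact Finset.single_le_sum (fun j _ => hnn s j) (Finset.mem_univ i)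
      have hi0 := hnn s i
      rw [abs_div, abs_of_pos hqp, div_le_iff₀ hqp, abs_le]
      have hq1 : (1 : ℝ) ≤ q := by exact_mod_cast (by omega : 1 ≤ q)
      constructor <;> nlinarith
    rw [mul_pow, ← sq_abs ((likL q lam n T s i - mean q (likL q lam n T s)) / q)]
    have h3 : |(likL q lam n T s i - mean q (likL q lam n T s)) / q| ^ 2
        ≤ |(likL q lam n T s i - mean q (likL q lam n T s)) / q|
          * mean q (likL q lam n T s) := by
      rw [sq]
      exact mul_le_mul_of_nonneg_left hle (abs_nonneg _)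
    calc |(likL q lam n T s i - mean q (likL q lam n T s)) / q| ^ 2 * S q n T s i ^ 2
        ≤ (|(likL q lam n T s i - mean q (likL q lam n T s)) / q|
          * mean q (likL q lam n T s)) * S q n T s i ^ 2 :=
          mul_le_mul_of_nonneg_right h3 (sq_nonneg _)
      _ = _ := by ring
  rw [Fintype.sum_prod_type, Fintype.sum_prod_type, Fintype.sum_prod_type] at hCS
  rw [e1, e2, e3] at hCS
  calc (lam ^ n * cnt n T * (1 - 1 / q)) ^ 2 ≤ 2 * tvTree q lam n T * A q lam n T := hCS
    _ = 2 * A q lam n T * tvTree q lam n T := by ring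

end Vale.Agent.Lib.P154.KS
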