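import Vale.Agent.Lib.P154.KS
import Vale.Agent.Lib.P154.GW

/-! Reconstruction above the Kesten-Stigum bound, Galton-Watson trees. -/

namespace Vale.Agent.Lib.P154.KS

open scoped BigOperators ENNReal
open Filter Topology GWAux

/-- product formula with functions depending on the index -/
theorem KG_tsum_pi {α : Type} : ∀ (k : ℕ) (g : Fin k → α → ℝ≥0∞),
    ∑' f : Fin k → α, ∏ i, g i (f i) = ∏ i, ∑' a, g i a
  | 0, g => by
    rw [tsum_fintype]
    simp
  | k + 1, g => by
    rw [← (Fin.consEquiv (fun _ : Fin (k + 1) => α)).tsum_eq]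
    have e : ∀ c : α × (Fin k → α), ∏ i, g i ((Fin.consEquiv fun _ : Fin (k + 1) => α) c i)
        = g 0 c.1 * ∏ i, g (Fin.succ i) (c.2 i) := by
      intro c
      rw [Fin.prod_univ_succ]
      simp [Fin.consEquiv]
    rw [tsum_congr e, ENNReal.tsum_prod (f := fun a (f : Fin k → α) =>
      g 0 a * ∏ i, g (Fin.succ i) (f i))]
    simp only [ENNReal.tsum_mul_left, KG_tsum_pi k (fun i => g (Fin.succ i)),
      ENNReal.tsum_mul_right]
    rw [Fin.prod_univ_succ]

/-- expectation over the Galton-Watson tree, extended nonnegative functions -/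
noncomputable def EE (d : ℝ) (n : ℕ) (F : Tr n → ℝ≥0∞) : ℝ≥0∞ := ∑' T : Tr n, w d n T * F T

theorem EE_succ {d : ℝ} (hd : 0 ≤ d) (n : ℕ) (F : (k : ℕ) → (Fin k → Tr n) → ℝ≥0∞) :
    EE d (n + 1) (fun T => F T.1 T.2) = ∑' k, ENNReal.ofReal (pois d k) *
      ∑' f : Fin k → Tr n, (∏ i, w d n (f i)) * F k f := by
  unfold EE
  have h1 : ∑' T : Tr (n + 1), w d (n + 1) T * F T.1 T.2
      = ∑' T : (Σ k : ℕ, (Fin k → Tr n)), ENNReal.ofReal (pois d T.1)
          * ((∏ i, w d n (T.2 i)) * F T.1 T.2) := by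
    apply tsum_congr
    intro T
    rw [w_succ hd, mul_assoc]
  rw [h1, ENNReal.tsum_sigma']
  apply tsum_congr
  intro k
  show ∑' b : Fin k → Tr n, ENNReal.ofReal (pois d k) * ((∏ i, w d n (b i)) * F k b) = _
  rw [ENNReal.tsum_mul_left]

theorem KG_one {d : ℝ} (hd : 0 ≤ d) (n : ℕ) (g : Tr n → ℝ≥0∞) (k : ℕ) (c : Fin k) :
    ∑' f : Fin k → Tr n, (∏ i, w d n (f i)) * g (f c) = EE d n g := by
  have e : ∀ f : Fin k → Tr n, (∏ i, w d n (f i)) * g (f c)
      = ∏ i, (w d n (f i) * if i = c then g (f i) else 1) := by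
    intro f
    rw [Finset.prod_mul_distrib]
    congr 1
    rw [Finset.prod_ite_eq' Finset.univ c (fun i => g (f i))]
    simp
  rw [tsum_congr e, KG_tsum_pi k (fun i t => w d n t * if i = c then g t else 1)]
  have e2 : ∀ i : Fin k, ∑' t, w d n t * (if i = c then g t else 1)
      = if i = c then EE d n g else 1 := by
    intro i
    by_cases h : i = c
    · simp only [h, if_true]
      rfl
    · simp only [h, if_false, mul_one]
      exact tsum_w hd n
  rw [Finset.prod_congr rfl (fun i _ => e2 i), Finset.prod_ite_eq']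
  simp

theorem KG_two {d : ℝ} (hd : 0 ≤ d) (n : ℕ) (g : Tr n → ℝ≥0∞) (k : ℕ) (c c' : Fin k)
    (hc : c ≠ c') :
    ∑' f : Fin k → Tr n, (∏ i, w d n (f i)) * (g (f c) * g (f c')) = EE d n g * EE d n g := by
  have e : ∀ f : Fin k → Tr n, (∏ i, w d n (f i)) * (g (f c) * g (f c'))
      = ∏ i, (w d n (f i) * ((if i = c then g (f i) else 1) * if i = c' then g (f i) else 1)) := by
    intro f
    rw [Finset.prod_mul_distrib]
    congr 1
    rw [Finset.prod_mul_distrib, Finset.prod_ite_eq' Finset.univ c (fun i => g (f i)),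
      Finset.prod_ite_eq' Finset.univ c' (fun i => g (f i))]
    simp
  rw [tsum_congr e, KG_tsum_pi k (fun i t => w d n t *
    ((if i = c then g t else 1) * if i = c' then g t else 1))]
  have e2 : ∀ i : Fin k, ∑' t, w d n t * ((if i = c then g t else 1) * if i = c' then g t else 1)
      = (if i = c then EE d n g else 1) * (if i = c' then EE d n g else 1) := by
    intro i
    by_cases h : i = c
    · have h' : i ≠ c' := fun h' => hc (h.symm.trans h')
      simp only [h, if_true, if_neg hc, mul_one]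
      rfl
    · by_cases h' : i = c'
      · have h2 : ¬ (c' = c) := fun h2 => hc h2.symm
        simp only [h', if_true, if_neg h2, one_mul]
        rfl
      · simp only [h, h', if_false, mul_one]
        exact tsum_w hd n
  rw [Finset.prod_congr rfl (fun i _ => e2 i), Finset.prod_mul_distrib, Finset.prod_ite_eq',
    Finset.prod_ite_eq']
  simp

theorem KG_pois1 {d : ℝ} (hd : 0 ≤ d) :
    ∑' k : ℕ, ENNReal.ofReal (pois d k) * (k : ℝ≥0∞) = ENNReal.ofReal d := by
  rw [tsum_eq_zero_add' ENNReal.summable]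
  simp only [Nat.cast_zero, mul_zero, zero_add]
  have e : ∀ k : ℕ, ENNReal.ofReal (pois d (k + 1)) * ((k + 1 : ℕ) : ℝ≥0∞)
      = ENNReal.ofReal d * ENNReal.ofReal (pois d k) := by
    intro k
    rw [← ENNReal.ofReal_natCast (k + 1), ← ENNReal.ofReal_mul (pois_nonneg hd _),
      ← ENNReal.ofReal_mul hd]
    congr 1
    unfold pois
    rw [Nat.factorial_succ, pow_succ]
    push_cast
    have h1 : ((k : ℝ) + 1) ≠ 0 := by positivity
    have h2 : (k.factorial : ℝ) ≠ 0 := by positivity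
    field_simp
  rw [tsum_congr e, ENNReal.tsum_mul_left]
  have h := tsum_pois hd (s := 1) zero_le_one
  simp only [ENNReal.ofReal_one, one_pow, mul_one, sub_self, mul_zero, neg_zero,
    Real.exp_zero] at h
  rw [h, mul_one]

theorem KG_pois2 {d : ℝ} (hd : 0 ≤ d) :
    ∑' k : ℕ, ENNReal.ofReal (pois d k) * ((k * (k - 1) : ℕ) : ℝ≥0∞) = ENNReal.ofReal (d ^ 2) := by
  rw [tsum_eq_zero_add' ENNReal.summable]
  simp only [Nat.zero_mul, Nat.cast_zero, mul_zero, zero_add]
  have e : ∀ k : ℕ, ENNReal.ofReal (pois d (k + 1)) * (((k + 1) * (k + 1 - 1) : ℕ) : ℝ≥0∞)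
      = ENNReal.ofReal d * (ENNReal.ofReal (pois d k) * (k : ℝ≥0∞)) := by
    intro k
    rw [← ENNReal.ofReal_natCast ((k + 1) * (k + 1 - 1)), ← ENNReal.ofReal_natCast k,
      ← ENNReal.ofReal_mul (pois_nonneg hd _), ← ENNReal.ofReal_mul (pois_nonneg hd _),
      ← ENNReal.ofReal_mul hd]
    congr 1
    unfold pois
    rw [Nat.factorial_succ, pow_succ, Nat.add_sub_cancel]
    push_cast
    have h1 : ((k : ℝ) + 1) ≠ 0 := by positivity
    have h2 : (k.factorial : ℝ) ≠ 0 := by positivity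
    field_simp
  rw [tsum_congr e, ENNReal.tsum_mul_left, KG_pois1 hd, ← ENNReal.ofReal_mul hd, sq]

/-- sum over the children -/
theorem EE_sum {d : ℝ} (hd : 0 ≤ d) (n : ℕ) (g : Tr n → ℝ≥0∞) :
    EE d (n + 1) (fun T => ∑ c : Fin T.1, g (T.2 c)) = ENNReal.ofReal d * EE d n g := by
  rw [EE_succ hd n (fun k f => ∑ c : Fin k, g (f c))]
  have e : ∀ k : ℕ, ∑' f : Fin k → Tr n, (∏ i, w d n (f i)) * ∑ c : Fin k, g (f c)
      = (k : ℝ≥0∞) * EE d n g := by
    intro k
    simp only [Finset.mul_sum]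
    rw [Summable.tsum_finsetSum (fun _ _ => ENNReal.summable),
      Finset.sum_congr rfl (fun c _ => KG_one hd n g k c)]
    simp
  have e2 : ∀ k : ℕ, ENNReal.ofReal (pois d k) *
      ∑' f : Fin k → Tr n, (∏ i, w d n (f i)) * ∑ c : Fin k, g (f c)
      = (ENNReal.ofReal (pois d k) * (k : ℝ≥0∞)) * EE d n g := by
    intro k
    rw [e k, mul_assoc]
  rw [tsum_congr e2, ENNReal.tsum_mul_right, KG_pois1 hd]

/-- sum over the ordered pairs of distinct children -/
theorem EE_pairs {d : ℝ} (hd : 0 ≤ d) (n : ℕ) (g : Tr n → ℝ≥0∞) :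
    EE d (n + 1) (fun T => ∑ c : Fin T.1, ∑ c' ∈ Finset.univ.filter (fun c' => c ≠ c'),
      g (T.2 c) * g (T.2 c')) = ENNReal.ofReal (d ^ 2) * (EE d n g * EE d n g) := by
  rw [EE_succ hd n (fun k f => ∑ c : Fin k, ∑ c' ∈ Finset.univ.filter (fun c' => c ≠ c'),
    g (f c) * g (f c'))]
  have e : ∀ k : ℕ, ∑' f : Fin k → Tr n, (∏ i, w d n (f i)) *
      ∑ c : Fin k, ∑ c' ∈ Finset.univ.filter (fun c' => c ≠ c'), g (f c) * g (f c')
      = ((k * (k - 1) : ℕ) : ℝ≥0∞) * (EE d n g * EE d n g) := by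
    intro k
    simp only [Finset.mul_sum]
    rw [Summable.tsum_finsetSum (fun _ _ => ENNReal.summable)]
    have e1 : ∀ c : Fin k, ∑' f : Fin k → Tr n, ∑ c' ∈ Finset.univ.filter (fun c' => c ≠ c'),
        (∏ i, w d n (f i)) * (g (f c) * g (f c')) = ((k - 1 : ℕ) : ℝ≥0∞) * (EE d n g * EE d n g) := by
      intro c
      rw [Summable.tsum_finsetSum (fun _ _ => ENNReal.summable)]
      rw [Finset.sum_congr rfl (fun c' hc' => KG_two hd n g k c c' (by
        simpa using hc'))]
      rw [Finset.sum_const, nsmul_eq_mul]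
      congr 2
      have : Finset.univ.filter (fun c' : Fin k => c ≠ c') = Finset.univ.erase c := by
        ext x; simp [eq_comm]
      rw [this, Finset.card_erase_of_mem (Finset.mem_univ c), Finset.card_univ, Fintype.card_fin]
    rw [Finset.sum_congr rfl (fun c _ => e1 c), Finset.sum_const, nsmul_eq_mul, Finset.card_univ,
      Fintype.card_fin, ← mul_assoc]
    push_cast
    rfl
  have e2 : ∀ k : ℕ, ENNReal.ofReal (pois d k) *
      ∑' f : Fin k → Tr n, (∏ i, w d n (f i)) *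
        ∑ c : Fin k, ∑ c' ∈ Finset.univ.filter (fun c' => c ≠ c'), g (f c) * g (f c')
      = (ENNReal.ofReal (pois d k) * ((k * (k - 1) : ℕ) : ℝ≥0∞)) * (EE d n g * EE d n g) := by
    intro k
    rw [e k, mul_assoc]
  rw [tsum_congr e2, ENNReal.tsum_mul_right, KG_pois2 hd]

theorem KG_cnt_nonneg : ∀ (n : ℕ) (T : Tr n), 0 ≤ cnt n T
  | 0, _ => zero_le_one
  | n + 1, T => by
    unfold cnt
    exact Finset.sum_nonneg fun c _ => KG_cnt_nonneg n (T.2 c)

theorem EE_cnt {d : ℝ} (hd : 0 ≤ d) : ∀ n : ℕ,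
    EE d n (fun T => ENNReal.ofReal (cnt n T)) = ENNReal.ofReal (d ^ n)
  | 0 => by
    have : EE d 0 (fun T => ENNReal.ofReal (cnt 0 T)) = EE d 0 (fun _ => 1) := by
      unfold EE
      apply tsum_congr
      intro T
      simp [cnt]
    rw [this]
    unfold EE
    simp only [mul_one, pow_zero, ENNReal.ofReal_one]
    exact tsum_w hd 0
  | n + 1 => by
    have h := EE_sum hd n (fun T => ENNReal.ofReal (cnt n T))
    rw [EE_cnt hd n] at h
    have e : (fun T : Tr (n + 1) => ENNReal.ofReal (cnt (n + 1) T))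
        = fun T : Tr (n + 1) => ∑ c : Fin T.1, ENNReal.ofReal (cnt n (T.2 c)) := by
      funext T
      rw [← ENNReal.ofReal_sum_of_nonneg (fun c _ => KG_cnt_nonneg n _)]
      rfl
    rw [e, h, ← ENNReal.ofReal_mul hd]
    congr 1
    ring

/-- sum over pairs -/
theorem KG_pairs {k : ℕ} (x : Fin k → ℝ) :
    (∑ c, x c) ^ 2 - ∑ c, x c ^ 2
      = ∑ c, ∑ c' ∈ Finset.univ.filter (fun c' => c ≠ c'), x c * x c' := by
  rw [sq, Finset.sum_mul_sum, ← Finset.sum_sub_distrib]
  apply Finset.sum_congr rfl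
  intro c _
  have h := Finset.sum_filter_add_sum_filter_not (Finset.univ : Finset (Fin k))
    (fun c' => c ≠ c') (fun c' => x c * x c')
  have h2 : ∑ c' ∈ Finset.univ.filter (fun c' => ¬ (c ≠ c')), x c * x c' = x c ^ 2 := by
    have : Finset.univ.filter (fun c' : Fin k => ¬ (c ≠ c')) = {c} := by
      ext y
      simp [eq_comm]
    rw [this, Finset.sum_singleton, sq]
  rw [h2] at h
  linarith

theorem KG_A_nonneg {q : ℕ} (hq : 2 ≤ q) (lam : ℝ) : ∀ (n : ℕ) (T : Tr n), 0 ≤ A q lam n T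
  | 0, _ => by
    unfold A
    have : (1 : ℝ) / q ≤ 1 := by
      rw [div_le_one (by positivity)]
      have : (1 : ℕ) ≤ q := by omega
      exact_mod_cast this
    linarith
  | n + 1, T => by
    unfold A
    have h1 : (1 : ℝ) / q ≤ 1 := by
      rw [div_le_one (by positivity)]
      have : (1 : ℕ) ≤ q := by omega
      exact_mod_cast this
    apply add_nonneg
    · exact Finset.sum_nonneg fun c _ => KG_A_nonneg hq lam n (T.2 c)
    · apply mul_nonneg
      · apply mul_nonneg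
        · have e : lam ^ (2 * n + 2) = (lam ^ (n + 1)) ^ 2 := by ring
          rw [e]; positivity
        · linarith
      · rw [KG_pairs]
        exact Finset.sum_nonneg fun c _ => Finset.sum_nonneg fun c' _ =>
          mul_nonneg (KG_cnt_nonneg _ _) (KG_cnt_nonneg _ _)

/-- mean second moments -/
noncomputable def KG_a (q : ℕ) (lam d : ℝ) : ℕ → ℝ
  | 0 => 1 - 1 / q
  | n + 1 => d * KG_a q lam d n + lam ^ (2 * n + 2) * (1 - 1 / q) * (d ^ 2 * (d ^ n * d ^ n))

theorem KG_q {q : ℕ} (hq : 2 ≤ q) : (0 : ℝ) < 1 - 1 / q := by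
  have h2 : (2 : ℝ) ≤ q := by exact_mod_cast hq
  have : (1 : ℝ) / q ≤ 1 / 2 := one_div_le_one_div_of_le (by norm_num) h2
  linarith

theorem KG_a_nonneg {q : ℕ} (hq : 2 ≤ q) (lam : ℝ) {d : ℝ} (hd : 0 ≤ d) :
    ∀ n, 0 ≤ KG_a q lam d n
  | 0 => (KG_q hq).le
  | n + 1 => by
    unfold KG_a
    have h1 := KG_a_nonneg hq lam hd n
    have h2 := (KG_q hq).le
    have e : lam ^ (2 * n + 2) = (lam ^ (n + 1)) ^ 2 := by ring
    rw [e]
    positivity

theorem EE_A {q : ℕ} (hq : 2 ≤ q) (lam : ℝ) {d : ℝ} (hd : 0 ≤ d) : ∀ n : ℕ,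
    EE d n (fun T => ENNReal.ofReal (A q lam n T)) = ENNReal.ofReal (KG_a q lam d n)
  | 0 => by
    have : EE d 0 (fun T => ENNReal.ofReal (A q lam 0 T))
        = EE d 0 (fun _ => ENNReal.ofReal (1 - 1 / q)) := by
      unfold EE
      apply tsum_congr
      intro T
      rfl
    rw [this]
    unfold EE
    rw [ENNReal.tsum_mul_right, tsum_w hd 0, one_mul]
    rfl
  | n + 1 => by
    have h1 := EE_sum hd n (fun T => ENNReal.ofReal (A q lam n T))
    rw [EE_A hq lam hd n] at h1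
    have h2 := EE_pairs hd n (fun T => ENNReal.ofReal (cnt n T))
    rw [EE_cnt hd n] at h2
    have hl : 0 ≤ lam ^ (2 * n + 2) * (1 - 1 / (q : ℝ)) := by
      have e : lam ^ (2 * n + 2) = (lam ^ (n + 1)) ^ 2 := by ring
      rw [e]
      exact mul_nonneg (sq_nonneg _) (KG_q hq).le
    have e : (fun T : Tr (n + 1) => ENNReal.ofReal (A q lam (n + 1) T))
        = fun T : Tr (n + 1) => (∑ c : Fin T.1, ENNReal.ofReal (A q lam n (T.2 c)))
          + ENNReal.ofReal (lam ^ (2 * n + 2) * (1 - 1 / q)) *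
            (∑ c : Fin T.1, ∑ c' ∈ Finset.univ.filter (fun c' => c ≠ c'),
              ENNReal.ofReal (cnt n (T.2 c)) * ENNReal.ofReal (cnt n (T.2 c'))) := by
      funext T
      have e1 : A q lam (n + 1) T = ∑ c : Fin T.1, A q lam n (T.2 c)
          + lam ^ (2 * n + 2) * (1 - 1 / q) *
            ∑ c : Fin T.1, ∑ c' ∈ Finset.univ.filter (fun c' => c ≠ c'),
              cnt n (T.2 c) * cnt n (T.2 c') := by
        rw [← KG_pairs (fun c => cnt n (T.2 c))]
        rfl
      have hs : 0 ≤ ∑ c : Fin T.1, ∑ c' ∈ Finset.univ.filter (fun c' => c ≠ c'),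
          cnt n (T.2 c) * cnt n (T.2 c') :=
        Finset.sum_nonneg fun c _ => Finset.sum_nonneg fun c' _ =>
          mul_nonneg (KG_cnt_nonneg _ _) (KG_cnt_nonneg _ _)
      rw [e1, ENNReal.ofReal_add (Finset.sum_nonneg fun c _ => KG_A_nonneg hq lam n _)
        (mul_nonneg hl hs), ENNReal.ofReal_mul hl,
        ENNReal.ofReal_sum_of_nonneg (fun c _ => KG_A_nonneg hq lam n _),
        ENNReal.ofReal_sum_of_nonneg (fun c _ => Finset.sum_nonneg fun c' _ =>
          mul_nonneg (KG_cnt_nonneg _ _) (KG_cnt_nonneg _ _))]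
      congr 2
      apply Finset.sum_congr rfl
      intro c _
      rw [ENNReal.ofReal_sum_of_nonneg (fun c' _ =>
        mul_nonneg (KG_cnt_nonneg _ _) (KG_cnt_nonneg _ _))]
      apply Finset.sum_congr rfl
      intro c' _
      rw [ENNReal.ofReal_mul (KG_cnt_nonneg _ _)]
    rw [e]
    have e3 : EE d (n + 1) (fun T : Tr (n + 1) => (∑ c : Fin T.1, ENNReal.ofReal (A q lam n (T.2 c)))
          + ENNReal.ofReal (lam ^ (2 * n + 2) * (1 - 1 / q)) *
            (∑ c : Fin T.1, ∑ c' ∈ Finset.univ.filter (fun c' => c ≠ c'),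
              ENNReal.ofReal (cnt n (T.2 c)) * ENNReal.ofReal (cnt n (T.2 c'))))
        = EE d (n + 1) (fun T : Tr (n + 1) => ∑ c : Fin T.1, ENNReal.ofReal (A q lam n (T.2 c)))
          + ENNReal.ofReal (lam ^ (2 * n + 2) * (1 - 1 / q)) * EE d (n + 1)
            (fun T : Tr (n + 1) => ∑ c : Fin T.1, ∑ c' ∈ Finset.univ.filter (fun c' => c ≠ c'),
              ENNReal.ofReal (cnt n (T.2 c)) * ENNReal.ofReal (cnt n (T.2 c'))) := by
      unfold EE
      rw [← ENNReal.tsum_mul_left, ← ENNReal.tsum_add]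
      apply tsum_congr
      intro T
      ring
    rw [e3, h1, h2]
    have hd2 : 0 ≤ d ^ 2 := sq_nonneg d
    have hdn : 0 ≤ d ^ n := pow_nonneg hd n
    rw [← ENNReal.ofReal_mul hd, ← ENNReal.ofReal_mul hdn, ← ENNReal.ofReal_mul hd2,
      ← ENNReal.ofReal_mul hl, ← ENNReal.ofReal_add (mul_nonneg hd (KG_a_nonneg hq lam hd n))
        (mul_nonneg hl (by positivity))]
    rfl

/-- Galton-Watson trees: `E cnt = d^n`, `E A (n+1) = d E A n + lam^(2n+2) (1-1/q) d^(2n+2)`
(Poisson: `E k = d`, `E k(k-1) = d^2`), then the arithmetic-geometric mean inequality over the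
tree -/
theorem ks_gw (q : ℕ) (hq : 2 ≤ q) (lam : ℝ) (h0 : -(1 / ((q : ℝ) - 1)) ≤ lam) (h1 : lam ≤ 1)
    (d : ℝ) (hd : 0 < d) (h : 1 < d * lam ^ 2) :
    ∃ c : ℝ, 0 < c ∧ ∀ n, c ≤ aGW q lam d n := by
  have hq0 : q ≠ 0 := by omega
  have hp := Subcrit.potts_nonneg' hq h0 h1
  obtain ⟨p, hpdef⟩ : ∃ p : ℝ, p = 1 - 1 / q := ⟨_, rfl⟩
  have hp0 : 0 < p := by rw [hpdef]; exact KG_q hq
  obtain ⟨r, hr⟩ : ∃ r : ℝ, r = d * lam ^ 2 := ⟨_, rfl⟩
  rw [← hr] at h
  have hr0 : 0 < r := by linarith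
  have hlam : lam ≠ 0 := by
    intro hl
    rw [hr, hl] at h
    norm_num at h
  obtain ⟨C, hC⟩ : ∃ C : ℝ, C = p * r / (r - 1) := ⟨_, rfl⟩
  have hr1 : 0 < r - 1 := by linarith
  have hC0 : 0 < C := by rw [hC]; positivity
  have hCrec : C / r + p = C := by
    rw [hC]; field_simp; ring
  -- second moments
  have ha : ∀ n, KG_a q lam d n ≤ C * ((d * lam) ^ 2) ^ n := by
    intro n
    induction n with
    | zero =>
      have : KG_a q lam d 0 = p := by rw [hpdef]; rfl
      rw [this, pow_zero, mul_one, hC, le_div_iff₀ hr1]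
      nlinarith
    | succ n ih =>
      have e1 : KG_a q lam d (n + 1) = d * KG_a q lam d n + p * ((d * lam) ^ 2) ^ (n + 1) := by
        have : KG_a q lam d (n + 1) = d * KG_a q lam d n
          + lam ^ (2 * n + 2) * (1 - 1 / q) * (d ^ 2 * (d ^ n * d ^ n)) := rfl
        rw [this, ← hpdef]
        ring
      rw [e1]
      have e2 : d * KG_a q lam d n ≤ C / r * ((d * lam) ^ 2) ^ (n + 1) := by
        have e3 : C / r * ((d * lam) ^ 2) ^ (n + 1) = d * (C * ((d * lam) ^ 2) ^ n) := by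
          rw [pow_succ]
          have : (d * lam) ^ 2 = d * r := by rw [hr]; ring
          rw [this]
          field_simp
        rw [e3]
        exact mul_le_mul_of_nonneg_left ih hd.le
      have e4 : C * ((d * lam) ^ 2) ^ (n + 1) = C / r * ((d * lam) ^ 2) ^ (n + 1)
          + p * ((d * lam) ^ 2) ^ (n + 1) := by
        rw [← add_mul, hCrec]
      rw [e4]
      linarith
  refine ⟨p ^ 2 / (2 * C), by positivity, fun n => ?_⟩
  obtain ⟨M, hM⟩ : ∃ M : ℝ, M = (d * |lam|) ^ n := ⟨_, rfl⟩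
  have hM0 : 0 < M := by rw [hM]; positivity
  have hM2 : ((d * lam) ^ 2) ^ n = M ^ 2 := by
    have e : (d * |lam|) ^ 2 = (d * lam) ^ 2 := by rw [mul_pow, mul_pow, sq_abs]
    rw [hM, ← e, ← pow_mul, ← pow_mul, mul_comm n 2]
  obtain ⟨θ, hθ⟩ : ∃ θ : ℝ, θ = p / (2 * C * M) := ⟨_, rfl⟩
  have hθ0 : 0 < θ := by rw [hθ]; positivity
  -- pointwise inequality
  have hpt : ∀ T : Tr n, |lam| ^ n * p * cnt n T ≤ θ * A q lam n T + 1 / (2 * θ) * tvTree q lam n T := by
    intro T
    have k1 := tree_ineq q hq lam h0 h1 n T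
    rw [← hpdef] at k1
    have k2 := KG_A_nonneg hq lam n T
    have k3 := Subcrit.tvTree_nonneg' hp n T
    have k4 := KG_cnt_nonneg n T
    have k5 : (|lam| ^ n * p * cnt n T) ^ 2 ≤
        (θ * A q lam n T + 1 / (2 * θ) * tvTree q lam n T) ^ 2 := by
      have e1 : (|lam| ^ n * p * cnt n T) ^ 2 = (lam ^ n * cnt n T * p) ^ 2 := by
        rw [mul_pow, mul_pow, mul_pow, mul_pow, ← abs_pow, sq_abs]
        ring
      rw [e1]
      refine k1.trans ?_
      have e2 : (θ * A q lam n T + 1 / (2 * θ) * tvTree q lam n T) ^ 2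
          - 2 * A q lam n T * tvTree q lam n T
          = (θ * A q lam n T - 1 / (2 * θ) * tvTree q lam n T) ^ 2 := by
        field_simp
        ring
      nlinarith [sq_nonneg (θ * A q lam n T - 1 / (2 * θ) * tvTree q lam n T)]
    exact le_of_sq_le_sq k5 (by positivity)
  -- expectations
  have htv : EE d n (fun T => ENNReal.ofReal (tvTree q lam n T)) = ENNReal.ofReal (aGW q lam d n) :=
    (ofReal_Ex hd.le (fun T => Subcrit.tvTree_nonneg' hp n T)
      (fun T => Subcrit.tvTree_le_one hq0 hp n T)).symm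
  have hE : ENNReal.ofReal (|lam| ^ n * p) * ENNReal.ofReal (d ^ n) ≤
      ENNReal.ofReal θ * ENNReal.ofReal (KG_a q lam d n)
        + ENNReal.ofReal (1 / (2 * θ)) * ENNReal.ofReal (aGW q lam d n) := by
    rw [← EE_cnt hd.le n, ← EE_A hq lam hd.le n, ← htv]
    unfold EE
    rw [← ENNReal.tsum_mul_left, ← ENNReal.tsum_mul_left, ← ENNReal.tsum_mul_left,
      ← ENNReal.tsum_add]
    refine ENNReal.tsum_le_tsum fun T => ?_
    have k2 := KG_A_nonneg hq lam n T
    have k3 := Subcrit.tvTree_nonneg' hp n T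
    have e1 : ENNReal.ofReal (|lam| ^ n * p) * (w d n T * ENNReal.ofReal (cnt n T))
        = w d n T * ENNReal.ofReal (|lam| ^ n * p * cnt n T) := by
      rw [ENNReal.ofReal_mul (by positivity : 0 ≤ |lam| ^ n * p)]
      ring
    have e2 : ENNReal.ofReal θ * (w d n T * ENNReal.ofReal (A q lam n T))
        + ENNReal.ofReal (1 / (2 * θ)) * (w d n T * ENNReal.ofReal (tvTree q lam n T))
        = w d n T * ENNReal.ofReal (θ * A q lam n T + 1 / (2 * θ) * tvTree q lam n T) := by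
      rw [ENNReal.ofReal_add (by positivity) (by positivity), ENNReal.ofReal_mul hθ0.le,
        ENNReal.ofReal_mul (by positivity : 0 ≤ 1 / (2 * θ))]
      ring
    rw [e1, e2]
    exact mul_le_mul_right (ENNReal.ofReal_le_ofReal (hpt T)) _
  have haGW : 0 ≤ aGW q lam d n :=
    tsum_nonneg fun T => mul_nonneg (gwProb_nonneg hd.le n T) (Subcrit.tvTree_nonneg' hp n T)
  have han := KG_a_nonneg hq lam hd.le n
  rw [← ENNReal.ofReal_mul (by positivity), ← ENNReal.ofReal_mul hθ0.le,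
    ← ENNReal.ofReal_mul (by positivity), ← ENNReal.ofReal_add (by positivity) (by positivity),
    ENNReal.ofReal_le_ofReal_iff (by positivity)] at hE
  have e1 : |lam| ^ n * p * d ^ n = p * M := by rw [hM, mul_pow]; ring
  rw [e1] at hE
  have h2 := ha n
  rw [hM2] at h2
  have h3 : θ * KG_a q lam d n ≤ p * M / 2 := by
    have : θ * KG_a q lam d n ≤ θ * (C * M ^ 2) := mul_le_mul_of_nonneg_left h2 hθ0.le
    have e : θ * (C * M ^ 2) = p * M / 2 := by rw [hθ]; field_simp
    linarith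
  have h4 : p * M / 2 ≤ 1 / (2 * θ) * aGW q lam d n := by linarith
  have h5 : θ * (p * M) ≤ aGW q lam d n := by
    have h6 := mul_le_mul_of_nonneg_left h4 (by positivity : 0 ≤ 2 * θ)
    have e2 : 2 * θ * (1 / (2 * θ) * aGW q lam d n) = aGW q lam d n := by field_simp
    have e3 : 2 * θ * (p * M / 2) = θ * (p * M) := by ring
    rw [e2, e3] at h6
    exact h6
  have e4 : θ * (p * M) = p ^ 2 / (2 * C) := by rw [hθ]; field_simp
  rw [← e4]
  exact h5

end Vale.Agent.Lib.P154.KS
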