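import Vale.Agent.Lib.P154.KS

/-! Reconstruction above the Kesten-Stigum bound, regular trees. -/

namespace Vale.Agent.Lib.P154.KS

open scoped BigOperators
open Filter Topology

theorem ksr_cnt (d n : ℕ) : cnt n (regTree d n) = (d : ℝ) ^ n := by
  induction n with
  | zero => simp [cnt]
  | succ n ih =>
    have h : cnt (n + 1) (regTree d (n + 1)) = ∑ _c : Fin d, cnt n (regTree d n) := rfl
    rw [h, ih, Finset.sum_const, Finset.card_univ, Fintype.card_fin, nsmul_eq_mul, pow_succ]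
    ring

theorem ksr_A (q : ℕ) (lam : ℝ) (d n : ℕ) :
    A q lam (n + 1) (regTree d (n + 1)) = d * A q lam n (regTree d n)
      + lam ^ 2 * (1 - 1 / q) * (d ^ 2 - d) * ((d : ℝ) ^ 2 * lam ^ 2) ^ n := by
  have h : A q lam (n + 1) (regTree d (n + 1)) = ∑ _c : Fin d, A q lam n (regTree d n)
      + lam ^ (2 * n + 2) * (1 - 1 / q) * ((∑ _c : Fin d, cnt n (regTree d n)) ^ 2
        - ∑ _c : Fin d, cnt n (regTree d n) ^ 2) := rfl
  rw [h, ksr_cnt]
  simp only [Finset.sum_const, Finset.card_univ, Fintype.card_fin, nsmul_eq_mul]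
  ring

/-- regular trees: `cnt = d^n`, `A (n+1) = d A n + lam^(2n+2) (1-1/q) d (d-1) d^(2n)`, hence
`A n ≤ C (d lam)^(2n)` -/
theorem ks_reg (q : ℕ) (hq : 2 ≤ q) (lam : ℝ) (h0 : -(1 / ((q : ℝ) - 1)) ≤ lam) (h1 : lam ≤ 1)
    (d : ℕ) (hd : 2 ≤ d) (h : 1 < (d : ℝ) * lam ^ 2) :
    ∃ c : ℝ, 0 < c ∧ ∀ n, c ≤ aReg q lam d n := by
  have hq2 : (2 : ℝ) ≤ q := by exact_mod_cast hq
  have hd2 : (2 : ℝ) ≤ d := by exact_mod_cast hd
  have hq0 : (0 : ℝ) < q := by linarith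
  have hqa : 0 < 1 / (q : ℝ) := by positivity
  have hqb : 1 / (q : ℝ) ≤ 1 / 2 := one_div_le_one_div_of_le (by norm_num) hq2
  have hk0 : 0 < 1 - 1 / (q : ℝ) := by linarith
  have hk1 : 1 - 1 / (q : ℝ) ≤ 1 := by linarith
  obtain ⟨x, hx⟩ : ∃ x : ℝ, x = (d : ℝ) ^ 2 * lam ^ 2 := ⟨_, rfl⟩
  have hxd : (d : ℝ) < x := by
    rw [hx]
    nlinarith
  have hx0 : 0 < x := by linarith
  have hxd' : 0 < x - d := by linarith
  obtain ⟨K, hK⟩ : ∃ K : ℝ, K = lam ^ 2 * (1 - 1 / q) * (d ^ 2 - d) := ⟨_, rfl⟩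
  have hdd : 0 ≤ (d : ℝ) ^ 2 - d := by nlinarith
  have hK0 : 0 ≤ K := by
    rw [hK]
    exact mul_nonneg (mul_nonneg (sq_nonneg _) hk0.le) hdd
  obtain ⟨C, hC⟩ : ∃ C : ℝ, C = 1 + K / (x - d) := ⟨_, rfl⟩
  have hC0 : 0 < C := by
    rw [hC]
    positivity
  have hCK : K ≤ C * (x - d) := by
    rw [hC, add_mul, div_mul_cancel₀ _ hxd'.ne']
    linarith
  have hA0 : ∀ n, 0 ≤ A q lam n (regTree d n) := by
    intro n
    induction n with
    | zero => exact hk0.le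
    | succ n ih =>
      rw [ksr_A, ← hx, ← hK]
      have : 0 ≤ K * x ^ n := mul_nonneg hK0 (pow_pos hx0 n).le
      have : 0 ≤ (d : ℝ) * A q lam n (regTree d n) := mul_nonneg (by linarith) ih
      linarith
  have hA : ∀ n, A q lam n (regTree d n) ≤ C * x ^ n := by
    intro n
    induction n with
    | zero =>
      have h2 : A q lam 0 (regTree d 0) = 1 - 1 / (q : ℝ) := rfl
      have h3 : 0 ≤ K / (x - d) := by positivity
      rw [h2, pow_zero, mul_one, hC]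
      linarith
    | succ n ih =>
      rw [ksr_A, ← hx, ← hK]
      have h2 : (d : ℝ) * A q lam n (regTree d n) ≤ d * (C * x ^ n) :=
        mul_le_mul_of_nonneg_left ih (by linarith)
      have h3 : K * x ^ n ≤ C * (x - d) * x ^ n :=
        mul_le_mul_of_nonneg_right hCK (pow_pos hx0 n).le
      rw [pow_succ]
      linarith
  refine ⟨(1 - 1 / (q : ℝ)) ^ 2 / (2 * C), by positivity, fun n => ?_⟩
  have h2 := tree_ineq q hq lam h0 h1 n (regTree d n)
  rw [ksr_cnt] at h2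
  have h3 : (lam ^ n * (d : ℝ) ^ n * (1 - 1 / (q : ℝ))) ^ 2 = x ^ n * (1 - 1 / (q : ℝ)) ^ 2 := by
    rw [hx, mul_pow, mul_pow, mul_pow, ← pow_mul, ← pow_mul, ← pow_mul, ← pow_mul]
    ring
  rw [h3] at h2
  have h4 : 0 < x ^ n * (1 - 1 / (q : ℝ)) ^ 2 := by positivity
  have h5 : 0 < tvTree q lam n (regTree d n) := by
    by_contra hcon
    push Not at hcon
    have := mul_nonpos_of_nonneg_of_nonpos
      (mul_nonneg (by norm_num : (0 : ℝ) ≤ 2) (hA0 n)) hcon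
    linarith
  have h6 : 2 * A q lam n (regTree d n) * tvTree q lam n (regTree d n)
      ≤ 2 * (C * x ^ n) * tvTree q lam n (regTree d n) :=
    mul_le_mul_of_nonneg_right (by linarith [hA n]) h5.le
  unfold aReg
  rw [div_le_iff₀ (by positivity)]
  have h7 : x ^ n * (1 - 1 / (q : ℝ)) ^ 2
      ≤ x ^ n * (tvTree q lam n (regTree d n) * (2 * C)) := by
    linarith
  exact le_of_mul_le_mul_left h7 (pow_pos hx0 n)

end Vale.Agent.Lib.P154.KS
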