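import Vale.Agent.Lib.P154.Pot2Tree

/-!
Galton-Watson trees: second order potentials, and the subcritical offspring mean.
-/

namespace Vale.Agent.Lib.P154

open scoped BigOperators ENNReal
open Filter Topology

namespace GWAux

/-- product formula for sums over finite sequences, with varying factors -/
theorem tsum_pi_dep {α : Type} : ∀ (k : ℕ) (g : Fin k → α → ℝ≥0∞),
    ∑' f : Fin k → α, ∏ i, g i (f i) = ∏ i, ∑' a, g i a
  | 0, g => by
    rw [tsum_fintype]
    simp
  | k + 1, g => by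
    rw [← (Fin.consEquiv (fun _ : Fin (k + 1) => α)).tsum_eq]
    have e : ∀ c : α × (Fin k → α), ∏ i, g i ((Fin.consEquiv fun _ : Fin (k + 1) => α) c i)
        = g 0 c.1 * ∏ i, g i.succ (c.2 i) := by
      intro c
      rw [Fin.prod_univ_succ]
      simp [Fin.consEquiv]
    rw [tsum_congr e, ENNReal.tsum_prod
      (f := fun a (f : Fin k → α) => g 0 a * ∏ i : Fin k, g i.succ (f i))]
    simp only [ENNReal.tsum_mul_left, tsum_pi_dep k (fun i => g i.succ), ENNReal.tsum_mul_right]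
    rw [Fin.prod_univ_succ]

/-- extended expectation over the tree -/
noncomputable def EE (d : ℝ) (n : ℕ) (F : Tr n → ℝ≥0∞) : ℝ≥0∞ := ∑' T : Tr n, w d n T * F T

theorem EE_mono {d : ℝ} {n : ℕ} {F G : Tr n → ℝ≥0∞} (h : ∀ T, F T ≤ G T) :
    EE d n F ≤ EE d n G := ENNReal.tsum_le_tsum fun T => mul_le_mul_right (h T) _

theorem EE_add {d : ℝ} {n : ℕ} (F G : Tr n → ℝ≥0∞) :
    EE d n (fun T => F T + G T) = EE d n F + EE d n G := by
  unfold EE
  rw [← ENNReal.tsum_add]
  exact tsum_congr fun T => mul_add _ _ _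

theorem EE_const_mul {d : ℝ} {n : ℕ} (a : ℝ≥0∞) (F : Tr n → ℝ≥0∞) :
    EE d n (fun T => a * F T) = a * EE d n F := by
  unfold EE
  rw [← ENNReal.tsum_mul_left]
  exact tsum_congr fun T => mul_left_comm _ _ _

theorem EE_succ {d : ℝ} (hd : 0 ≤ d) (n : ℕ) (F : (k : ℕ) → (Fin k → Tr n) → ℝ≥0∞) :
    EE d (n + 1) (fun T => F T.1 T.2)
      = ∑' k, ENNReal.ofReal (pois d k) *
        ∑' f : Fin k → Tr n, (∏ i, w d n (f i)) * F k f := by
  unfold EE
  have h1 : ∑' T : Tr (n + 1), w d (n + 1) T * F T.1 T.2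
      = ∑' T : (Σ k : ℕ, (Fin k → Tr n)), ENNReal.ofReal (pois d T.1)
          * ((∏ i, w d n (T.2 i)) * F T.1 T.2) := by
    apply tsum_congr
    intro T
    rw [w_succ hd, mul_assoc]
  rw [h1, ENNReal.tsum_sigma']
  apply tsum_congr
  intro k
  show ∑' b : Fin k → Tr n, ENNReal.ofReal (pois d k) * ((∏ i, w d n (b i)) * F k b) = _
  exact ENNReal.tsum_mul_left

theorem tsum_pois_nat {d : ℝ} (hd : 0 ≤ d) :
    ∑' k : ℕ, ENNReal.ofReal (pois d k) * (k : ℝ≥0∞) = ENNReal.ofReal d := by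
  rw [tsum_eq_zero_add' ENNReal.summable]
  simp only [Nat.cast_zero, mul_zero, zero_add]
  have h1 : ∀ k : ℕ, ENNReal.ofReal (pois d (k + 1)) * ((k + 1 : ℕ) : ℝ≥0∞)
      = ENNReal.ofReal d * ENNReal.ofReal (pois d k) := by
    intro k
    rw [← ENNReal.ofReal_natCast, ← ENNReal.ofReal_mul (pois_nonneg hd _),
      ← ENNReal.ofReal_mul hd]
    congr 1
    unfold pois
    rw [Nat.factorial_succ]
    have : ((k + 1 : ℕ) : ℝ) ≠ 0 := by positivity
    have : (k.factorial : ℝ) ≠ 0 := by positivity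
    push_cast
    field_simp
    ring
  rw [tsum_congr h1, ENNReal.tsum_mul_left]
  have h2 := tsum_pois hd (s := 1) zero_le_one
  simp only [ENNReal.ofReal_one, one_pow, mul_one, sub_self, mul_zero, neg_zero,
    Real.exp_zero] at h2
  rw [h2, mul_one]

/-- expected sum over the children -/
theorem EE_sum {d : ℝ} (hd : 0 ≤ d) (n : ℕ) (F : Tr n → ℝ≥0∞) :
    EE d (n + 1) (fun T => ∑ c, F (T.2 c)) = ENNReal.ofReal d * EE d n F := by
  rw [EE_succ hd n (fun k f => ∑ c, F (f c))]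
  have h1 : ∀ k : ℕ, ∑' f : Fin k → Tr n, (∏ i, w d n (f i)) * ∑ c, F (f c)
      = (k : ℝ≥0∞) * EE d n F := by
    intro k
    have h2 : ∀ f : Fin k → Tr n, (∏ i, w d n (f i)) * ∑ c, F (f c)
        = ∑ c, ∏ i, (w d n (f i) * if i = c then F (f i) else 1) := by
      intro f
      rw [Finset.mul_sum]
      refine Finset.sum_congr rfl fun c _ => ?_
      rw [Finset.prod_mul_distrib, Finset.prod_ite_eq' Finset.univ c (fun i => F (f i)),
        if_pos (Finset.mem_univ c)]
    rw [tsum_congr h2, Summable.tsum_finsetSum (fun _ _ => ENNReal.summable)]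
    have h3 : ∀ c : Fin k, ∑' f : Fin k → Tr n,
        ∏ i, (w d n (f i) * if i = c then F (f i) else 1) = EE d n F := by
      intro c
      rw [tsum_pi_dep k (fun i a => w d n a * if i = c then F a else 1)]
      have h4 : ∀ i : Fin k, ∑' a : Tr n, (w d n a * if i = c then F a else 1)
          = if i = c then EE d n F else 1 := by
        intro i
        by_cases hi : i = c
        · simp only [hi, if_true]
          rfl
        · simp only [hi, if_false, mul_one]
          exact tsum_w hd n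
      simp only [h4]
      rw [Finset.prod_ite_eq' Finset.univ c (fun _ => EE d n F), if_pos (Finset.mem_univ c)]
    rw [Finset.sum_congr rfl fun c _ => h3 c, Finset.sum_const, Finset.card_univ,
      Fintype.card_fin, nsmul_eq_mul]
  rw [tsum_congr fun k => by rw [h1 k, ← mul_assoc], ENNReal.tsum_mul_right, tsum_pois_nat hd]

/-- product of two functions at the two children, when there are exactly two -/
def pairAux {α : Type} {R : Type} [Mul R] [Zero R] (F G : α → R) : (k : ℕ) → (Fin k → α) → R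
  | 0, _ => 0
  | 1, _ => 0
  | 2, f => F (f 0) * G (f 1)
  | _ + 3, _ => 0

theorem pairAux_of_ne {α : Type} {R : Type} [Mul R] [Zero R] (F G : α → R) :
    ∀ (k : ℕ) (f : Fin k → α), k ≠ 2 → pairAux F G k f = 0
  | 0, _, _ => rfl
  | 1, _, _ => rfl
  | 2, _, h => absurd rfl h
  | _ + 3, _, _ => rfl

theorem EE_pair {d : ℝ} (hd : 0 ≤ d) (n : ℕ) (F G : Tr n → ℝ≥0∞) :
    EE d (n + 1) (fun T => pairAux F G T.1 T.2)
      = ENNReal.ofReal (pois d 2) * (EE d n F * EE d n G) := by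
  rw [EE_succ hd n (fun k f => pairAux F G k f)]
  rw [tsum_eq_single 2]
  · congr 1
    have h2 : ∀ f : Fin 2 → Tr n, (∏ i, w d n (f i)) * pairAux F G 2 f
        = ∏ i, (w d n (f i) * if i = 0 then F (f i) else G (f i)) := by
      intro f
      rw [Fin.prod_univ_two, Fin.prod_univ_two, if_pos rfl, if_neg (by decide)]
      change w d n (f 0) * w d n (f 1) * (F (f 0) * G (f 1)) = _
      ring
    rw [tsum_congr h2, tsum_pi_dep 2 (fun i a => w d n a * if i = 0 then F a else G a),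
      Fin.prod_univ_two]
    have h3 : (1 : Fin 2) ≠ 0 := by decide
    simp only [if_true, h3, if_false]
    rfl
  · intro k hk
    have : ∀ f : Fin k → Tr n, (∏ i, w d n (f i)) * pairAux F G k f = 0 := fun f => by
      rw [pairAux_of_ne F G k f hk, mul_zero]
    rw [tsum_congr this]
    simp

theorem pairAux_nonneg {α : Type} {F G : α → ℝ} (hF : ∀ a, 0 ≤ F a) (hG : ∀ a, 0 ≤ G a) :
    ∀ (k : ℕ) (f : Fin k → α), 0 ≤ pairAux F G k f
  | 0, _ => le_refl _
  | 1, _ => le_refl _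
  | 2, f => mul_nonneg (hF _) (hG _)
  | _ + 3, _ => le_refl _

theorem ofReal_pairAux {α : Type} {F G : α → ℝ} (hF : ∀ a, 0 ≤ F a) :
    ∀ (k : ℕ) (f : Fin k → α), ENNReal.ofReal (pairAux F G k f)
      = pairAux (fun a => ENNReal.ofReal (F a)) (fun a => ENNReal.ofReal (G a)) k f
  | 0, _ => ENNReal.ofReal_zero
  | 1, _ => ENNReal.ofReal_zero
  | 2, f => ENNReal.ofReal_mul (hF _)
  | _ + 3, _ => ENNReal.ofReal_zero

end GWAux

open GWAux

/-- from the averaged functional to the averaged total variation distance -/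
theorem aGW_tendsto_of_Ex (q : ℕ) (lam d B : ℝ) (h0 : 0 ≤ lam) (h1 : lam ≤ 1) (hd : 0 < d)
    (hB : 0 ≤ B)
    (X : ∀ n : ℕ, Tr n → ℝ) (hX0 : ∀ n T, 0 ≤ X n T) (hX1 : ∀ n T, X n T ≤ 1)
    (hlim : Tendsto (fun n => Ex d n (X n)) atTop (𝓝 0))
    (htv : ∀ n T, tvTree q lam n T ≤ B * Real.sqrt (X n T)) :
    Tendsto (aGW q lam d) atTop (𝓝 0) := by
  have hnn : ∀ n, 0 ≤ aGW q lam d n := fun n =>
    tsum_nonneg fun T => mul_nonneg (gwProb_nonneg hd.le n T) (GWAux.tvTree_nonneg q h0 h1 n T)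
  have hbd : ∀ (t : ℝ), 0 < t → ∀ n, aGW q lam d n ≤ B * (t / 2 + Ex d n (X n) / (2 * t)) := by
    intro t ht n
    have hs : ∀ T, tvTree q lam n T ≤ B * (t / 2 + X n T / (2 * t)) := by
      intro T
      refine (htv n T).trans (mul_le_mul_of_nonneg_left ?_ hB)
      have hsq := Real.sq_sqrt (hX0 n T)
      have h2 : 0 ≤ (Real.sqrt (X n T) - t) ^ 2 := sq_nonneg _
      have e : t / 2 + X n T / (2 * t) = (t ^ 2 + X n T) / (2 * t) := by field_simp
      rw [e, le_div_iff₀ (by positivity)]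
      nlinarith
    have e1 : aGW q lam d n ≤ Ex d n (fun T => B * (t / 2 + X n T / (2 * t))) := by
      refine Ex_mono hd.le (M := B * (t / 2 + 1 / (2 * t))) (GWAux.tvTree_nonneg q h0 h1 n) hs
        (fun T => ?_)
      apply mul_le_mul_of_nonneg_left _ hB
      have := div_le_div_of_nonneg_right (hX1 n T) (by positivity : 0 ≤ 2 * t)
      linarith
    refine e1.trans (le_of_eq ?_)
    have e2 := Ex_one_sub (a := -1 / t ^ 2) hd.le (hX0 n) (hX1 n)
    have e3 : (fun T => B * (t / 2 + X n T / (2 * t)))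
        = fun T => (B * (t / 2)) * (1 - -1 / t ^ 2 * X n T) := by
      funext T; field_simp; ring
    rw [e3, Ex_const_mul, e2]
    field_simp
    ring
  rw [Metric.tendsto_atTop]
  intro ε hε
  obtain ⟨t, ht⟩ : ∃ t, t = ε / (B + 1) := ⟨_, rfl⟩
  have htpos : 0 < t := by rw [ht]; positivity
  have hev : ∀ᶠ n in atTop, Ex d n (X n) < t ^ 2 :=
    hlim.eventually (gt_mem_nhds (by positivity))
  obtain ⟨N, hN⟩ := eventually_atTop.mp hev
  refine ⟨N, fun n hn => ?_⟩
  rw [Real.dist_eq, sub_zero, abs_of_nonneg (hnn n)]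
  refine (hbd t htpos n).trans_lt ?_
  have h3 : Ex d n (X n) / (2 * t) ≤ t / 2 := by
    rw [div_le_iff₀ (by positivity)]
    have := (hN n hn).le
    nlinarith
  have h4 : B * (t / 2 + Ex d n (X n) / (2 * t)) ≤ B * t :=
    mul_le_mul_of_nonneg_left (by linarith) hB
  have h5 : B * t < ε := by
    rw [ht, mul_div_assoc', div_lt_iff₀ (by positivity)]
    nlinarith
  linarith

variable {q : ℕ} {lam : ℝ}

/-- creation of the side functional from exactly two children -/
theorem Z_low (hq : q ≠ 0) (h0 : 0 ≤ lam) (h1 : lam ≤ 1) (pot : Pot2 q lam) (n : ℕ) :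
    ∀ (k : ℕ) (f : Fin k → Tr n),
    pot.c * lam ^ 4 * pairAux (fun T => val q lam n T pot.P) (fun T => val q lam n T pot.P) k f
      ≤ val q lam (n + 1) (⟨k, f⟩ : Tr (n + 1)) pot.Z
  | 0, f => by
    rw [pairAux_of_ne _ _ 0 _ (by omega), mul_zero]
    exact val2_Z_nonneg hq h0 h1 pot (n + 1) _
  | 1, f => by
    rw [pairAux_of_ne _ _ 1 f (by omega), mul_zero]
    exact val2_Z_nonneg hq h0 h1 pot (n + 1) _
  | 2, f => by
    have h2 := (val2_gain hq h0 h1 pot n 0 f).2
    rw [pow_zero, one_mul] at h2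
    exact h2
  | k + 3, f => by
    rw [pairAux_of_ne _ _ (k + 3) f (by omega), mul_zero]
    exact val2_Z_nonneg hq h0 h1 pot (n + 1) _

/-- the gain from exactly two children, in terms of an arbitrary lower bound for the side
functional -/
theorem P_gain (hq : q ≠ 0) (h0 : 0 ≤ lam) (h1 : lam ≤ 1) (pot : Pot2 q lam) (n : ℕ)
    (Y : Tr n → ℝ) (hY : ∀ T, Y T ≤ val q lam n T pot.Z) :
    ∀ (k : ℕ) (f : Fin k → Tr n),
    val q lam (n + 1) (⟨k, f⟩ : Tr (n + 1)) pot.P + pot.h0 * lam ^ 5 *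
      (pairAux (fun T => val q lam n T pot.P) Y k f
        + pairAux Y (fun T => val q lam n T pot.P) k f)
      ≤ lam ^ 2 * ∑ c, val q lam n (f c) pot.P
  | 0, f => by
    rw [pairAux_of_ne _ _ 0 f (by omega), pairAux_of_ne _ _ 0 f (by omega), add_zero, mul_zero,
      add_zero]
    exact val2_step hq h0 h1 pot n _
  | 1, f => by
    rw [pairAux_of_ne _ _ 1 f (by omega), pairAux_of_ne _ _ 1 f (by omega), add_zero, mul_zero,
      add_zero]
    exact val2_step hq h0 h1 pot n _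
  | 2, f => by
    have h2 : val q lam (n + 1) (⟨2, f⟩ : Tr (n + 1)) pot.P
        ≤ lam ^ 2 * (∑ c, val q lam n (f c) pot.P)
        - pot.h0 * lam ^ 5 * (val q lam n (f 1) pot.P * val q lam n (f 0) pot.Z
          + val q lam n (f 0) pot.P * val q lam n (f 1) pot.Z) :=
      (val2_gain hq h0 h1 pot n 0 f).1
    change _ + pot.h0 * lam ^ 5 * (val q lam n (f 0) pot.P * Y (f 1)
      + Y (f 0) * val q lam n (f 1) pot.P) ≤ _
    have h3 := mul_le_mul_of_nonneg_left (hY (f 1)) (val2_nonneg hq h0 h1 pot n (f 0))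
    have h4 := mul_le_mul_of_nonneg_right (hY (f 0)) (val2_nonneg hq h0 h1 pot n (f 1))
    have h5 := mul_le_mul_of_nonneg_left (add_le_add h3 h4)
      (mul_nonneg pot.h0_pos.le (by positivity : (0:ℝ) ≤ lam ^ 5))
    have e : val q lam n (f 0) pot.P * val q lam n (f 1) pot.Z
        + val q lam n (f 0) pot.Z * val q lam n (f 1) pot.P
        = val q lam n (f 1) pot.P * val q lam n (f 0) pot.Z
          + val q lam n (f 0) pot.P * val q lam n (f 1) pot.Z := by ring
    rw [e] at h5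
    linarith
  | k + 3, f => by
    rw [pairAux_of_ne _ _ (k + 3) f (by omega), pairAux_of_ne _ _ (k + 3) f (by omega), add_zero,
      mul_zero, add_zero]
    exact val2_step hq h0 h1 pot n _

/-- averaged one step inequality -/
theorem Ex_step (hq : q ≠ 0) (h0 : 0 ≤ lam) (h1 : lam ≤ 1) (pot : Pot2 q lam) (d : ℝ)
    (hd : 0 < d) (n : ℕ) (Y : Tr n → ℝ) (hY0 : ∀ T, 0 ≤ Y T)
    (hY : ∀ T, Y T ≤ val q lam n T pot.Z) :
    ENNReal.ofReal (Ex d (n + 1) (fun T => val q lam (n + 1) T pot.P))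
      + ENNReal.ofReal (2 * (pot.h0 * lam ^ 5) * pois d 2) *
        (ENNReal.ofReal (Ex d n (fun T => val q lam n T pot.P)) *
          EE d n (fun T => ENNReal.ofReal (Y T)))
      ≤ ENNReal.ofReal (d * lam ^ 2 * Ex d n (fun T => val q lam n T pot.P)) := by
  have hx0 : ∀ T : Tr n, 0 ≤ val q lam n T pot.P := val2_nonneg hq h0 h1 pot n
  have hx1 : ∀ T : Tr n, val q lam n T pot.P ≤ 1 := val2_le_one hq h0 h1 pot n
  have hk : 0 ≤ pot.h0 * lam ^ 5 := mul_nonneg pot.h0_pos.le (by positivity)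
  obtain ⟨X, hX⟩ : ∃ X : Tr n → ℝ, X = fun T => val q lam n T pot.P := ⟨_, rfl⟩
  have hX0 : ∀ T, 0 ≤ X T := fun T => by rw [hX]; exact hx0 T
  have hpt : ∀ T : Tr (n + 1),
      ENNReal.ofReal (val q lam (n + 1) T pot.P) + ENNReal.ofReal (pot.h0 * lam ^ 5) *
        (pairAux (fun T => ENNReal.ofReal (X T)) (fun T => ENNReal.ofReal (Y T)) T.1 T.2
          + pairAux (fun T => ENNReal.ofReal (Y T)) (fun T => ENNReal.ofReal (X T)) T.1 T.2)
      ≤ ENNReal.ofReal (lam ^ 2) * ∑ c, ENNReal.ofReal (X (T.2 c)) := by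
    intro T
    have h2 := P_gain hq h0 h1 pot n Y hY T.1 T.2
    rw [← hX] at h2
    rw [← ofReal_pairAux hX0, ← ofReal_pairAux hY0,
      ← ENNReal.ofReal_add (pairAux_nonneg hX0 hY0 _ _) (pairAux_nonneg hY0 hX0 _ _),
      ← ENNReal.ofReal_mul hk,
      ← ENNReal.ofReal_add (val2_nonneg hq h0 h1 pot (n + 1) T)
        (mul_nonneg hk (add_nonneg (pairAux_nonneg hX0 hY0 _ _) (pairAux_nonneg hY0 hX0 _ _))),
      ← ENNReal.ofReal_sum_of_nonneg (fun c _ => hX0 _),
      ← ENNReal.ofReal_mul (by positivity)]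
    refine ENNReal.ofReal_le_ofReal ?_
    have h3 : ∑ c, X (T.2 c) = ∑ c, val q lam n (T.2 c) pot.P := by rw [hX]
    rw [h3]
    exact h2
  have h2 := EE_mono (d := d) hpt
  rw [EE_add (fun T => ENNReal.ofReal (val q lam (n + 1) T pot.P)), EE_const_mul,
    EE_add (fun T : Tr (n + 1) => pairAux (fun T => ENNReal.ofReal (X T))
      (fun T => ENNReal.ofReal (Y T)) T.1 T.2), EE_pair hd.le, EE_pair hd.le, EE_const_mul,
    EE_sum hd.le n (fun T => ENNReal.ofReal (X T))] at h2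
  have e1 : EE d (n + 1) (fun T => ENNReal.ofReal (val q lam (n + 1) T pot.P))
      = ENNReal.ofReal (Ex d (n + 1) (fun T => val q lam (n + 1) T pot.P)) :=
    (ofReal_Ex hd.le (val2_nonneg hq h0 h1 pot (n + 1))
      (val2_le_one hq h0 h1 pot (n + 1))).symm
  have e2 : EE d n (fun T => ENNReal.ofReal (X T)) = ENNReal.ofReal (Ex d n X) :=
    (ofReal_Ex hd.le hX0 (fun T => by rw [hX]; exact hx1 T)).symm
  rw [e1, e2] at h2
  rw [← hX]
  have hEx : 0 ≤ Ex d n X := Ex_nonneg hd.le hX0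
  have e3 : ENNReal.ofReal (d * lam ^ 2 * Ex d n X)
      = ENNReal.ofReal (lam ^ 2) * (ENNReal.ofReal d * ENNReal.ofReal (Ex d n X)) := by
    rw [ENNReal.ofReal_mul (by positivity), ENNReal.ofReal_mul hd.le]
    ring
  rw [e3]
  refine le_trans (le_of_eq ?_) h2
  rw [ENNReal.ofReal_mul (by positivity), ENNReal.ofReal_mul (by norm_num : (0:ℝ) ≤ 2)]
  have e4 : ENNReal.ofReal (2 : ℝ) = 2 := by norm_num
  rw [e4]
  ring

/-- Nonreconstruction on the Galton-Watson tree from a second order potential. -/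
theorem Pot2.gw (q : ℕ) (hq : 2 ≤ q) (lam : ℝ) (h0 : 0 ≤ lam) (h1 : lam ≤ 1) (pot : Pot2 q lam)
    (d : ℝ) (hd : 0 < d) (hdl : d * lam ^ 2 ≤ 1) :
    Tendsto (aGW q lam d) atTop (𝓝 0) := by
  have hq0 : q ≠ 0 := by omega
  have hX0 : ∀ (n : ℕ) (T : Tr n), 0 ≤ val q lam n T pot.P := val2_nonneg hq0 h0 h1 pot
  have hX1 : ∀ (n : ℕ) (T : Tr n), val q lam n T pot.P ≤ 1 := val2_le_one hq0 h0 h1 pot
  obtain ⟨x, hx⟩ : ∃ x : ℕ → ℝ, ∀ n, x n = Ex d n (fun T => val q lam n T pot.P) :=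
    ⟨fun n => Ex d n (fun T => val q lam n T pot.P), fun _ => rfl⟩
  have hx0 : ∀ n, 0 ≤ x n := fun n => by rw [hx]; exact Ex_nonneg hd.le (hX0 n)
  have hanti : ∀ n, x (n + 1) ≤ d * lam ^ 2 * x n := by
    intro n
    have h2 := Ex_step hq0 h0 h1 pot d hd n (fun _ => 0) (fun _ => le_refl _)
      (val2_Z_nonneg hq0 h0 h1 pot n)
    have h3 := le_trans le_self_add h2
    rw [← hx, ← hx] at h3
    exact (ENNReal.ofReal_le_ofReal_iff (mul_nonneg (by positivity) (hx0 n))).1 h3
  have hanti' : ∀ n, x (n + 1) ≤ x n := fun n => by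
    have := mul_le_mul_of_nonneg_right hdl (hx0 n)
    linarith [hanti n]
  have hlim : Tendsto x atTop (𝓝 0) := by
    rcases h0.eq_or_lt with hl | hl
    · have hzz : ∀ n, x (n + 1) = 0 := by
        intro n
        have h2 := hanti n
        have hl0 : lam ^ 2 = 0 := by rw [← hl]; norm_num
        rw [hl0, mul_zero, zero_mul] at h2
        exact le_antisymm h2 (hx0 (n + 1))
      rw [← tendsto_add_atTop_iff_nat 1]
      simp only [hzz]
      exact tendsto_const_nhds
    · have hc := pot.c_pos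
      have hh := pot.h0_pos
      have hp : 0 < pois d 2 := by unfold pois; positivity
      have hg : 0 < 2 * (pot.h0 * lam ^ 5) * pois d 2 * (pot.c * lam ^ 4 * pois d 2) := by
        positivity
      refine tendsto_zero_of_cubic hg hx0 hanti' fun n => ?_
      have hc4 : 0 ≤ pot.c * lam ^ 4 := by positivity
      obtain ⟨Y, hY⟩ : ∃ Y : Tr (n + 1) → ℝ, Y = fun T => pot.c * lam ^ 4 *
          pairAux (fun T => val q lam n T pot.P) (fun T => val q lam n T pot.P) T.1 T.2 :=
        ⟨_, rfl⟩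
      have hY0 : ∀ T, 0 ≤ Y T := fun T => by
        rw [hY]; exact mul_nonneg hc4 (pairAux_nonneg (hX0 n) (hX0 n) _ _)
      have hYZ : ∀ T, Y T ≤ val q lam (n + 1) T pot.Z := fun T => by
        rw [hY]; exact Z_low hq0 h0 h1 pot n T.1 T.2
      have h2 := Ex_step hq0 h0 h1 pot d hd (n + 1) Y hY0 hYZ
      have e1 : EE d (n + 1) (fun T => ENNReal.ofReal (Y T))
          = ENNReal.ofReal (pot.c * lam ^ 4 * pois d 2 * (x n * x n)) := by
        have e2 : ∀ T : Tr (n + 1), ENNReal.ofReal (Y T) = ENNReal.ofReal (pot.c * lam ^ 4) *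
            pairAux (fun T => ENNReal.ofReal (val q lam n T pot.P))
              (fun T => ENNReal.ofReal (val q lam n T pot.P)) T.1 T.2 := fun T => by
          rw [← ofReal_pairAux (hX0 n), ← ENNReal.ofReal_mul hc4, hY]
        simp only [e2]
        rw [EE_const_mul, EE_pair hd.le]
        have e3 : EE d n (fun T => ENNReal.ofReal (val q lam n T pot.P))
            = ENNReal.ofReal (x n) := by
          rw [hx]
          exact (ofReal_Ex hd.le (hX0 n) (hX1 n)).symm
        rw [e3, ← ENNReal.ofReal_mul (hx0 n), ← ENNReal.ofReal_mul (pois_nonneg hd.le 2),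
          ← ENNReal.ofReal_mul hc4]
        congr 1
        ring
      rw [e1, ← hx, ← hx, ← ENNReal.ofReal_mul (hx0 (n + 1)), ← ENNReal.ofReal_mul
        (by positivity : 0 ≤ 2 * (pot.h0 * lam ^ 5) * pois d 2)] at h2
      have hxn := hx0 n
      have hxn1 := hx0 (n + 1)
      rw [← ENNReal.ofReal_add (hx0 (n + 2)) (by positivity)] at h2
      have h3 := (ENNReal.ofReal_le_ofReal_iff (mul_nonneg (by positivity)
        (hx0 (n + 1)))).1 h2
      have h4 := mul_le_mul_of_nonneg_right hdl (hx0 (n + 1))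
      have h5 : 2 * (pot.h0 * lam ^ 5) * pois d 2 * (pot.c * lam ^ 4 * pois d 2) *
          (x (n + 1) * x n ^ 2) = 2 * (pot.h0 * lam ^ 5) * pois d 2 * (x (n + 1) *
            (pot.c * lam ^ 4 * pois d 2 * (x n * x n))) := by ring
      rw [h5]
      have h6 : x (n + 2) = x (n + 1 + 1) := rfl
      rw [h6] at h3 ⊢
      linarith
  refine aGW_tendsto_of_Ex q lam d (Real.sqrt |pot.C|) h0 h1 hd (Real.sqrt_nonneg _)
    (fun n T => val q lam n T pot.P) hX0 hX1 ?_ (fun n T => ?_)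
  · refine hlim.congr fun n => hx n
  · have h := tvTree_sq_le2 hq0 h0 h1 pot n T
    rw [← Real.sqrt_mul (abs_nonneg _)]
    exact Real.le_sqrt_of_sq_le h

end Vale.Agent.Lib.P154
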