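import Vale.Agent.Lib.P154.Pot2Tree

/-!
Galton-Watson trees with offspring mean at most one: extinction.
-/

namespace Vale.Agent.Lib.P154

open scoped BigOperators
open Filter Topology
open GWAux

namespace Subcrit

variable {q : ℕ} {lam : ℝ}

theorem potts_nonneg' (hq : 2 ≤ q) (h0 : -(1 / ((q : ℝ) - 1)) ≤ lam) (h1 : lam ≤ 1)
    (i j : Fin q) : 0 ≤ potts q lam i j := by
  have hq1 : (2 : ℝ) ≤ q := by exact_mod_cast hq
  have hq2 : (0 : ℝ) < (q : ℝ) - 1 := by linarith
  have h2 : -1 ≤ ((q : ℝ) - 1) * lam := by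
    have := mul_le_mul_of_nonneg_left h0 hq2.le
    rw [mul_neg, mul_one_div_cancel hq2.ne'] at this
    exact this
  unfold potts
  split_ifs
  · have : lam + (1 - lam) / q = (1 + ((q : ℝ) - 1) * lam) / q := by
      field_simp
      ring
    rw [this]
    exact div_nonneg (by linarith) (by linarith)
  · rw [zero_add]
    exact div_nonneg (by linarith) (by linarith)

theorem lik_nonneg (hp : ∀ i j : Fin q, 0 ≤ potts q lam i j) :
    ∀ (n : ℕ) (T : Tr n) (i : Fin q) (s : Lvl n T → Fin q), 0 ≤ lik q lam n T i s := by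
  intro n
  induction n with
  | zero => intro T i s; unfold lik; split <;> norm_num
  | succ n ih =>
    intro T i s
    unfold lik
    exact Finset.prod_nonneg fun c _ => Finset.sum_nonneg fun j _ => mul_nonneg (hp i j) (ih _ _ _)

theorem lik_sum (hq : q ≠ 0) : ∀ (n : ℕ) (T : Tr n) (i : Fin q), ∑ s, lik q lam n T i s = 1 := by
  intro n
  induction n with
  | zero =>
    intro T i
    let e : Fin q ≃ (Lvl 0 T → Fin q) :=
      { toFun := fun j _ => j
        invFun := fun s => s ()
        left_inv := fun _ => rfl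
        right_inv := fun s => by funext u; cases u; rfl }
    rw [← Fintype.sum_equiv e (fun j => if j = i then (1 : ℝ) else 0) _ (fun j => rfl)]
    simp
  | succ n ih =>
    intro T i
    rw [← Fintype.sum_equiv (spinEquiv q n T).symm
      (fun s : (∀ c : Fin T.1, (Lvl n (T.2 c) → Fin q)) =>
        ∏ c : Fin T.1, ∑ j : Fin q, potts q lam i j * lik q lam n (T.2 c) j (s c)) _
      (fun s => rfl)]
    have h2 := Finset.prod_univ_sum (fun c : Fin T.1 => (Finset.univ : Finset (Lvl n (T.2 c) → Fin q)))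
      (fun (c : Fin T.1) (s : Lvl n (T.2 c) → Fin q) =>
        ∑ j : Fin q, potts q lam i j * lik q lam n (T.2 c) j s)
    rw [Fintype.piFinset_univ] at h2
    rw [← h2]
    refine Finset.prod_eq_one fun c _ => ?_
    rw [Finset.sum_comm]
    simp only [← Finset.mul_sum, ih, mul_one]
    exact potts_sum hq i

theorem tvTree_le_one (hq : q ≠ 0) (hp : ∀ i j : Fin q, 0 ≤ potts q lam i j) (n : ℕ) (T : Tr n) :
    tvTree q lam n T ≤ 1 := by
  have hq' : (q : ℝ) ≠ 0 := by exact_mod_cast hq
  have hqp : (0 : ℝ) < q := lt_of_le_of_ne (Nat.cast_nonneg q) (Ne.symm hq')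
  have hnn : ∀ s i, 0 ≤ likL q lam n T s i := fun s i => lik_nonneg hp n T i s
  rw [tvTree_eq' hq n T hnn]
  have h2 : ∑ s, ∑ i, |likL q lam n T s i - mean q (likL q lam n T s)|
      ≤ ∑ s, ∑ i, (likL q lam n T s i + mean q (likL q lam n T s)) := by
    refine Finset.sum_le_sum fun s _ => Finset.sum_le_sum fun i _ => ?_
    have h3 := hnn s i
    have h4 := mean_nonneg q (hnn s)
    rw [abs_le]
    constructor <;> linarith
  have h3 : ∑ s, ∑ i, (likL q lam n T s i + mean q (likL q lam n T s)) = 2 * q := by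
    have h4 : ∑ s, ∑ i, likL q lam n T s i = q := by
      rw [Finset.sum_comm]
      have : ∀ i : Fin q, ∑ s, likL q lam n T s i = 1 := fun i => lik_sum hq n T i
      simp [this]
    have h5 : ∀ s, ∑ i, (likL q lam n T s i + mean q (likL q lam n T s))
        = 2 * ∑ i, likL q lam n T s i := by
      intro s
      rw [Finset.sum_add_distrib, Finset.sum_const, Finset.card_univ, Fintype.card_fin,
        nsmul_eq_mul]
      unfold mean
      field_simp
      ring
    simp only [h5]
    rw [← Finset.mul_sum, h4]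
  rw [h3] at h2
  have h6 : 1 / (2 * (q : ℝ)) * ∑ s, ∑ i, |likL q lam n T s i - mean q (likL q lam n T s)|
      ≤ 1 / (2 * (q : ℝ)) * (2 * q) := mul_le_mul_of_nonneg_left h2 (by positivity)
  refine h6.trans (le_of_eq ?_)
  field_simp

theorem tvTree_nonneg' (hp : ∀ i j : Fin q, 0 ≤ potts q lam i j) (n : ℕ) (T : Tr n) :
    0 ≤ tvTree q lam n T := by
  unfold tvTree
  refine Finset.sum_nonneg fun s _ => mul_nonneg ?_ (by positivity)
  unfold prob
  exact Finset.sum_nonneg fun i _ => mul_nonneg (by positivity) (lik_nonneg hp _ _ _ _)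

theorem lik_of_isEmpty (hq : q ≠ 0) : ∀ (n : ℕ) (T : Tr n), IsEmpty (Lvl n T) →
    ∀ (i : Fin q) (s : Lvl n T → Fin q), lik q lam n T i s = 1 := by
  intro n
  induction n with
  | zero => intro T h; exact h.elim ()
  | succ n ih =>
    intro T h i s
    unfold lik
    refine Finset.prod_eq_one fun c _ => ?_
    have h2 : IsEmpty (Lvl n (T.2 c)) := ⟨fun v => h.elim ⟨c, v⟩⟩
    simp only [ih (T.2 c) h2, mul_one]
    exact potts_sum hq i

theorem tvTree_of_isEmpty (hq : q ≠ 0) (hp : ∀ i j : Fin q, 0 ≤ potts q lam i j) (n : ℕ)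
    (T : Tr n) (h : IsEmpty (Lvl n T)) : tvTree q lam n T = 0 := by
  have hq' : (q : ℝ) ≠ 0 := by exact_mod_cast hq
  have hnn : ∀ s i, 0 ≤ likL q lam n T s i := fun s i => lik_nonneg hp n T i s
  rw [tvTree_eq' hq n T hnn]
  have h2 : ∀ s, likL q lam n T s = fun _ => 1 := fun s => by
    funext i
    exact lik_of_isEmpty hq n T h i s
  have h3 : mean q (fun _ : Fin q => (1 : ℝ)) = 1 := by
    unfold mean
    rw [Finset.sum_const, Finset.card_univ, Fintype.card_fin, nsmul_eq_mul, mul_one,
      div_self hq']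
  simp only [h2, h3, sub_self, abs_zero, Finset.sum_const_zero, mul_zero]

open Classical in
/-- indicator that level `n` is not empty -/
noncomputable def alive (n : ℕ) (T : Tr n) : ℝ := if Nonempty (Lvl n T) then 1 else 0

theorem alive_nonneg (n : ℕ) (T : Tr n) : 0 ≤ alive n T := by
  unfold alive; split_ifs <;> norm_num

theorem alive_le_one (n : ℕ) (T : Tr n) : alive n T ≤ 1 := by
  unfold alive; split_ifs <;> norm_num

theorem alive_succ (n : ℕ) (T : Tr (n + 1)) :
    1 - 1 * alive (n + 1) T = ∏ c, (1 - 1 * alive n (T.2 c)) := by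
  unfold alive
  by_cases h : Nonempty (Lvl (n + 1) T)
  · obtain ⟨⟨c, v⟩⟩ := h
    rw [if_pos ⟨⟨c, v⟩⟩]
    symm
    rw [mul_one, sub_self]
    refine Finset.prod_eq_zero (Finset.mem_univ c) ?_
    rw [if_pos ⟨v⟩]
    norm_num
  · rw [if_neg h]
    symm
    rw [mul_zero, sub_zero]
    refine Finset.prod_eq_one fun c _ => ?_
    have h2 : ¬ Nonempty (Lvl n (T.2 c)) := fun ⟨v⟩ => h ⟨⟨c, v⟩⟩
    rw [if_neg h2]
    norm_num

theorem tendsto_alive {d : ℝ} (hd : 0 < d) (hd1 : d ≤ 1) :
    Tendsto (fun n => Ex d n (alive n)) atTop (𝓝 0) := by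
  refine tendsto_zero_of_rec (c := 1) (a := d) one_pos hd.le hd1
    (fun n => Ex_nonneg hd.le (alive_nonneg n)) fun n => ?_
  have e1 := Ex_prod (d := d) (n := n) (g := fun T => 1 - 1 * alive n T) hd.le
    (fun T => by have := alive_le_one n T; linarith)
    (fun T => by have := alive_nonneg n T; linarith)
  have e2 := Ex_one_sub (a := 1) hd.le (alive_nonneg n) (alive_le_one n)
  have e3 := Ex_one_sub (a := 1) hd.le (alive_nonneg (n + 1)) (alive_le_one (n + 1))
  rw [e2] at e1
  have e4 : (fun T : Tr (n + 1) => 1 - 1 * alive (n + 1) T)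
      = fun T => ∏ c, (1 - 1 * alive n (T.2 c)) := by
    funext T
    exact alive_succ n T
  rw [e4, e1] at e3
  have e5 : -(d * (1 - (1 - 1 * Ex d n (alive n)))) = -(d * 1 * Ex d n (alive n)) := by ring
  rw [e5] at e3
  linarith

end Subcrit

open Subcrit

/-- On a Galton-Watson tree with offspring mean at most one there is no reconstruction. -/
theorem gw_subcritical (q : ℕ) (hq : 2 ≤ q) (lam : ℝ) (h0 : -(1 / ((q : ℝ) - 1)) ≤ lam)
    (h1 : lam ≤ 1) (d : ℝ) (hd : 0 < d) (hd1 : d ≤ 1) :
    Tendsto (aGW q lam d) atTop (𝓝 0) := by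
  have hq0 : q ≠ 0 := by omega
  have hp := potts_nonneg' hq h0 h1
  refine squeeze_zero (fun n => ?_) (fun n => ?_) (tendsto_alive hd hd1)
  · exact tsum_nonneg fun T => mul_nonneg (gwProb_nonneg hd.le n T) (tvTree_nonneg' hp n T)
  · refine Ex_mono hd.le (M := 1) (fun T => tvTree_nonneg' hp n T) (fun T => ?_)
      (alive_le_one n)
    by_cases h : Nonempty (Lvl n T)
    · have : alive n T = 1 := by unfold alive; rw [if_pos h]
      rw [this]
      exact tvTree_le_one hq0 hp n T
    · rw [tvTree_of_isEmpty hq0 hp n T (not_nonempty_iff.1 h)]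
      exact alive_nonneg n T

end Vale.Agent.Lib.P154
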