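import Vale.Agent.Lib.P154.Defs

namespace Vale.Agent.Lib.P154

open scoped BigOperators
open Filter Topology

noncomputable def mean (q : ℕ) (W : Fin q → ℝ) : ℝ := (∑ i, W i) / q

/-- average over permutations -/
noncomputable def starAvg (q : ℕ) (F : (Fin q → ℝ) → ℝ) (W W' : Fin q → ℝ) : ℝ :=
  (1 / (q.factorial : ℝ)) * ∑ g : Equiv.Perm (Fin q), F (fun i => W i * W' (g i))

/-- action of the channel on likelihood vectors -/
noncomputable def chan (q : ℕ) (lam : ℝ) (W : Fin q → ℝ) : Fin q → ℝ :=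
  fun i => ∑ j : Fin q, potts q lam i j * W j

/-- value of a functional of the likelihood vector on the tree `T` -/
noncomputable def val (q : ℕ) (lam : ℝ) (n : ℕ) (T : Tr n) (F : (Fin q → ℝ) → ℝ) : ℝ :=
  ∑ s : Lvl n T → Fin q, F (fun i => lik q lam n T i s)

/-- A potential for the channel `potts q lam`. -/
structure Pot (q : ℕ) (lam : ℝ) where
  P : (Fin q → ℝ) → ℝ
  Z : (Fin q → ℝ) → ℝ
  K : (Fin q → ℝ) → ℝ
  H : (Fin q → ℝ) → ℝ
  c : ℝ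
  C : ℝ
  c_pos : 0 < c
  c_le : c ≤ 1
  P_nonneg : ∀ W, (∀ i, 0 ≤ W i) → 0 ≤ P W
  P_le : ∀ W, (∀ i, 0 ≤ W i) → P W ≤ mean q W
  K_nonneg : ∀ W, (∀ i, 0 ≤ W i) → 0 ≤ K W
  H_nonneg : ∀ W, (∀ i, 0 ≤ W i) → 0 ≤ H W
  /-- side functional is preserved by merging -/
  starZ : ∀ W W' : Fin q → ℝ, (∀ i, 0 ≤ W i) → (∀ i, 0 ≤ W' i) →
    K W' * Z W + K W * Z W' ≤ starAvg q Z W W'
  /-- main functional is subadditive under merging -/
  starP : ∀ W W' : Fin q → ℝ, (∀ i, 0 ≤ W i) → (∀ i, 0 ≤ W' i) →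
    starAvg q P W W' ≤ P W * mean q W' + mean q W * P W' - H W' * Z W - H W * Z W' - c * P W * P W'
  chanP : ∀ W, (∀ i, 0 ≤ W i) → P (chan q lam W) ≤ lam ^ 2 * P W
  chanZ : ∀ W, (∀ i, 0 ≤ W i) → lam ^ 3 * Z W ≤ Z (chan q lam W)
  leafZ : ∀ j : Fin q, 0 ≤ Z (fun i => if j = i then 1 else 0)
  P_one : P (fun _ => 1) = 0
  Z_one : Z (fun _ => 1) = 0
  tv : ∀ W, (∀ i, 0 ≤ W i) → (∑ i, |W i - mean q W|) ^ 2 ≤ C * mean q W * P W

end Vale.Agent.Lib.P154
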