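import Vale.Agent.Lib.P154.Pot2

/-!
One-step inequalities on trees for second order potentials, and the `d`-ary tree.
-/

namespace Vale.Agent.Lib.P154

open scoped BigOperators
open Filter Topology

variable {q : ℕ} {lam : ℝ} {pot : Pot2 q lam}

theorem good2_zero (q : ℕ) (lam : ℝ) (pot : Pot2 q lam) (T : Tr 0) :
    GoodEns2 pot (likL q lam 0 T) := by
  let e : Fin q ≃ (Lvl 0 T → Fin q) :=
    { toFun := fun j _ => j
      invFun := fun s => s ()
      left_inv := fun _ => rfl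
      right_inv := fun s => by funext u; cases u; rfl }
  refine GoodEns2.of_equiv (L := fun j : Fin q => fun i => if j = i then (1:ℝ) else 0) e
    (fun j => ?_) ⟨⟨?_, ?_, ?_⟩, ?_⟩
  · funext i
    rfl
  · intro j i
    show (0:ℝ) ≤ if j = i then (1:ℝ) else 0
    split_ifs <;> norm_num
  · intro G g
    rw [← Equiv.sum_comp g (fun j : Fin q => G (fun i => if j = g i then (1:ℝ) else 0))]
    refine Finset.sum_congr rfl fun j _ => ?_
    congr 1
    funext i
    simp [g.injective.eq_iff]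
  · intro i
    simp
  · exact Finset.sum_nonneg fun j _ => pot.leafZ j

theorem likL_prod (n : ℕ) (T : Tr (n + 1)) (s : ∀ c : Fin T.1, (Lvl n (T.2 c) → Fin q)) :
    (fun i => ∏ c : Fin T.1, chan q lam (likL q lam n (T.2 c) (s c)) i)
      = likL q lam (n + 1) T ((spinEquiv q n T).symm s) := by
  rw [likL_succ]
  simp only [Equiv.apply_symm_apply]

theorem val_prod (n : ℕ) (T : Tr (n + 1)) (F : (Fin q → ℝ) → ℝ) :
    val q lam (n + 1) T F
      = ∑ s : (∀ c : Fin T.1, (Lvl n (T.2 c) → Fin q)),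
        F (fun i => ∏ c : Fin T.1, chan q lam (likL q lam n (T.2 c) (s c)) i) :=
  (Fintype.sum_equiv (spinEquiv q n T).symm _ _ fun s => by rw [likL_prod]; rfl).symm

theorem good2_succ (hq : q ≠ 0) (h0 : 0 ≤ lam) (h1 : lam ≤ 1) (n : ℕ)
    (ih : ∀ T : Tr n, GoodEns2 pot (likL q lam n T)) (T : Tr (n + 1)) :
    GoodEns2 pot (likL q lam (n + 1) T) ∧
    val q lam (n + 1) T pot.P ≤ lam ^ 2 * ∑ c, val q lam n (T.2 c) pot.P := by
  have hc := fun c : Fin T.1 => (ih (T.2 c)).chan hq h0 h1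
  obtain ⟨g1, g2⟩ := good2_pi (pot := pot) hq T.1 (fun c => Lvl n (T.2 c) → Fin q)
    (fun c => inferInstance) (fun c s => chan q lam (likL q lam n (T.2 c) s))
    (fun c => (hc c).1.good)
  refine ⟨GoodEns2.of_equiv (spinEquiv q n T).symm (fun s => likL_prod n T s) g1, ?_⟩
  rw [val_prod, Finset.mul_sum]
  refine g2.trans (le_of_eq ?_)
  exact Finset.sum_congr rfl fun c _ => (hc c).2.1

theorem good2_likL (hq : q ≠ 0) (h0 : 0 ≤ lam) (h1 : lam ≤ 1) (pot : Pot2 q lam) :
    ∀ (n : ℕ) (T : Tr n), GoodEns2 pot (likL q lam n T)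
  | 0, T => good2_zero q lam pot T
  | n + 1, T => (good2_succ hq h0 h1 n (good2_likL hq h0 h1 pot n) T).1

theorem val2_nonneg (hq : q ≠ 0) (h0 : 0 ≤ lam) (h1 : lam ≤ 1) (pot : Pot2 q lam) (n : ℕ)
    (T : Tr n) : 0 ≤ val q lam n T pot.P := (good2_likL hq h0 h1 pot n T).P_nonneg

theorem val2_le_one (hq : q ≠ 0) (h0 : 0 ≤ lam) (h1 : lam ≤ 1) (pot : Pot2 q lam) (n : ℕ)
    (T : Tr n) : val q lam n T pot.P ≤ 1 := (good2_likL hq h0 h1 pot n T).P_le hq

theorem val2_Z_nonneg (hq : q ≠ 0) (h0 : 0 ≤ lam) (h1 : lam ≤ 1) (pot : Pot2 q lam) (n : ℕ)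
    (T : Tr n) : 0 ≤ val q lam n T pot.Z := (good2_likL hq h0 h1 pot n T).Z_nonneg

theorem val2_step (hq : q ≠ 0) (h0 : 0 ≤ lam) (h1 : lam ≤ 1) (pot : Pot2 q lam) (n : ℕ)
    (T : Tr (n + 1)) :
    val q lam (n + 1) T pot.P ≤ lam ^ 2 * ∑ c, val q lam n (T.2 c) pot.P :=
  (good2_succ hq h0 h1 n (good2_likL hq h0 h1 pot n) T).2

/-- gain and creation of the side functional for at least two children -/
theorem val2_gain (hq : q ≠ 0) (h0 : 0 ≤ lam) (h1 : lam ≤ 1) (pot : Pot2 q lam) (n m : ℕ)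
    (f : Fin (m + 2) → Tr n) :
    (val q lam (n + 1) (⟨m + 2, f⟩ : Tr (n + 1)) pot.P
      ≤ lam ^ 2 * (∑ c, val q lam n (f c) pot.P)
      - pot.h0 * lam ^ 5 * (val q lam n (f (Fin.last (m + 1))) pot.P *
          val q lam n (f (Fin.last m).castSucc) pot.Z
        + val q lam n (f (Fin.last m).castSucc) pot.P *
          val q lam n (f (Fin.last (m + 1))) pot.Z)) ∧
    pot.h0 ^ m * (pot.c * lam ^ 4 * (val q lam n (f (Fin.last m).castSucc) pot.P *
        val q lam n (f (Fin.last (m + 1))) pot.P))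
      ≤ val q lam (n + 1) (⟨m + 2, f⟩ : Tr (n + 1)) pot.Z := by
  have hc := fun c : Fin (m + 2) => (good2_likL hq h0 h1 pot n (f c)).chan hq h0 h1
  obtain ⟨g1, g2⟩ := good2_pi_gain (pot := pot) hq m (fun c => Lvl n (f c) → Fin q)
    (fun c => inferInstance) (fun c s => chan q lam (likL q lam n (f c) s))
    (fun c => (hc c).1)
  have eP := val_prod (q := q) (lam := lam) n (⟨m + 2, f⟩ : Tr (n + 1)) pot.P
  have eZ := val_prod (q := q) (lam := lam) n (⟨m + 2, f⟩ : Tr (n + 1)) pot.Z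
  rw [eP, eZ]
  have hPc : ∀ c, ∑ s, pot.P (chan q lam (likL q lam n (f c) s))
      = lam ^ 2 * val q lam n (f c) pot.P := fun c => (hc c).2.1
  have hZc : ∀ c, lam ^ 3 * val q lam n (f c) pot.Z
      ≤ ∑ s, pot.Z (chan q lam (likL q lam n (f c) s)) := fun c => (hc c).2.2
  have hx : ∀ c, 0 ≤ lam ^ 2 * val q lam n (f c) pot.P := fun c =>
    mul_nonneg (by positivity) (val2_nonneg hq h0 h1 pot n (f c))
  simp only [hPc] at g1 g2
  constructor
  · refine le_trans g1 ?_
    rw [← Finset.mul_sum]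
    have b1 := mul_le_mul_of_nonneg_left (hZc (Fin.last m).castSucc) (hx (Fin.last (m + 1)))
    have b2 := mul_le_mul_of_nonneg_left (hZc (Fin.last (m + 1))) (hx (Fin.last m).castSucc)
    have b3 := mul_le_mul_of_nonneg_left (add_le_add b1 b2) pot.h0_pos.le
    refine le_trans (sub_le_sub_left b3 _) (le_of_eq ?_)
    ring
  · refine le_trans (le_of_eq ?_) g2
    ring

/-! ### Total variation -/

/-- the total variation quantity in terms of likelihoods -/
theorem tvTree_eq' (hq : q ≠ 0) (n : ℕ) (T : Tr n)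
    (hnn : ∀ s i, 0 ≤ likL q lam n T s i) :
    tvTree q lam n T = (1 / (2 * q)) *
      ∑ s, ∑ i, |likL q lam n T s i - mean q (likL q lam n T s)| := by
  have hq' : (q : ℝ) ≠ 0 := by exact_mod_cast hq
  have hqp : (0 : ℝ) < q := lt_of_le_of_ne (Nat.cast_nonneg q) (Ne.symm hq')
  unfold tvTree
  rw [Finset.mul_sum]
  refine Finset.sum_congr rfl fun s _ => ?_
  have hprob : prob q lam n T s = mean q (likL q lam n T s) := by
    unfold prob mean likL
    rw [← Finset.mul_sum]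
    field_simp
  have hnn := hnn s
  rw [hprob]
  have hterm : ∀ i, mean q (likL q lam n T s) * |post q lam n T i s - 1 / (q : ℝ)|
      = (1 / q) * |likL q lam n T s i - mean q (likL q lam n T s)| := by
    intro i
    unfold post
    rw [hprob]
    change mean q (likL q lam n T s) * |1 / (q : ℝ) * likL q lam n T s i
      / mean q (likL q lam n T s) - 1 / (q : ℝ)| = _
    obtain ⟨W, hW⟩ : ∃ W, W = likL q lam n T s := ⟨_, rfl⟩
    rw [← hW] at hnn ⊢
    have hm := mean_nonneg q hnn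
    rcases hm.eq_or_lt with hm0 | hm0
    · have hz : W i = 0 := by
        have h2 : ∑ j, W j = 0 := by
          have h3 : (∑ j, W j) / (q : ℝ) = 0 := hm0.symm
          rcases div_eq_zero_iff.1 h3 with h4 | h4
          · exact h4
          · exact absurd h4 hq'
        exact (Finset.sum_eq_zero_iff_of_nonneg fun j _ => hnn j).1 h2 i (Finset.mem_univ i)
      rw [← hm0, hz]
      simp
    · have e1 : 1 / (q : ℝ) * W i / mean q W - 1 / (q : ℝ)
          = (1 / (q : ℝ)) / mean q W * (W i - mean q W) := by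
        field_simp
      rw [e1, abs_mul, abs_of_pos (by positivity : (0:ℝ) < 1 / (q : ℝ) / mean q W)]
      field_simp
  calc mean q (likL q lam n T s) * (1 / 2 * ∑ i, |post q lam n T i s - 1 / (q : ℝ)|)
      = 1 / 2 * ∑ i, mean q (likL q lam n T s) * |post q lam n T i s - 1 / (q : ℝ)| := by
        rw [← Finset.mul_sum]; ring
    _ = 1 / 2 * ∑ i, (1 / q) * |likL q lam n T s i - mean q (likL q lam n T s)| := by
        simp only [hterm]
    _ = _ := by
        rw [← Finset.mul_sum]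
        field_simp

theorem tvTree_sq_le2 (hq : q ≠ 0) (h0 : 0 ≤ lam) (h1 : lam ≤ 1) (pot : Pot2 q lam) (n : ℕ)
    (T : Tr n) : tvTree q lam n T ^ 2 ≤ |pot.C| * val q lam n T pot.P := by
  have hgood := good2_likL hq h0 h1 pot n T
  have hq1 : (1 : ℝ) ≤ q := by exact_mod_cast Nat.one_le_iff_ne_zero.2 hq
  have h2 : (∑ s, ∑ i, |likL q lam n T s i - mean q (likL q lam n T s)|) ^ 2
      ≤ (∑ s, mean q (likL q lam n T s)) * ∑ s, |pot.C| * pot.P (likL q lam n T s) := by
    refine Finset.sum_sq_le_sum_mul_sum_of_sq_le_mul _ (fun s _ => mean_nonneg q (hgood.ens.nonneg s))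
      (fun s _ => mul_nonneg (abs_nonneg _) (pot.P_nonneg _ (hgood.ens.nonneg s))) fun s _ => ?_
    refine (pot.tv _ (hgood.ens.nonneg s)).trans ?_
    have h3 : 0 ≤ mean q (likL q lam n T s) * pot.P (likL q lam n T s) :=
      mul_nonneg (mean_nonneg q (hgood.ens.nonneg s)) (pot.P_nonneg _ (hgood.ens.nonneg s))
    have h4 := mul_le_mul_of_nonneg_right (le_abs_self pot.C) h3
    linarith
  rw [hgood.ens.sum_mean hq, one_mul, ← Finset.mul_sum] at h2
  rw [tvTree_eq' hq n T hgood.ens.nonneg, mul_pow]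
  have h5 : (1 / (2 * (q : ℝ))) ^ 2 ≤ 1 := by
    have h6 : 1 / (2 * (q : ℝ)) ≤ 1 := by
      rw [div_le_one (by positivity)]
      linarith
    have h7 : 0 ≤ 1 / (2 * (q : ℝ)) := by positivity
    nlinarith
  have h8 : 0 ≤ (∑ s, ∑ i, |likL q lam n T s i - mean q (likL q lam n T s)|) ^ 2 := sq_nonneg _
  calc (1 / (2 * (q : ℝ))) ^ 2 * (∑ s, ∑ i, |likL q lam n T s i
        - mean q (likL q lam n T s)|) ^ 2
      ≤ 1 * (∑ s, ∑ i, |likL q lam n T s i - mean q (likL q lam n T s)|) ^ 2 :=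
        mul_le_mul_of_nonneg_right h5 h8
    _ ≤ _ := by rw [one_mul]; exact h2

/-! ### Scalar recursion -/

/-- a nonnegative sequence with delayed cubic decrease tends to zero -/
theorem tendsto_zero_of_cubic {x : ℕ → ℝ} {g : ℝ} (hg : 0 < g) (hx : ∀ n, 0 ≤ x n)
    (hanti : ∀ n, x (n + 1) ≤ x n)
    (hstep : ∀ n, x (n + 2) ≤ x (n + 1) - g * (x (n + 1) * x n ^ 2)) :
    Tendsto x atTop (𝓝 0) := by
  have hanti' : Antitone x := antitone_nat_of_succ_le hanti
  have hbdd : BddBelow (Set.range x) := ⟨0, by rintro _ ⟨n, rfl⟩; exact hx n⟩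
  have hlim := tendsto_atTop_ciInf hanti' hbdd
  obtain ⟨l, hl⟩ : ∃ l, l = ⨅ n, x n := ⟨_, rfl⟩
  rw [← hl] at hlim
  have hl0 : 0 ≤ l := ge_of_tendsto' hlim hx
  have h1 : Tendsto (fun n => x (n + 1)) atTop (𝓝 l) := hlim.comp (tendsto_add_atTop_nat 1)
  have h2 : Tendsto (fun n => x (n + 2)) atTop (𝓝 l) := hlim.comp (tendsto_add_atTop_nat 2)
  have h3 : Tendsto (fun n => x (n + 1) - g * (x (n + 1) * x n ^ 2)) atTop
      (𝓝 (l - g * (l * l ^ 2))) :=
    h1.sub ((h1.mul (hlim.pow 2)).const_mul g)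
  have h4 : l ≤ l - g * (l * l ^ 2) := le_of_tendsto_of_tendsto' h2 h3 hstep
  have h5 : l = 0 := by
    by_contra hne
    have : 0 < l := lt_of_le_of_ne hl0 (Ne.symm hne)
    have : 0 < g * (l * l ^ 2) := by positivity
    linarith
  rwa [h5] at hlim

/-- Nonreconstruction on the `d`-ary tree from a second order potential. -/
theorem Pot2.reg (q : ℕ) (hq : 2 ≤ q) (lam : ℝ) (h0 : 0 ≤ lam) (h1 : lam ≤ 1) (pot : Pot2 q lam)
    (d : ℕ) (hd : 2 ≤ d) (hdl : (d : ℝ) * lam ^ 2 ≤ 1) :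
    Tendsto (aReg q lam d) atTop (𝓝 0) := by
  have hq0 : q ≠ 0 := by omega
  obtain ⟨m, rfl⟩ : ∃ m, d = m + 2 := ⟨d - 2, by omega⟩
  obtain ⟨x, hx⟩ : ∃ x : ℕ → ℝ, ∀ n, x n = val q lam n (regTree (m + 2) n) pot.P :=
    ⟨fun n => val q lam n (regTree (m + 2) n) pot.P, fun _ => rfl⟩
  obtain ⟨z, hz⟩ : ∃ z : ℕ → ℝ, ∀ n, z n = val q lam n (regTree (m + 2) n) pot.Z :=
    ⟨fun n => val q lam n (regTree (m + 2) n) pot.Z, fun _ => rfl⟩
  have hx0 : ∀ n, 0 ≤ x n := fun n => by rw [hx]; exact val2_nonneg hq0 h0 h1 pot n _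
  have hz0 : ∀ n, 0 ≤ z n := fun n => by rw [hz]; exact val2_Z_nonneg hq0 h0 h1 pot n _
  have hgain : ∀ n, x (n + 1) ≤ x n - pot.h0 * lam ^ 5 * (2 * (x n * z n)) ∧
      pot.h0 ^ m * (pot.c * lam ^ 4 * (x n * x n)) ≤ z (n + 1) := by
    intro n
    obtain ⟨a1, a2⟩ := val2_gain hq0 h0 h1 pot n m (fun _ => regTree (m + 2) n)
    rw [← hx, ← hz] at a1
    rw [← hx] at a2
    have e1 : x (n + 1) = val q lam (n + 1) (⟨m + 2, fun _ => regTree (m + 2) n⟩ : Tr (n + 1))
      pot.P := hx (n + 1)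
    have e2 : z (n + 1) = val q lam (n + 1) (⟨m + 2, fun _ => regTree (m + 2) n⟩ : Tr (n + 1))
      pot.Z := hz (n + 1)
    rw [← e1] at a1
    rw [← e2] at a2
    refine ⟨?_, a2⟩
    rw [Finset.sum_const, Finset.card_univ, Fintype.card_fin, nsmul_eq_mul] at a1
    have e3 : lam ^ 2 * (((m + 2 : ℕ) : ℝ) * x n) = (((m + 2 : ℕ) : ℝ) * lam ^ 2) * x n := by ring
    rw [e3] at a1
    have e4 := mul_le_mul_of_nonneg_right hdl (hx0 n)
    rw [one_mul] at e4
    have e5 : x n * z n + x n * z n = 2 * (x n * z n) := by ring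
    rw [e5] at a1
    linarith
  have hxlim : Tendsto x atTop (𝓝 0) := by
    rcases h0.eq_or_lt with hl | hl
    · have hzz : ∀ n, x (n + 1) = 0 := by
        intro n
        have h2 := val2_step hq0 h0 h1 pot n (regTree (m + 2) (n + 1))
        have hl0 : lam ^ 2 = 0 := by rw [← hl]; norm_num
        rw [hl0, zero_mul, ← hx] at h2
        exact le_antisymm h2 (hx0 (n + 1))
      rw [← tendsto_add_atTop_iff_nat 1]
      simp only [hzz]
      exact tendsto_const_nhds
    · have hc := pot.c_pos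
      have hh := pot.h0_pos
      have hg : 0 < 2 * pot.h0 * lam ^ 5 * (pot.h0 ^ m * (pot.c * lam ^ 4)) := by positivity
      refine tendsto_zero_of_cubic hg hx0 (fun n => ?_) fun n => ?_
      · have h3 := (hgain n).1
        have h4 : 0 ≤ pot.h0 * lam ^ 5 * (2 * (x n * z n)) := by
          have := hx0 n
          have := hz0 n
          positivity
        linarith
      · have h3 := (hgain (n + 1)).1
        have h4 := (hgain n).2
        have h5 := mul_le_mul_of_nonneg_left h4 (hx0 (n + 1))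
        have h6 := mul_le_mul_of_nonneg_left h5 (by positivity : 0 ≤ 2 * (pot.h0 * lam ^ 5))
        refine h3.trans ?_
        have e1 : 2 * pot.h0 * lam ^ 5 * (pot.h0 ^ m * (pot.c * lam ^ 4)) * (x (n + 1) * x n ^ 2)
            = 2 * (pot.h0 * lam ^ 5) * (x (n + 1) *
              (pot.h0 ^ m * (pot.c * lam ^ 4 * (x n * x n)))) := by ring
        rw [e1]
        linarith
  refine tendsto_zero_of_sq_le (C := |pot.C|) (fun n => ?_) hxlim fun n => ?_
  · exact GWAux.tvTree_nonneg q h0 h1 n _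
  · rw [hx]
    exact tvTree_sq_le2 hq0 h0 h1 pot n _

end Vale.Agent.Lib.P154
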