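import Vale.Agent.Lib.P154.FrameTree
import Vale.Agent.Lib.P154.GW

namespace Vale.Agent.Lib.P154

open Filter Topology

theorem Pot.gw (q : ℕ) (hq : 2 ≤ q) (lam : ℝ) (h0 : 0 ≤ lam) (h1 : lam ≤ 1) (pot : Pot q lam)
    (d : ℝ) (hd : 0 < d) (hdl : d * lam ^ 2 ≤ 1) :
    Tendsto (aGW q lam d) atTop (𝓝 0) := by
  have hq0 : q ≠ 0 := by omega
  refine aGW_tendsto_zero q lam d pot.c (Real.sqrt |pot.C|) h0 h1 hd hdl pot.c_pos pot.c_le
    (Real.sqrt_nonneg _) (fun n T => val q lam n T pot.P)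
    (fun n T => val_nonneg hq0 h0 h1 pot n T) (fun n T => val_le_one hq0 h0 h1 pot n T)
    (fun n T => ?_) (fun n T => ?_)
  · refine le_trans (le_of_eq ?_) (val_step hq0 h0 h1 pot n T)
    refine Finset.prod_congr rfl fun c _ => ?_
    ring
  · have h := tvTree_sq_le hq0 h0 h1 pot n T
    rw [← Real.sqrt_mul (abs_nonneg _)]
    exact Real.le_sqrt_of_sq_le h

end Vale.Agent.Lib.P154
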